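import Vale.Agent.P328.Law1

/-!
The corner table, mixing of one run.
-/

namespace Vale.Agent.P328.Lw

open Finset

theorem tele {n : ℕ} (c : Fin n → ℕ) {a b : ℕ} (hab : a ≤ b) (hb : b ≤ ∑ j, c j) :
    ∑ j, (min b (∑ l ∈ Iic j, c l) - max a (∑ l ∈ Iio j, c l)) = b - a := by
  set S : ℕ → ℕ := fun k => ∑ l ∈ univ.filter (fun l : Fin n => l.val < k), c l
  have e1 : ∀ j : Fin n, ∑ l ∈ Iio j, c l = S j := fun j =>
    sum_congr (by ext l; simp) fun _ _ => rfl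
  have e2 : ∀ j : Fin n, ∑ l ∈ Iic j, c l = S (j + 1) := fun j =>
    sum_congr (by ext l; simp) fun _ _ => rfl
  have e3 : ∀ k, S k ≤ S (k + 1) := fun k =>
    sum_le_sum_of_subset fun l => by simp only [mem_filter]; exact fun h => ⟨h.1, by omega⟩
  have e4 : S 0 = 0 := by simp [S]
  have e5 : S n = ∑ j, c j := sum_congr (by ext l; simp) fun _ _ => rfl
  have e6 : ∀ j : Fin n, ((min b (S (j + 1)) - max a (S j) : ℕ) : ℤ) =
      (min b (max a (S (j + 1))) : ℕ) - (min b (max a (S j)) : ℕ) := fun j => by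
    have := e3 j
    omega
  have := Fin.sum_univ_eq_sum_range
    (fun k => ((min b (max a (S (k + 1))) : ℕ) : ℤ) - (min b (max a (S k)) : ℕ)) n
  rw [sum_range_sub (fun k => ((min b (max a (S k)) : ℕ) : ℤ)), e4, e5] at this
  simp only [e1, e2]
  zify
  rw [← sum_congr rfl fun j _ => e6 j] at this
  omega
theorem Iic_eq {n : ℕ} (c : Fin n → ℕ) (j : Fin n) :
    ∑ l ∈ Iic j, c l = ∑ l ∈ Iio j, c l + c j := by
  rw [← Iio_insert, sum_insert (by simp), add_comm]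
theorem nw_mem {m n : ℕ} (r : Fin m → ℕ) (c : Fin n → ℕ) (h : ∑ i, r i = ∑ j, c j) :
    nw r c ∈ tables r c := by
  simp only [tables, mem_filter, Fintype.mem_piFinset, mem_range, nw]
  refine ⟨fun i j => ?_, fun i => ?_, fun j => ?_⟩
  · have := Iic_eq r i
    omega
  · rw [tele c (by rw [Iic_eq]; omega) (h ▸ sum_le_sum_of_subset (subset_univ _)), Iic_eq]
    omega
  · simp only [min_comm (∑ l ∈ Iic _, r l), max_comm (∑ l ∈ Iio _, r l)]
    rw [tele r (by rw [Iic_eq]; omega) (h ▸ sum_le_sum_of_subset (subset_univ _)), Iic_eq]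
    omega

variable {m n : ℕ} (p : Par (Fin m) (Fin n))

theorem zero_box : (0 : St (Fin m) (Fin n)) ∈ p.mdl.box :=
  (mem_box p).2 fun c => ⟨le_rfl, p.mdl.capnn c⟩
theorem fout_mem (hu : p.UnifStmt) (s l) : p.fout s l ∈ tables p.r p.c := by
  induction s generalizing l with
  | zero => exact nw_mem _ _ p.hsum
  | succ s ih =>
    rw [Par.fout]
    split_ifs with h
    exacts [hu.1 _ (frun_box p _ _ (zero_box p)) h, ih _]
theorem ex_le (hN : (∑ i, p.r i).size + 4 ≤ p.q) (c) : p.ex c ≤ p.q := by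
  have h1 : p.r c.1 ≤ ∑ i, p.r i := single_le_sum (fun _ _ => Nat.zero_le _) (mem_univ _)
  have h2 := Nat.lt_size_self (∑ i, p.r i)
  have h3 : 2 ^ ((∑ i, p.r i).size + 4) ≤ 2 ^ p.q := Nat.pow_le_pow_right (by norm_num) hN
  rw [pow_add] at h3
  unfold Par.ex
  split_ifs
  · omega
  · rw [Nat.size_le]; omega
  · rw [Nat.size_le]; omega
theorem wt_pos (x) : 0 < p.wt x := pow_pos p.gam_pos _
theorem Z_le (hex : ∀ c, p.ex c ≤ p.q) : ∑ x ∈ p.mdl.box, p.wt x ≤ 2 ^ (p.q * p.q) := by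
  have h1 : ∑ x ∈ p.mdl.box, p.wt x ≤ p.mdl.box.card := by
    simpa using sum_le_card_nsmul p.mdl.box p.wt 1 fun x _ => pow_le_one₀ p.gam_pos.le p.gam_le
  have h2 : p.mdl.box.card ≤ 2 ^ (p.q * p.q) := by
    rw [Mdl.box, Fintype.card_piFinset]
    refine (prod_le_pow_card _ _ (2 ^ p.q) fun c _ => ?_).trans ?_
    · have : (2 : ℤ) ^ p.ex c ≤ 2 ^ p.q := pow_le_pow_right₀ (by norm_num) (hex c)
      simp only [Int.card_Icc, Par.mdl, Par.cap, Int.toNat_le]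
      push_cast; omega
    · rw [← pow_mul]
      refine Nat.pow_le_pow_right (by norm_num) (Nat.mul_le_mul_left _ ?_)
      have := (mn_le p).2.2
      simp only [card_univ, Fintype.card_prod, Fintype.card_fin]; omega
  exact h1.trans (by exact_mod_cast h2)
theorem decay {N : ℕ} (hN : 1 ≤ N) {a T : ℕ} (h : N * a ≤ T) :
    (1 - 1 / (N : ℝ)) ^ T ≤ (1 / 2) ^ a := by
  have h1 : (1 : ℝ) ≤ N := by exact_mod_cast hN
  have h2 : 1 / (N : ℝ) ≤ 1 := by rw [div_le_one (by linarith)]; exact h1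
  have h3 : 0 ≤ 1 / (N : ℝ) := by positivity
  refine (pow_le_pow_of_le_one (by linarith) (by linarith) h).trans ?_
  rw [pow_mul]
  refine pow_le_pow_left₀ (pow_nonneg (by linarith) _) ?_ _
  refine (Real.one_sub_div_pow_le_exp_neg h1).trans ?_
  have := Real.exp_neg_one_lt_d9
  linarith
theorem num {q : ℕ} (hq : 512 ≤ q) {z d : ℝ} (z0 : 0 ≤ z)
    (hz : z ≤ 2 ^ (q * q) / (1 / 2 : ℝ) ^ q ^ 18) (hd : d ≤ (1 / 2) ^ q ^ 19) :
    4 * z * d ≤ ((1 / 2) ^ q) ^ 2 := by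
  have i : 2 + q * q + q ^ 18 + q * 2 ≤ q ^ 19 := by
    have a1 : q ^ 2 ≤ q ^ 18 := Nat.pow_le_pow_right (by omega) (by norm_num)
    have a2 : 512 * q ^ 18 ≤ q ^ 19 := by
      rw [pow_succ q 18, mul_comm]; exact Nat.mul_le_mul_left _ hq
    nlinarith
  obtain ⟨E, hE⟩ := Nat.exists_eq_add_of_le i
  rw [hE] at hd
  generalize q ^ 18 = A at *
  calc _ ≤ 4 * z * (1 / 2) ^ (2 + q * q + A + q * 2 + E) :=
      mul_le_mul_of_nonneg_left hd (by positivity)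
    _ ≤ 4 * (2 ^ (q * q) / (1 / 2 : ℝ) ^ A) * (1 / 2) ^ (2 + q * q + A + q * 2 + E) := by gcongr
    _ = ((1 / 2) ^ q) ^ 2 * (1 / 2) ^ E := by
      rw [← pow_mul]
      simp only [pow_add, one_div, inv_pow]
      field_simp; norm_num
    _ ≤ _ := mul_le_of_le_one_right (by positivity) (pow_le_one₀ (by norm_num) (by norm_num))
theorem mix (hc : ChainStmt (Fin m) (Fin n)) (hr : p.RoundStmt) (hg : p.GapStmt)
    (hex : ∀ c, p.ex c ≤ p.q) (F : St (Fin m) (Fin n) → ℝ) (hF : ∀ x ∈ p.mdl.box, |F x| ≤ 1) :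
    |Ex (p.T1 * p.B1) (fun l => F (p.frun p.T1 l 0)) -
      (∑ x ∈ p.mdl.box, p.wt x * F x) / ∑ x ∈ p.mdl.box, p.wt x| ≤ (1 / 2) ^ p.q := by
  have hq := p.q_ge
  have hq' := p.qR
  have h1 : (1 : ℝ) ≤ p.q := by linarith
  have hmn : (2 : ℝ) * (m * n) ≤ p.q := by exact_mod_cast (mn_le p).2.2
  have key := hc p.mdl p.wt ((p.q : ℝ) ^ 98) ((p.q : ℝ) ^ 14) (1 / (p.q : ℝ) ^ 2)
    (one_le_pow₀ h1) (one_le_pow₀ h1) (by positivity)
    (by
      simp only [Fintype.card_prod, Fintype.card_fin]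
      rw [one_div_mul_eq_div, div_le_iff₀ (by positivity)]
      push_cast; nlinarith)
    (by rw [div_le_one (by positivity)]; exact one_le_pow₀ h1)
    (fun x _ => hr.1 x) hg hr.2.2 F hF 0 (zero_box p) p.T1
  rw [Ex_run p hr.2.1 hex F _ (zero_box p)]
  refine abs_le_of_sq_le_sq' (key.trans ?_) (by positivity) |> abs_le.2
  have e : 1 / (p.q : ℝ) ^ 2 / (4 * (p.q : ℝ) ^ 98 * (p.q : ℝ) ^ 14) =
      1 / ((4 * p.q ^ 114 : ℕ) : ℝ) := by push_cast; field_simp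
  have d : (1 - 1 / ((4 * p.q ^ 114 : ℕ) : ℝ)) ^ p.T1 ≤ (1 / 2) ^ p.q ^ 19 :=
    decay (Nat.succ_le_of_lt (by positivity)) (by
      rw [Par.T1, show p.q ^ 134 = p.q * p.q ^ 114 * p.q ^ 19 by ring]
      exact Nat.mul_le_mul_right _ (Nat.mul_le_mul_right _ (by omega)))
  have w : (1 / 2 : ℝ) ^ p.q ^ 18 ≤ p.wt 0 :=
    (pow_le_pow_of_le_one (by norm_num) (by norm_num) (hr.2.1 _ (zero_box p))).trans
      (pow_le_pow_left₀ (by norm_num) p.gam_half _)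
  have z : (∑ x ∈ p.mdl.box, p.wt x) / p.wt 0 ≤ 2 ^ (p.q * p.q) / (1 / 2 : ℝ) ^ p.q ^ 18 :=
    div_le_div₀ (by positivity) (Z_le p hex) (by positivity) w
  have z0 : 0 ≤ (∑ x ∈ p.mdl.box, p.wt x) / p.wt 0 :=
    div_nonneg (sum_nonneg fun x _ => (wt_pos p x).le) (wt_pos p _).le
  rw [e]
  exact num hq z0 z d

end Vale.Agent.P328.Lw
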