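import Vale.Agent.P328.Spec

/-!
Averages over random bits; one step of the chain.
-/

namespace Vale.Agent.P328.Lw

open Finset

theorem Ex_mono {n : ℕ} {F G : List Bool → ℝ} (h : ∀ l, l.length = n → F l ≤ G l) :
    Ex n F ≤ Ex n G := by
  induction n generalizing F G with
  | zero => exact h [] rfl
  | succ n ih =>
    simp only [Ex]
    have a := ih (F := fun l => F (false :: l)) (G := fun l => G (false :: l))
      fun l hl => h _ (by simp [hl])
    have b := ih (F := fun l => F (true :: l)) (G := fun l => G (true :: l))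
      fun l hl => h _ (by simp [hl])
    linarith
theorem Ex_congr {n : ℕ} {F G : List Bool → ℝ} (h : ∀ l, l.length = n → F l = G l) :
    Ex n F = Ex n G :=
  le_antisymm (Ex_mono fun l e => (h l e).le) (Ex_mono fun l e => (h l e).ge)
theorem Ex_const (n : ℕ) (c : ℝ) : Ex n (fun _ => c) = c := by
  induction n with
  | zero => rfl
  | succ n ih => simp only [Ex, ih]; ring
theorem Ex_lin (n : ℕ) (a b c : ℝ) (F G : List Bool → ℝ) :
    Ex n (fun l => a + b * F l + c * G l) = a + b * Ex n F + c * Ex n G := by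
  induction n generalizing F G with
  | zero => rfl
  | succ n ih => simp only [Ex, ih]; ring
theorem Ex_app (a b : ℕ) (F : List Bool → ℝ) :
    Ex (a + b) F = Ex a fun l => Ex b fun l' => F (l ++ l') := by
  induction a generalizing F with
  | zero => simp [Ex]
  | succ a ih => rw [show a + 1 + b = (a + b) + 1 by omega]; simp only [Ex, ih, List.cons_append]
theorem Ex_split (a b : ℕ) (H : List Bool → List Bool → ℝ) :
    Ex (a + b) (fun l => H (l.take a) (l.drop a)) = Ex a fun l => Ex b fun l' => H l l' := by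
  rw [Ex_app]
  exact Ex_congr fun l e => by simp [← e]
theorem Ex_take {a n : ℕ} (h : a ≤ n) (H : List Bool → ℝ) :
    Ex n (fun l => H (l.take a)) = Ex a H := by
  obtain ⟨b, rfl⟩ := Nat.exists_eq_add_of_le h
  rw [Ex_split a b fun l _ => H l]
  simp only [Ex_const]
theorem Ex_fold (a : ℕ) (G : ℕ → ℝ) (m : ℕ) :
    Ex a (fun l => G (l.foldl (fun m b => Nat.bit b m) m)) =
      (∑ v ∈ range (2 ^ a), G (m * 2 ^ a + v)) / 2 ^ a := by
  induction a generalizing m with
  | zero => simp [Ex]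
  | succ a ih =>
    simp only [Ex, List.foldl_cons, ih]
    rw [show 2 ^ (a + 1) = 2 ^ a + 2 ^ a by ring, sum_range_add]
    have e1 : ∀ v, Nat.bit false m * 2 ^ a + v = m * (2 ^ a + 2 ^ a) + v := fun v => by
      simp [Nat.bit]; ring
    have e2 : ∀ v, Nat.bit true m * 2 ^ a + v = m * (2 ^ a + 2 ^ a) + (2 ^ a + v) := fun v => by
      simp [Nat.bit]; ring
    simp only [e1, e2]
    rw [pow_succ]; field_simp
theorem Ex_val (a : ℕ) (G : ℕ → ℝ) :
    Ex a (fun l => G (val l)) = (∑ v ∈ range (2 ^ a), G v) / 2 ^ a := by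
  simpa [val] using Ex_fold a G 0
theorem fold_lt (l : List Bool) (m : ℕ) :
    l.foldl (fun m b => Nat.bit b m) m < (m + 1) * 2 ^ l.length := by
  induction l generalizing m with
  | nil => simp
  | cons b l ih =>
    refine (ih _).trans_le ?_
    rw [List.length_cons, pow_succ, mul_comm _ 2, ← mul_assoc]
    refine Nat.mul_le_mul_right _ ?_
    cases b <;> simp [Nat.bit] <;> omega
theorem val_take_lt (l : List Bool) (a : ℕ) : val (l.take a) < 2 ^ a := by
  have := fold_lt (l.take a) 0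
  rw [zero_add, one_mul] at this
  exact this.trans_le (Nat.pow_le_pow_right (by norm_num) (List.length_take_le _ _))
theorem Ex_fin (P : ℕ) (F : List Bool → ℝ) :
    Ex P F = (∑ ρ : Fin P → Bool, F (List.ofFn ρ)) / 2 ^ P := by
  induction P generalizing F with
  | zero => simp [Ex]
  | succ P ih =>
    rw [← (Fin.consEquiv fun _ : Fin (P + 1) => Bool).sum_comp, Fintype.sum_prod_type]
    simp only [Ex, ih, Fintype.sum_bool, Fin.consEquiv_apply, List.ofFn_succ, Fin.cons_zero,
      Fin.cons_succ]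
    rw [pow_succ]; field_simp; ring
theorem sum_dite {m Q : ℕ} (h : m ≤ Q) (g : Fin m → ℝ) :
    ∑ v ∈ range Q, (if h : v < m then g ⟨v, h⟩ else 0) = ∑ i, g i := by
  rw [Finset.sum_fin_eq_sum_range]
  exact (sum_subset (range_subset_range.2 h) fun v _ hv => dif_neg (by simpa using hv)).symm
theorem sum_ite_lt {A N : ℕ} (h : A ≤ N) (a b : ℝ) :
    ∑ u ∈ range N, (if u < A then a else b) = N * b + A * (a - b) := by
  obtain ⟨E, rfl⟩ := Nat.exists_eq_add_of_le h
  rw [sum_range_add, sum_congr rfl (g := fun _ => a) fun u hu => if_pos (mem_range.1 hu),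
    sum_congr rfl (g := fun _ => b) fun u _ => if_neg (by omega)]
  simp; ring
theorem sum_Icc (N : ℕ) (g : ℤ → ℝ) : ∑ t ∈ Icc (0 : ℤ) (N - 1), g t = ∑ v ∈ range N, g v := by
  have : Icc (0 : ℤ) (N - 1) = (range N).map Nat.castEmbedding := by
    ext t
    simp only [mem_Icc, mem_map, mem_range, Nat.castEmbedding_apply]
    exact ⟨fun h => ⟨t.toNat, by omega, by omega⟩, fun ⟨v, h, e⟩ => by omega⟩
  rw [this, sum_map]; rfl

variable {m n : ℕ} (p : Par (Fin m) (Fin n))

theorem mem_box {x : St (Fin m) (Fin n)} : x ∈ p.mdl.box ↔ ∀ c, 0 ≤ x c ∧ x c ≤ p.cap c := by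
  simp [Mdl.box, Par.mdl]
theorem upd_box {x} (hx : x ∈ p.mdl.box) (c) {v : ℕ} (hv : v < 2 ^ p.ex c) :
    Function.update x c v ∈ p.mdl.box := by
  rw [mem_box] at hx ⊢
  intro d
  by_cases e : d = c
  · subst e
    have : (v : ℤ) < 2 ^ p.ex d := by exact_mod_cast hv
    simp only [Function.update_self, Par.cap]; omega
  · rw [Function.update_of_ne e]; exact hx d
theorem fstep_box {x} (hx : x ∈ p.mdl.box) (l) : p.fstep l x ∈ p.mdl.box := by
  unfold Par.fstep Par.fcell Par.ffil
  split_ifs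
  exacts [upd_box p hx _ (val_take_lt _ _), hx, hx]
theorem frun_box (T l) {x} (hx : x ∈ p.mdl.box) : p.frun T l x ∈ p.mdl.box := by
  induction T generalizing l x with
  | zero => exact hx
  | succ T ih => exact ih _ (fstep_box p hx _)
theorem Ex_fil (F : St (Fin m) (Fin n) → ℝ) (x y) (hy : p.W y ≤ p.q ^ 18) :
    Ex p.K4 (fun l => F (p.ffil (val l) x y)) = F x + min 1 (p.wt y / p.wt x) * (F y - F x) := by
  have hq := p.q_ge
  have hD : p.inc x y ≤ p.q ^ 18 := min_le_right _ _
  have e0 : min 1 (p.wt y / p.wt x) = p.gam ^ p.inc x y := by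
    have g := p.gam_pos
    rw [Par.inc, min_eq_left (a := p.W y - p.W x) (by omega), Par.wt, Par.wt]
    rcases le_total (p.W x) (p.W y) with h | h
    · obtain ⟨d, e⟩ := Nat.exists_eq_add_of_le h
      rw [e, Nat.add_sub_cancel_left, pow_add, mul_div_cancel_left₀ _ (by positivity)]
      exact min_eq_right (pow_le_one₀ g.le p.gam_le)
    · rw [Nat.sub_eq_zero_of_le h, pow_zero]
      exact min_eq_left ((one_le_div (by positivity)).2 (pow_le_pow_of_le_one g.le p.gam_le h))
  obtain ⟨E, hE⟩ := Nat.exists_eq_add_of_le hD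
  have e1 : 2 ^ p.K4 = p.q ^ E * p.q ^ p.inc x y := by
    rw [Par.K4, pow_mul, ← pow_add, hE, add_comm]; rfl
  rw [Ex_val p.K4 fun u => F (p.ffil u x y), e0]
  have e2 : ∀ u, F (p.ffil u x y) = if u < (p.q - 1) ^ p.inc x y * p.q ^ E then F y else F x := by
    intro u
    rw [Par.ffil, e1, ← mul_assoc, apply_ite F]
    simp only [Nat.mul_lt_mul_right (show 0 < p.q ^ p.inc x y by positivity)]
  simp only [e2]
  generalize p.inc x y = D at *
  rw [sum_ite_lt (by
    rw [e1, mul_comm]; exact Nat.mul_le_mul_left _ (Nat.pow_le_pow_left (by omega) _))]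
  have e3 : (2 : ℝ) ^ p.K4 = (p.q : ℝ) ^ E * (p.q : ℝ) ^ D := by exact_mod_cast e1
  have h0 : (0 : ℝ) < p.q := by positivity
  have e4 : p.gam = ((p.q : ℝ) - 1) / p.q := by rw [Par.gam]; field_simp
  push_cast [Nat.cast_sub (show 1 ≤ p.q by omega)]
  rw [e3, e4, div_pow]; field_simp
theorem Ex_cell (hW : ∀ x ∈ p.mdl.box, p.W x ≤ p.q ^ 18) (hex : ∀ c, p.ex c ≤ p.q)
    (F : St (Fin m) (Fin n) → ℝ) {x} (hx : x ∈ p.mdl.box) (c) :
    Ex (p.q + p.K4) (fun l => F (p.fcell l x c)) - F x = 1 / ((p.mdl.cap c : ℝ) + 1) *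
      ∑ t ∈ Icc 0 (p.mdl.cap c), min 1 (p.wt (Function.update x c t) / p.wt x) *
        (F (Function.update x c t) - F x) := by
  have e : ∀ l : List Bool, l.take (p.ex c) = (l.take p.q).take (p.ex c) := fun l => by
    rw [List.take_take, min_eq_left (hex c)]
  have e1 : Ex (p.q + p.K4) (fun l => F (p.fcell l x c)) = Ex (p.ex c) fun l =>
      Ex p.K4 fun l' => F (p.ffil (val l') x (Function.update x c (val l))) := by
    rw [← Ex_take (hex c), ← Ex_split p.q p.K4 fun l l' =>
      F (p.ffil (val l') x (Function.update x c (val (l.take (p.ex c)))))]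
    refine Ex_congr fun l hl => ?_
    rw [Par.fcell, ← e, List.take_of_length_le (l := l.drop p.q) (by simp [hl])]
  have e2 : p.mdl.cap c = ((2 ^ p.ex c : ℕ) : ℤ) - 1 := by simp [Par.mdl, Par.cap]
  rw [e1, Ex_val (p.ex c) fun v => Ex p.K4 fun l' => F (p.ffil (val l') x (Function.update x c v)),
    sum_congr rfl fun v hv => Ex_fil p F x _ (hW _ (upd_box p hx c (mem_range.1 hv))), e2,
    sum_Icc _ fun t => min 1 (p.wt (Function.update x c t) / p.wt x) *
      (F (Function.update x c t) - F x), sum_add_distrib]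
  simp only [sum_const, card_range, nsmul_eq_mul]
  push_cast; field_simp; ring
theorem mn_le : m ≤ p.q ∧ n ≤ p.q ∧ 2 * (m * n) ≤ p.q := by
  have h := p.hq
  simp only [Fintype.card_fin] at h
  unfold Par.q
  refine ⟨?_, ?_, ?_⟩ <;> refine le_trans ?_ h <;> nlinarith [Nat.zero_le m, Nat.zero_le n,
    Nat.zero_le (m * n), Nat.zero_le (m ^ 3), Nat.zero_le (n ^ 3), Nat.zero_le (m * m),
    Nat.zero_le (n * n), Nat.zero_le (m * m * n), Nat.zero_le (m * n * n)]
theorem Ex_step (hW : ∀ x ∈ p.mdl.box, p.W x ≤ p.q ^ 18) (hex : ∀ c, p.ex c ≤ p.q)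
    (F : St (Fin m) (Fin n) → ℝ) {x} (hx : x ∈ p.mdl.box) :
    Ex p.B1 (fun l => F (p.fstep l x)) = Kop p.mdl p.wt (1 / (p.q : ℝ) ^ 2) F x := by
  set g : Fin m × Fin n → ℝ := fun c => Ex (p.q + p.K4) (fun l => F (p.fcell l x c)) - F x
  set H : ℕ → ℕ → ℝ := fun u v =>
    F x + if h : u < m then (if h' : v < n then g (⟨u, h⟩, ⟨v, h'⟩) else 0) else 0
  have e1 : Ex p.B1 (fun l => F (p.fstep l x)) = Ex p.b fun l => Ex p.b fun l' => H (val l) (val l') := by
    rw [Par.B1, show 2 * p.b + p.q + p.K4 = p.b + (p.b + (p.q + p.K4)) by ring, Ex_app]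
    refine Ex_congr fun l hl => ?_
    rw [Ex_app]
    refine Ex_congr fun l' hl' => ?_
    have a1 : ∀ r, (l ++ (l' ++ r)).take p.b = l := fun r => by simp [← hl]
    have a2 : ∀ r, ((l ++ (l' ++ r)).drop p.b).take p.b = l' := fun r => by
      rw [List.drop_left' hl, List.take_left' hl']
    have a3 : ∀ r, (l ++ (l' ++ r)).drop (2 * p.b) = r := fun r => by
      rw [← List.append_assoc, List.drop_left' (by simp [hl, hl']; ring)]
    simp only [Par.fstep, a1, a2, a3, H]
    by_cases h1 : val l < m <;> by_cases h2 : val l' < n <;> simp [h1, h2, g, Ex_const]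
  have e2 : ∀ u, Ex p.b (fun l' => H u (val l')) =
      F x + (if h : u < m then ∑ j, g (⟨u, h⟩, j) else 0) / p.q := fun u => by
    rw [Ex_val p.b (H u)]
    simp only [H, sum_add_distrib, sum_const, card_range, nsmul_eq_mul]
    by_cases h : u < m
    · simp only [h, dif_pos]
      rw [sum_dite (Q := 2 ^ p.b) (mn_le p).2.1 fun j => g (⟨u, h⟩, j)]
      simp only [Par.q]; push_cast; field_simp
    · simp [h]
  rw [e1, Ex_val p.b fun u => Ex p.b fun l' => H u (val l')]
  simp only [e2, sum_add_distrib, sum_const, card_range, nsmul_eq_mul, ← sum_div]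
  rw [sum_dite (Q := 2 ^ p.b) (mn_le p).1 fun i => ∑ j, g (i, j), ← Fintype.sum_prod_type, Kop]
  rw [← sum_congr rfl fun c _ => Ex_cell p hW hex F hx c]
  generalize ∑ c, g c = S
  simp only [Par.q]
  push_cast; field_simp
theorem Ex_run (hW : ∀ x ∈ p.mdl.box, p.W x ≤ p.q ^ 18) (hex : ∀ c, p.ex c ≤ p.q)
    (F : St (Fin m) (Fin n) → ℝ) (T : ℕ) {x} (hx : x ∈ p.mdl.box) :
    Ex (T * p.B1) (fun l => F (p.frun T l x)) = (Kop p.mdl p.wt (1 / (p.q : ℝ) ^ 2))^[T] F x := by
  induction T generalizing x with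
  | zero => simp [Ex, Par.frun]
  | succ T ih =>
    rw [show (T + 1) * p.B1 = p.B1 + T * p.B1 by ring, Function.iterate_succ_apply',
      ← Ex_step p hW hex _ hx]
    simp only [Par.frun]
    rw [Ex_split p.B1 _ fun l l' => F (p.frun T l' (p.fstep l x))]
    exact Ex_congr fun l _ => ih (fstep_box p hx l)

end Vale.Agent.P328.Lw
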