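import Vale.Agent.P328.Spec

/-!
Accepted states carry half of the weight.
-/

namespace Vale.Agent.P328

open Finset

variable {I J : Type} [Fintype I] [Fintype J] [DecidableEq I] [DecidableEq J]

namespace AC

omit [DecidableEq J] in
lemma exists_ge (s : Finset J) (f : J → ℤ) {t : ℤ} (ht : 0 ≤ t)
    (h : Fintype.card J * t < ∑ j ∈ s, f j) : ∃ j ∈ s, t < f j := by
  by_contra h'
  push Not at h'
  have h1 := sum_le_card_nsmul s f t h'
  have h2 : (s.card : ℤ) ≤ Fintype.card J := by exact_mod_cast card_le_univ s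
  rw [nsmul_eq_mul] at h1
  nlinarith

variable (p : Par I J)

/-- total energy -/
noncomputable def En (x : St I J) : ℝ := ∑ i, p.ER i (row x i) + ∑ j, p.EC j (col x j)

lemma pi_eq (x : St I J) : p.mdl.pi x = p.gam ^ En p x := by
  rw [En, Real.rpow_add p.gam_pos, Real.rpow_sum_of_pos p.gam_pos, Real.rpow_sum_of_pos p.gam_pos]
  rfl

omit [DecidableEq I] [DecidableEq J] in
lemma gam_qb : p.q * p.gam ^ ((p.q : ℝ) * p.b) ≤ 1 := by
  have h := p.qR
  have h1 : p.gam ^ (p.q : ℝ) ≤ 1 / 2 := by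
    have h2 : p.gam ≤ Real.exp (-(1 / p.q)) := Real.one_sub_le_exp_neg _
    refine (Real.rpow_le_rpow p.gam_pos.le h2 (by positivity)).trans ?_
    rw [← Real.exp_mul, neg_mul, one_div_mul_cancel (by positivity), Real.exp_neg, one_div]
    exact inv_anti₀ two_pos (by linarith [Real.add_one_le_exp 1])
  rw [Real.rpow_mul p.gam_pos.le, Real.rpow_natCast]
  have h3 := pow_le_pow_left₀ (Real.rpow_nonneg p.gam_pos.le _) h1 p.b
  have h4 : (p.q : ℝ) * (1 / 2) ^ p.b = 1 := by
    rw [Par.q, Nat.cast_pow, ← mul_pow]; norm_num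
  nlinarith

lemma EC_le (j : J) {s t : ℤ} (h : s ≤ t ∨ s ≤ p.cc j) : p.EC j s ≤ p.EC j t := by
  rcases h with h | h
  · exact p.EC_mono j h
  · unfold Par.EC
    rw [max_eq_left (by omega)]
    have : (0 : ℝ) ≤ (max 0 (t - p.cc j) : ℤ) := by exact_mod_cast le_max_left _ _
    split_ifs
    · simp only [Int.cast_zero, ne_eq, OfNat.ofNat_ne_zero, not_false_eq_true, zero_pow, zero_div]
      positivity
    · simp only [Int.cast_zero, mul_zero]
      positivity

lemma gainR {x y : St I J} (i : I) {G : ℝ} (h1 : ∀ l, l ≠ i → row y l = row x l)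
    (h2 : p.ER i (row y i) + G ≤ p.ER i (row x i))
    (h3 : ∀ j, col y j ≤ col x j ∨ col y j ≤ p.cc j) : En p y + G ≤ En p x := by
  have h4 : ∑ j, p.EC j (col y j) ≤ ∑ j, p.EC j (col x j) := sum_le_sum fun j _ => EC_le p j (h3 j)
  have h5 : ∑ l ∈ univ.erase i, p.ER l (row y l) = ∑ l ∈ univ.erase i, p.ER l (row x l) :=
    sum_congr rfl fun l hl => by rw [h1 l (ne_of_mem_erase hl)]
  rw [En, En, ← add_sum_erase _ _ (mem_univ i), ← add_sum_erase _ (fun l => p.ER l (row x l))
    (mem_univ i)]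
  linarith

lemma gainC {x y : St I J} (k : J) {G : ℝ} (h1 : ∀ l, row y l = row x l)
    (h2 : p.EC k (col y k) + G ≤ p.EC k (col x k))
    (h3 : ∀ j, col y j ≤ col x j ∨ col y j ≤ p.cc j) : En p y + G ≤ En p x := by
  have h4 : ∑ j ∈ univ.erase k, p.EC j (col y j) ≤ ∑ j ∈ univ.erase k, p.EC j (col x j) :=
    sum_le_sum fun j _ => EC_le p j (h3 j)
  rw [En, En, ← add_sum_erase _ (fun j => p.EC j (col y j)) (mem_univ k),
    ← add_sum_erase _ (fun j => p.EC j (col x j)) (mem_univ k)]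
  simp only [h1]
  linarith

lemma shift (A : St I J → Prop) [DecidablePred A] (v : St I J)
    (h : ∀ x ∈ p.mdl.box, A x → x + v ∈ p.mdl.box ∧ En p (x + v) + p.q * p.b ≤ En p x) :
    p.q * ∑ x ∈ p.mdl.box.filter A, p.mdl.pi x ≤ ∑ x ∈ p.mdl.box, p.mdl.pi x := by
  rw [mul_sum]
  calc _ ≤ ∑ x ∈ p.mdl.box.filter A, p.mdl.pi (x + v) := sum_le_sum fun x hx => by
        have h1 := p.gam_anti (h x (mem_filter.1 hx).1 (mem_filter.1 hx).2).2
        rw [Real.rpow_add p.gam_pos] at h1
        rw [pi_eq, pi_eq]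
        have h2 := Real.rpow_pos_of_pos p.gam_pos (En p (x + v))
        have h3 := mul_le_mul_of_nonneg_left h1 (by positivity : (0 : ℝ) ≤ p.q)
        nlinarith [gam_qb p]
    _ = ∑ y ∈ (p.mdl.box.filter A).image (fun x => x + v), p.mdl.pi y :=
        (sum_image fun a _ b _ hab => add_left_injective v hab).symm
    _ ≤ _ := sum_le_sum_of_subset_of_nonneg (fun y hy => by
        obtain ⟨x, hx, rfl⟩ := mem_image.1 hy
        exact (h x (mem_filter.1 hx).1 (mem_filter.1 hx).2).1) fun y _ _ => (p.mdl.pi_pos y).le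

lemma line (A : St I J → Prop) [DecidablePred A] (v : ℤ → St I J) (φ : St I J → ℤ)
    (hφ : ∀ x t, φ (x + v t) = φ x + t) (lo : ℤ) (kap lam : ℕ) (hk : p.q * kap ≤ lam)
    (h : ∀ x ∈ p.mdl.box, A x → (lo ≤ φ x ∧ φ x < lo + kap) ∧ ∀ t : ℤ, 1 ≤ t → t ≤ lam →
      x + v t ∈ p.mdl.box ∧ En p (x + v t) ≤ En p x) :
    p.q * ∑ x ∈ p.mdl.box.filter A, p.mdl.pi x ≤ ∑ x ∈ p.mdl.box, p.mdl.pi x := by
  have hZ : 0 ≤ ∑ x ∈ p.mdl.box, p.mdl.pi x := sum_nonneg fun y _ => (p.mdl.pi_pos y).le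
  have h1 : ∀ k : ℤ, lam * ∑ x ∈ (p.mdl.box.filter A).filter (fun x => φ x = k), p.mdl.pi x ≤
      ∑ x ∈ p.mdl.box, p.mdl.pi x := fun k => by
    set B := (p.mdl.box.filter A).filter fun x => φ x = k
    have hB : ∀ z ∈ B ×ˢ Icc (1 : ℤ) lam, z.1 + v z.2 ∈ p.mdl.box ∧
        En p (z.1 + v z.2) ≤ En p z.1 := fun z hz => by
      obtain ⟨h1, h2⟩ := mem_product.1 hz
      have h3 := mem_filter.1 (mem_filter.1 h1).1
      exact (h _ h3.1 h3.2).2 _ (mem_Icc.1 h2).1 (mem_Icc.1 h2).2
    calc _ = ∑ z ∈ B ×ˢ Icc (1 : ℤ) lam, p.mdl.pi z.1 := by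
          rw [sum_product, mul_sum]; simp
      _ ≤ ∑ z ∈ B ×ˢ Icc (1 : ℤ) lam, p.mdl.pi (z.1 + v z.2) := sum_le_sum fun z hz => by
          rw [pi_eq, pi_eq]; exact p.gam_anti (hB z hz).2
      _ = ∑ y ∈ (B ×ˢ Icc (1 : ℤ) lam).image (fun z => z.1 + v z.2), p.mdl.pi y :=
          (sum_image fun a ha b hb hab => by
            have h1 := (mem_filter.1 (mem_product.1 ha).1).2
            have h2 := (mem_filter.1 (mem_product.1 hb).1).2
            have h3 := congrArg φ hab
            simp only [hφ] at h3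
            have h4 : a.2 = b.2 := by omega
            simp only [h4, add_left_inj] at hab
            exact Prod.ext hab h4).symm
      _ ≤ _ := sum_le_sum_of_subset_of_nonneg (fun y hy => by
          obtain ⟨z, hz, rfl⟩ := mem_image.1 hy
          exact (hB z hz).1) fun y _ _ => (p.mdl.pi_pos y).le
  have h2 : lam * ∑ x ∈ p.mdl.box.filter A, p.mdl.pi x ≤ kap * ∑ x ∈ p.mdl.box, p.mdl.pi x := by
    rw [← sum_fiberwise_of_maps_to (t := Ico lo (lo + kap)) (g := φ) fun x hx =>
      mem_Ico.2 (h x (mem_filter.1 hx).1 (mem_filter.1 hx).2).1, mul_sum]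
    exact (sum_le_card_nsmul _ _ _ fun k _ => h1 k).trans (by simp)
  rcases Nat.eq_zero_or_pos kap with rfl | h0
  · rw [filter_false_of_mem fun x hx hA => by have := (h x hx hA).1; omega]
    simpa using hZ
  · have h3 : (p.q : ℝ) * kap ≤ lam := by exact_mod_cast hk
    have h4 : (0 : ℝ) < kap := by exact_mod_cast h0
    have h5 : 0 ≤ ∑ x ∈ p.mdl.box.filter A, p.mdl.pi x := sum_nonneg fun y _ => (p.mdl.pi_pos y).le
    refine le_of_mul_le_mul_left ?_ h4
    nlinarith

lemma cap_ms {x : St I J} (hx : x ∈ p.mdl.box) (j : J) : x (p.ms, j) = 0 := by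
  have := p.mdl.mem_box.1 hx (p.ms, j)
  simp only [Par.mdl, Par.cap, Par.ex, if_true, pow_zero] at this
  omega

lemma le_cap {i : I} (hi : i ≠ p.ms) (k : J) {z : ℤ} (h1 : z ≤ 2 * p.r i) (h2 : z ≤ p.cc k) :
    z ≤ p.mdl.cap (i, k) := by
  simp only [Par.mdl, Par.cap, Par.ex, if_neg hi]
  have := Nat.lt_size_self (if k = p.ns then 6 * p.r i + 8 else 2 * min (p.r i) (p.c k) + 3)
  zify at this
  unfold Par.cc at h2
  split_ifs at this h2 ⊢ <;> omega

omit [DecidableEq I] [DecidableEq J] in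
lemma le_row {x : St I J} (hx : ∀ c, 0 ≤ x c) (i : I) (j : J) : x (i, j) ≤ row x i :=
  single_le_sum (f := fun j => x (i, j)) (fun _ _ => hx _) (mem_univ j)

omit [DecidableEq I] [DecidableEq J] in
lemma le_col {x : St I J} (hx : ∀ c, 0 ≤ x c) (i : I) (j : J) : x (i, j) ≤ col x j :=
  single_le_sum (f := fun i => x (i, j)) (fun _ _ => hx _) (mem_univ i)

/-- moving `t` units inside row `i` from column `j` to column `k` -/
def mo (i : I) (j k : J) (t : ℤ) : St I J := e (i, k) t - e (i, j) t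

lemma move {x : St I J} (hx : x ∈ p.mdl.box) {i : I} {j k : J} (hjk : j ≠ k) {t : ℤ} (ht : 1 ≤ t)
    (h1 : row x i ≤ 2 * p.r i) (h2 : t ≤ x (i, j)) (h3 : t ≤ p.cc k - col x k) {G : ℝ}
    (hG : p.EC j (col x j - t) + G ≤ p.EC j (col x j)) :
    x + mo i j k t ∈ p.mdl.box ∧ En p (x + mo i j k t) + G ≤ En p x := by
  have hb := p.mdl.mem_box.1 hx
  have h0 := fun c => (hb c).1
  have hr : ∀ l, row (x + mo i j k t) l = row x l := fun l => by simp [mo, row_e]
  have hc : ∀ l, col (x + mo i j k t) l = col x l + (if l = k then t else 0) -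
      if l = j then t else 0 := fun l => by simp [mo, col_e, add_sub_assoc]
  have hnn : ∀ c, 0 ≤ (x + mo i j k t) c := fun c => by
    have := h0 c
    simp only [mo, Pi.add_apply, Pi.sub_apply, e_apply]
    split_ifs with a b b <;> first | omega | (subst b; omega)
  refine ⟨p.mdl.mem_box.2 fun c => ⟨hnn c, ?_⟩, gainC p j hr (by
    rw [hc, if_neg hjk, if_pos rfl, add_zero]; exact hG) fun l => by
      rw [hc]; split_ifs with a b b <;> first | omega | (subst a; omega)⟩
  by_cases a : c = (i, k)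
  · subst a
    refine le_cap p (fun e => by subst e; have := cap_ms p hx j; omega) k
      ((le_row hnn i k).trans (by rw [hr]; exact h1)) ((le_col hnn i k).trans ?_)
    rw [hc, if_pos rfl, if_neg hjk.symm]; omega
  · have := (hb c).2
    simp only [mo, Pi.add_apply, Pi.sub_apply, e_apply, if_neg a]
    split_ifs <;> omega

omit [DecidableEq I] [DecidableEq J] in
lemma b_le : (p.b : ℝ) ≤ p.q := by exact_mod_cast (Nat.lt_two_pow_self (n := p.b)).le

omit [DecidableEq I] [DecidableEq J] in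
lemma quad {d : ℤ} {g : ℕ} (hg : 0 < g) (h : ((p.q * g : ℕ) : ℤ) ≤ d) :
    ((d - (p.q * g : ℕ) : ℤ) : ℝ) ^ 2 / (g : ℝ) ^ 2 + p.q * p.b ≤ (d : ℝ) ^ 2 / (g : ℝ) ^ 2 := by
  have h0 : (0 : ℝ) < g := by exact_mod_cast hg
  have h1 : (p.q : ℝ) * g ≤ d := by exact_mod_cast h
  have h2 := b_le p
  have h3 := p.qR
  rw [div_add' _ _ _ (by positivity), div_le_div_iff_of_pos_right (by positivity)]
  push_cast
  have : (p.q : ℝ) * p.b * g ^ 2 ≤ p.q * p.q * g ^ 2 := by gcongr
  nlinarith [mul_le_mul_of_nonneg_left h1 (by positivity : 0 ≤ (p.q : ℝ) * g)]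

omit [DecidableEq I] [DecidableEq J] in
lemma div_pos' {a k : ℕ} (hk : 5 ≤ k) (h : p.q ^ k ≤ a) : 0 < a / p.q ^ 5 :=
  Nat.div_pos ((Nat.pow_le_pow_right (by have := p.q_ge; omega) hk).trans h)
    (by have := p.q_ge; positivity)

omit [DecidableEq J] in
lemma ER_gain (i : I) {s t : ℤ} (h : (p.rh i + p.aa i < t ∧ s = t - p.dl i) ∨
    (t < p.rh i ∧ s = t + p.dl i)) : p.ER i s + p.q * p.b ≤ p.ER i t := by
  unfold Par.ER
  simp only [Par.aa, Par.mu, Par.dl] at h ⊢
  split_ifs at h ⊢ with hb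
  · have h0 : 0 < p.hh i := div_pos' p (by norm_num) hb
    rcases h with ⟨h, rfl⟩ | ⟨h, rfl⟩
    · convert quad p h0 (d := t - p.rh i - (p.q * p.hh i : ℕ)) (by omega) using 5
      ring
    · convert quad p h0 (d := - (t - p.rh i - (p.q * p.hh i : ℕ))) (by omega) using 2
      · congr 1; push_cast; ring
      · push_cast; ring
  · have h1 : |s - p.rh i| + 1 = |t - p.rh i| := by simp only [abs_eq_max_neg]; omega
    rw [← h1]
    push_cast
    have : (0 : ℝ) ≤ p.q * p.b := by positivity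
    linarith

/-- column push length -/
def t0 (j : J) : ℕ := if p.q ^ 12 ≤ p.c j then p.q * p.gg j else 1

lemma EC_gain (j : J) {t : ℤ} (h : p.cc j - t ≤ - t0 p j) :
    p.EC j (t - t0 p j) + p.q * p.b ≤ p.EC j t := by
  unfold Par.EC
  rw [max_eq_right (by omega), max_eq_right (by omega)]
  unfold t0 at h ⊢
  split_ifs at h ⊢ with hb
  · convert quad p (g := p.gg j) (div_pos' p (by norm_num) hb) (d := t - p.cc j) (by omega) using 5
    ring
  · push_cast; linarith

/-- slack required in a column -/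
def xi (j : J) : ℕ := if j = p.ns then (p.q + 2) * p.SA else 0

/-- length of the lines in a big column -/
def lam (j : J) : ℕ := p.c j / (8 * Fintype.card I * Fintype.card J)

/-- the failure events -/
def ev (τ : Fin 5 × I × J × J) (x : St I J) : Prop :=
  match τ with
  | (0, i, j, _) => p.rh i + p.aa i < row x i ∧ p.dl i ≤ x (i, j)
  | (1, i, j, _) => row x i < p.rh i ∧ p.dl i ≤ p.cc j - col x j
  | (2, i, j, k) => j ≠ k ∧ row x i ≤ 2 * p.r i ∧ t0 p j ≤ x (i, j) ∧ t0 p j ≤ p.cc k - col x k ∧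
      p.cc j - col x j ≤ - t0 p j
  | (3, i, j, k) => p.q ^ 12 ≤ p.c j ∧ j ≠ k ∧ row x i ≤ 2 * p.r i ∧ lam p j ≤ x (i, j) ∧
      lam p j ≤ p.cc k - col x k ∧ - t0 p j ≤ p.cc j - col x j ∧ p.cc j - col x j < xi p j
  | (4, i, k, _) => k ≠ p.ns ∧ row x i ≤ 2 * p.r i ∧ (p.q * p.aa i : ℕ) ≤ x (i, k) ∧
      (p.q * p.aa i : ℕ) ≤ p.cc p.ns - col x p.ns ∧ x (i, p.ns) < p.aa i

omit [DecidableEq I] [DecidableEq J] in
lemma nums : 1 ≤ Fintype.card I ∧ 1 ≤ Fintype.card J ∧
    64 * (Fintype.card I * Fintype.card J * Fintype.card J) ≤ p.q := by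
  refine ⟨Fintype.card_pos_iff.2 ⟨p.ms⟩, Fintype.card_pos_iff.2 ⟨p.ns⟩, le_trans ?_ p.hq⟩
  rw [pow_succ, sq]
  gcongr <;> omega

omit [DecidableEq J] in
lemma hh_le (i : I) : p.aa i * p.q ^ 4 ≤ 2 * p.rh i ∧ (p.dl i = 1 ∨ p.dl i * p.q ^ 4 ≤ p.rh i) := by
  have h := Nat.div_mul_le_self (p.rh i) (p.q ^ 5)
  have e : p.q * p.hh i * p.q ^ 4 = p.rh i / p.q ^ 5 * p.q ^ 5 := by unfold Par.hh; ring
  unfold Par.aa Par.mu Par.dl
  split_ifs
  · exact ⟨by rw [mul_assoc, e]; omega, Or.inr (e ▸ h)⟩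
  · simp

omit [DecidableEq J] in
lemma rh_le (i : I) : p.rh i ≤ p.r i := by unfold Par.rh; split_ifs <;> omega

omit [DecidableEq I] [DecidableEq J] in
lemma N_le : ∑ i, p.r i ≤ Fintype.card J * p.c p.ns := by
  rw [p.hsum]; exact (sum_le_card_nsmul _ _ _ fun j _ => p.hns j).trans (by simp)

omit [DecidableEq J] in
lemma SA_le : p.SA * p.q ^ 4 ≤ 2 * (Fintype.card J * p.c p.ns) := by
  rw [Par.SA, sum_mul]
  refine (sum_le_sum fun i _ => (hh_le p i).1.trans (Nat.mul_le_mul_left 2 (rh_le p i))).trans ?_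
  rw [← mul_sum]
  exact Nat.mul_le_mul_left 2 (N_le p)

lemma xi_le (j : J) : 16 * Fintype.card I * Fintype.card J * (p.q * xi p j) ≤ p.c j := by
  unfold xi
  split_ifs with h
  · subst h
    obtain ⟨h1, h2, h3⟩ := nums p
    have h4 := SA_le p
    have h5 := p.q_ge
    refine Nat.le_of_mul_le_mul_right ?_ (by positivity : 0 < p.q ^ 4)
    calc _ = 16 * Fintype.card I * Fintype.card J * (p.q * (p.q + 2)) * (p.SA * p.q ^ 4) := by ring
      _ ≤ 16 * Fintype.card I * Fintype.card J * (p.q * (2 * p.q)) *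
          (2 * (Fintype.card J * p.c p.ns)) := by gcongr; omega
      _ = p.c p.ns * (64 * (Fintype.card I * Fintype.card J * Fintype.card J) * p.q ^ 2 * 1) := by
          ring
      _ ≤ p.c p.ns * (p.q * p.q ^ 2 * p.q) := by gcongr; omega
      _ = _ := by ring
  · simp

lemma t0_le {j : J} (h : p.q ^ 12 ≤ p.c j) :
    16 * Fintype.card I * Fintype.card J * (p.q * t0 p j) ≤ p.c j := by
  obtain ⟨h1, h2, h3⟩ := nums p
  have h5 := p.q_ge
  rw [t0, if_pos h]
  refine le_trans ?_ (Nat.div_mul_le_self (p.c j) (p.q ^ 5))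
  calc _ = p.gg j * (16 * (Fintype.card I * Fintype.card J * 1) * p.q ^ 2 * 1) := by ring
    _ ≤ p.gg j * (64 * (Fintype.card I * Fintype.card J * Fintype.card J) * p.q ^ 2 * p.q ^ 2) := by
        gcongr
        · norm_num
        · exact Nat.one_le_pow _ _ (by omega)
    _ ≤ p.gg j * (p.q * p.q ^ 2 * p.q ^ 2) := by gcongr
    _ = _ := by unfold Par.gg; ring

lemma kap_le {j : J} (h : p.q ^ 12 ≤ p.c j) : p.q * (t0 p j + xi p j) ≤ lam p j := by
  obtain ⟨h1, h2, -⟩ := nums p
  rw [lam, Nat.le_div_iff_mul_le (by positivity)]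
  nlinarith [xi_le p j, t0_le p h]

omit [DecidableEq I] [DecidableEq J] in
lemma t0_pos (j : J) : 1 ≤ t0 p j := by
  unfold t0
  split_ifs with h
  · exact Nat.mul_pos (by have := p.q_ge; omega) (div_pos' p (by norm_num) h)
  · exact le_rfl

open Classical in
lemma ev_le (τ : Fin 5 × I × J × J) :
    p.q * ∑ x ∈ p.mdl.box.filter (ev p τ), p.mdl.pi x ≤ ∑ x ∈ p.mdl.box, p.mdl.pi x := by
  obtain ⟨a, i, j, k⟩ := τ
  match a with
  | 0 =>
    refine shift p _ (e (i, j) (- p.dl i)) fun x hx ⟨h1, h2⟩ => ⟨p.mdl.mem_box.2 fun c => ?_,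
      gainR p i (fun l hl => by simp [row_e, hl]) (ER_gain p i (Or.inl ⟨h1, by
        simp [row_e, sub_eq_add_neg]⟩)) fun l => Or.inl ?_⟩
    · have := p.mdl.mem_box.1 hx c
      simp only [Pi.add_apply, e_apply]
      split_ifs with h
      · subst h; omega
      · omega
    · rw [col_add, col_e]; split_ifs <;> omega
  | 1 =>
    refine shift p _ (e (i, j) (p.dl i)) fun x hx ⟨h1, h2⟩ => ⟨p.mdl.mem_box.2 fun c => ?_,
      gainR p i (fun l hl => by simp [row_e, hl]) (ER_gain p i (Or.inr ⟨h1, by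
        simp [row_e]⟩)) fun l => ?_⟩
    · have hb := p.mdl.mem_box.1 hx
      have := hb c
      simp only [Pi.add_apply, e_apply]
      split_ifs with h
      · subst h
        have h3 := le_row (fun c => (hb c).1) i j
        have h4 := le_col (fun c => (hb c).1) i j
        have h5 := rh_le p i
        have h6 : p.dl i ≤ p.rh i := (hh_le p i).2.elim (fun h => by omega) fun h =>
          (Nat.le_mul_of_pos_right _ (by have := p.q_ge; positivity)).trans h
        refine ⟨by omega, le_cap p (fun e => ?_) j (by omega) (by omega)⟩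
        simp only [Par.rh, if_pos e] at h1
        omega
      · omega
    · rw [col_add, col_e]
      split_ifs with h
      · subst h; omega
      · omega
  | 2 =>
    exact shift p _ (mo i j k (t0 p j)) fun x hx ⟨h1, h2, h3, h4, h5⟩ =>
      move p hx h1 (by exact_mod_cast t0_pos p j) h2 h3 h4 (EC_gain p j h5)
  | 3 =>
    by_cases hb : p.q ^ 12 ≤ p.c j ∧ j ≠ k
    · refine line p _ (mo i j k) (fun x => p.cc j - col x j) (fun x t => by
        simp [mo, col_e, hb.2]; ring) (- t0 p j) _ _ (kap_le p hb.1)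
        fun x hx ⟨_, h1, h2, h3, h4, h5, h6⟩ => ⟨⟨h5, by push_cast; omega⟩, fun t h7 h8 => ?_⟩
      simpa using move p hx h1 h7 h2 (h8.trans h3) (h8.trans h4) (G := 0)
        (by simpa using p.EC_mono j (by omega))
    · rw [filter_false_of_mem fun x _ h => hb ⟨h.1, h.2.1⟩]
      simpa using sum_nonneg fun y _ => (p.mdl.pi_pos y).le
  | 4 =>
    by_cases hb : j ≠ p.ns
    · refine line p _ (mo i j p.ns) (fun x => x (i, p.ns)) (fun x t => by
        simp [mo, e_apply, hb.symm]) 0 (p.aa i) _ le_rfl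
        fun x hx ⟨h1, h2, h3, h4, h5⟩ => ⟨⟨(p.mdl.mem_box.1 hx _).1, by omega⟩, fun t h7 h8 => ?_⟩
      simpa using move p hx h1 h7 h2 (h8.trans h3) (h8.trans h4) (G := 0)
        (by simpa using p.EC_mono j (by omega))
    · rw [filter_false_of_mem fun x _ h => hb h.1]
      simpa using sum_nonneg fun y _ => (p.mdl.pi_pos y).le

lemma sum_w (x : St I J) : ∑ j, ((p.cc j : ℤ) - col x j) =
    p.r p.ms + 2 * p.SA - ∑ i, (row x i - p.rh i) := by
  have h1 : ∑ j, (p.cc j : ℤ) = ∑ j, (p.c j : ℤ) + 2 * p.SA := by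
    have : ∀ j, (p.cc j : ℤ) = p.c j + if j = p.ns then 2 * (p.SA : ℤ) else 0 := fun j => by
      unfold Par.cc; split_ifs <;> simp
    simp [this, sum_add_distrib]
  have h2 : ∑ i, (p.r i : ℤ) = ∑ i, (p.rh i : ℤ) + p.r p.ms := by
    have : ∀ i, (p.r i : ℤ) = p.rh i + if i = p.ms then (p.r p.ms : ℤ) else 0 := fun i => by
      unfold Par.rh; split_ifs with h <;> simp [h]
    rw [sum_congr rfl fun i _ => this i]
    simp [sum_add_distrib]
  have h3 : ∑ i, (p.r i : ℤ) = ∑ j, (p.c j : ℤ) := by exact_mod_cast p.hsum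
  have h4 : ∑ j, col x j = ∑ i, row x i := sum_comm
  rw [sum_sub_distrib, sum_sub_distrib]
  omega

lemma acc_of {x : St I J} (hx : x ∈ p.mdl.box) (h : ∀ τ, ¬ ev p τ x) : p.Acc x := by
  have hb := p.mdl.mem_box.1 hx
  have h0 := fun c => (hb c).1
  obtain ⟨n1, n2, n3⟩ := nums p
  have hq := p.q_ge
  have n4 : 64 * Fintype.card J ≤ p.q := le_trans (by
    have := Nat.mul_le_mul_right (Fintype.card J) (Nat.mul_le_mul n1 n2); omega) n3
  have hq4 : p.q * p.q ≤ p.q ^ 4 := by
    rw [← sq]; exact Nat.pow_le_pow_right (by omega) (by norm_num)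
  have hdl : ∀ i, (Fintype.card J : ℤ) * (p.dl i - 1) ≤ p.rh i ∧ (0 : ℤ) ≤ p.dl i - 1 := fun i => by
    have h1 : 1 ≤ p.dl i := by
      unfold Par.dl
      split_ifs with h
      · exact Nat.mul_pos (by omega) (div_pos' p (by norm_num) h)
      · exact le_rfl
    refine ⟨(hh_le p i).2.elim (fun h => by simp [h]) fun h => ?_, by omega⟩
    have : Fintype.card J * p.dl i ≤ p.rh i := le_trans (by
      rw [mul_comm]; exact Nat.mul_le_mul_left _ (by nlinarith)) h
    zify at this
    nlinarith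
  have f1 : ∀ i, row x i ≤ p.rh i + p.aa i := fun i => by
    by_contra h1
    obtain ⟨j, -, hj⟩ := exists_ge univ (fun j => x (i, j)) (hdl i).2 (by
      have := (hdl i).1; unfold row at h1; omega)
    exact h (0, i, j, j) ⟨by omega, by omega⟩
  have hSA : (p.SA : ℤ) = ∑ i, (p.aa i : ℤ) := by simp [Par.SA]
  have hs : ∑ i, (row x i - p.rh i) ≤ p.SA := hSA ▸ sum_le_sum fun i _ => by have := f1 i; omega
  have hw := sum_w p x
  have f2 : ∀ i, (p.rh i : ℤ) ≤ row x i := fun i => by
    by_contra h1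
    have h2 : ∑ l, (row x l - p.rh l) < p.SA := hSA ▸ sum_lt_sum (fun l _ => by
      have := f1 l; omega) ⟨i, mem_univ i, by omega⟩
    obtain ⟨j, -, hj⟩ := exists_ge univ (fun j => (p.cc j : ℤ) - col x j) (hdl i).2 (by
      have := (hdl i).1
      have := rh_le p i
      have := p.hms i
      omega)
    exact h (1, i, j, j) ⟨by omega, by omega⟩
  have hr : ∀ i, row x i ≤ 2 * p.r i := fun i => by
    have h1 : p.aa i * 2 ≤ p.aa i * p.q ^ 4 := Nat.mul_le_mul_left _ (by nlinarith)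
    have h2 := (hh_le p i).1
    have := f1 i
    have := rh_le p i
    omega
  have f3 : ∀ j, (xi p j : ℤ) ≤ p.cc j - col x j := fun j => by
    by_contra h1
    have hw' := add_sum_erase univ (fun j => (p.cc j : ℤ) - col x j) (mem_univ j)
    by_cases hbig : p.q ^ 12 ≤ p.c j
    · have h2 := xi_le p j
      have h3 : 8 * Fintype.card I * Fintype.card J * lam p j ≤ p.c j := Nat.mul_div_le _ _
      have h4 : p.c j ≤ p.cc j := by unfold Par.cc; split_ifs <;> omega
      have h5 : 16 * Fintype.card I * xi p j ≤ p.c j := le_trans (by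
        rw [mul_assoc (16 * _)]; exact Nat.mul_le_mul_left _ (le_trans (Nat.le_mul_of_pos_left _
          (by omega)) (Nat.le_mul_of_pos_left _ n2))) h2
      have h6 : 16 * xi p j ≤ p.c j := le_trans (by nlinarith) h5
      obtain ⟨i, -, hi⟩ := exists_le_of_sum_le (s := univ) ⟨p.ms, mem_univ _⟩
        (f := fun _ => col x j) (g := fun i => Fintype.card I * x (i, j)) (by
          rw [← mul_sum]; simp [col])
      have h7 := le_row h0 i j
      have h8 := hr i
      have h9 := p.hms i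
      zify at h3 h4 h5 h6 h9 n1 n2
      have h10 : (lam p j : ℤ) ≤ x (i, j) := by
        have : (Fintype.card I : ℤ) * lam p j ≤ Fintype.card I * x (i, j) := by
          nlinarith [mul_le_mul_of_nonneg_left n2 (by positivity : (0 : ℤ) ≤
            Fintype.card I * lam p j)]
        exact le_of_mul_le_mul_left this (by omega)
      obtain ⟨k, hk, hk'⟩ := exists_ge (univ.erase j) (fun j => (p.cc j : ℤ) - col x j)
        (t := lam p j) (by positivity) (by
          have : (Fintype.card I : ℤ) * (Fintype.card J * lam p j) ≤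
              Fintype.card I * (p.r p.ms - xi p j) := by
            nlinarith [mul_le_mul_of_nonneg_left (h7.trans h8) (by omega : (0 : ℤ) ≤
              Fintype.card I), mul_le_mul_of_nonneg_left h9 (by omega : (0 : ℤ) ≤ Fintype.card I)]
          have := le_of_mul_le_mul_left this (by omega)
          omega)
      have h11 : t0 p j ≤ lam p j := le_trans (by nlinarith) (kap_le p hbig)
      by_cases h12 : (p.cc j : ℤ) - col x j ≤ - t0 p j
      · exact h (2, i, j, k) ⟨(ne_of_mem_erase hk).symm, h8, by omega, by omega, h12⟩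
      · exact h (3, i, j, k) ⟨hbig, (ne_of_mem_erase hk).symm, h8, h10, hk'.le, by omega, by omega⟩
    · have h2 : xi p j = 0 := by
        unfold xi
        split_ifs with e
        · subst e
          refine mul_eq_zero_of_right _ (sum_eq_zero fun i _ => ?_)
          have h3 : p.r i ≤ ∑ i, p.r i := single_le_sum (fun _ _ => Nat.zero_le _) (mem_univ i)
          have h4 := N_le p
          have h5 := rh_le p i
          have h6 : Fintype.card J * p.c p.ns < p.q ^ 13 := by
            rw [pow_succ']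
            exact Nat.mul_lt_mul_of_le_of_lt (by omega) (by omega) (by omega)
          simp only [Par.aa, Par.mu]
          rw [if_neg (by omega), mul_zero]
        · rfl
      obtain ⟨i, -, hi⟩ := exists_ge univ (fun i => x (i, j)) le_rfl (by unfold col at h1; omega)
      obtain ⟨k, hk, hk'⟩ := exists_ge (univ.erase j) (fun j => (p.cc j : ℤ) - col x j) le_rfl
        (by omega)
      have h3 : t0 p j = 1 := if_neg hbig
      exact h (2, i, j, k) ⟨(ne_of_mem_erase hk).symm, hr i, by omega, by omega, by omega⟩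
  have f3' := f3 p.ns
  rw [xi, if_pos rfl] at f3'
  push_cast at f3'
  have f4 : ∀ i, row x i - p.rh i ≤ x (i, p.ns) := fun i => by
    by_contra h1
    have h2 := add_sum_erase univ (fun j => x (i, j)) (mem_univ p.ns)
    have h3 : Fintype.card J * (p.q * p.aa i) ≤ p.rh i := by
      have h4 := Nat.mul_le_mul_left (p.aa i) ((Nat.mul_le_mul_right p.q n4).trans hq4)
      have h5 := (hh_le p i).1
      have h6 : p.aa i * (64 * Fintype.card J * p.q) = 64 * (Fintype.card J * (p.q * p.aa i)) := by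
        ring
      omega
    obtain ⟨k, hk, hk'⟩ := exists_ge (univ.erase p.ns) (fun j => x (i, j))
      (t := (p.q * p.aa i : ℕ)) (by positivity) (by unfold row at h1; zify at h3; push_cast; omega)
    have h4 : p.aa i ≤ p.SA := single_le_sum (f := p.aa) (fun _ _ => Nat.zero_le _) (mem_univ i)
    have h5 := f1 i
    refine h (4, i, k, k) ⟨ne_of_mem_erase hk, hr i, hk'.le, ?_, by omega⟩
    zify at h4
    push_cast
    nlinarith
  have htr : ∀ i j, 0 ≤ p.tr x i j := fun i j => by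
    unfold Par.tr
    split_ifs with e
    · have := f4 i; subst e; omega
    · exact h0 _
  refine ⟨fun i => ⟨f2 i, f1 i⟩, fun i j => ?_⟩
  unfold Par.tb
  split_ifs
  · have h1 := f3 j
    by_cases e : j = p.ns
    · subst e
      have h2 : 0 ≤ ∑ i, (row x i - p.rh i) := sum_nonneg fun i _ => by have := f2 i; omega
      simp only [Par.tr, if_true, sum_sub_distrib (f := fun i => x (i, p.ns))]
      simp only [Par.cc, if_true, col] at f3'
      push_cast at f3'
      nlinarith
    · simp only [Par.tr, if_neg e]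
      simp only [Par.cc, if_neg e, col] at h1
      omega
  · exact htr i j

end AC

theorem Par.acc (p : Par I J) : p.AccStmt := by
  classical
  have h1 : ∑ x ∈ p.mdl.box.filter (fun x => ¬ p.Acc x), p.mdl.pi x ≤
      ∑ τ, ∑ x ∈ p.mdl.box.filter (AC.ev p τ), p.mdl.pi x := by
    simp only [sum_filter]
    rw [sum_comm]
    refine sum_le_sum fun x hx => ?_
    have h0 : ∀ τ, 0 ≤ if AC.ev p τ x then p.mdl.pi x else 0 := fun τ => by
      split_ifs; exacts [(p.mdl.pi_pos x).le, le_rfl]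
    split_ifs with h
    · exact sum_nonneg fun τ _ => h0 τ
    · obtain ⟨τ, hτ⟩ := not_forall.1 (mt (AC.acc_of p hx) h)
      exact le_trans (by rw [if_pos (not_not.1 hτ)]) (single_le_sum (fun τ _ => h0 τ) (mem_univ τ))
  have h2 := sum_le_card_nsmul univ _ _ fun τ _ => AC.ev_le p τ
  rw [← mul_sum, nsmul_eq_mul, card_univ] at h2
  simp only [Fintype.card_prod, Fintype.card_fin] at h2
  have h3 : (64 : ℝ) * (Fintype.card I * Fintype.card J * Fintype.card J) ≤ p.q := by
    exact_mod_cast (AC.nums p).2.2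
  have h4 := sum_filter_add_sum_filter_not p.mdl.box p.Acc p.mdl.pi
  have hZ : 0 ≤ ∑ x ∈ p.mdl.box, p.mdl.pi x := sum_nonneg fun y _ => (p.mdl.pi_pos y).le
  have hq := p.qR
  have h5 : p.q * (2 * ∑ x ∈ p.mdl.box.filter (fun x => ¬ p.Acc x), p.mdl.pi x) ≤
      p.q * ∑ x ∈ p.mdl.box, p.mdl.pi x := by
    push_cast at h2
    nlinarith [mul_le_mul_of_nonneg_left h1 (by linarith : (0 : ℝ) ≤ p.q),
      mul_le_mul_of_nonneg_right h3 hZ]
  have h6 := le_of_mul_le_mul_left h5 (by linarith)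
  unfold AccStmt
  linarith

end Vale.Agent.P328
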