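import Vale.Agent.P328.Model

/-!
The sum of squares decomposition.
-/

namespace Vale.Agent.P328

open Finset

variable {I J : Type} [Fintype I] [Fintype J] [DecidableEq I] [DecidableEq J]

namespace Mdl

variable (M : Mdl I J) (u : St I J → ℝ)

/-- Curvature of a row weight. -/
noncomputable def dL (i : I) (t : ℤ) : ℝ := M.L i t / M.L i (t + 1) - M.L i (t - 1) / M.L i t

/-- Curvature of a column weight. -/
noncomputable def dP (j : J) (t : ℤ) : ℝ :=
  M.P j (t + 1) / M.P j t - M.P j (t + 1 + 1) / M.P j (t + 1)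

omit [Fintype I] [Fintype J] [DecidableEq I] [DecidableEq J] in
theorem dL_nonneg (i : I) (t : ℤ) : 0 ≤ M.dL i t := by
  have h := M.Llc i t
  have h1 := M.Lpos i t
  have h2 := M.Lpos i (t + 1)
  rw [dL, sub_nonneg, div_le_div_iff₀ h1 h2]
  nlinarith

omit [Fintype I] [Fintype J] [DecidableEq I] [DecidableEq J] in
theorem dP_nonneg (j : J) (t : ℤ) : 0 ≤ M.dP j t := by
  have h := M.Plc j (t + 1)
  have h1 := M.Ppos j t
  have h2 := M.Ppos j (t + 1)
  rw [add_sub_cancel_right] at h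
  rw [dP, sub_nonneg, div_le_div_iff₀ h2 h1]
  nlinarith

/-- Weight of the bottom face. -/
noncomputable def bw (x : St I J) (c : I × J) : ℝ :=
  if x c = 0 ∧ x ∈ M.box ∧ x + e c 1 ∈ M.box then M.Lam (x - e c 1) * M.Psi (x + e c 1) else 0

/-- Weight of the top face. -/
noncomputable def tw (x : St I J) (c : I × J) : ℝ :=
  if x c + 1 = M.cap c ∧ x ∈ M.box ∧ x + e c 1 ∈ M.box then
    M.Lam x * M.Psi (x + e c 1 + e c 1) else 0

theorem bw_nonneg (x : St I J) (c : I × J) : 0 ≤ M.bw x c := by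
  unfold bw; split_ifs
  · exact (mul_pos (M.Lam_pos _) (M.Psi_pos _)).le
  · exact le_rfl

theorem tw_nonneg (x : St I J) (c : I × J) : 0 ≤ M.tw x c := by
  unfold tw; split_ifs
  · exact (mul_pos (M.Lam_pos _) (M.Psi_pos _)).le
  · exact le_rfl

theorem bw_ne {x : St I J} {c : I × J} (h : M.bw x c ≠ 0) : x ∈ M.box ∧ x + e c 1 ∈ M.box := by
  by_contra h'; exact h (if_neg fun h2 => h' h2.2)

/-- Gradient along an existing upward edge. -/
noncomputable def vA (c : I × J) (x : St I J) : ℝ := if x + e c 1 ∈ M.box then gr u c x else 0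

/-- Gradient along an existing downward edge. -/
noncomputable def vB (c : I × J) (y : St I J) : ℝ :=
  if y - e c 1 ∈ M.box then gr u c (y - e c 1) else 0

/-- Weight of the column terms. -/
noncomputable def AAw (x : St I J) (j : J) : ℝ :=
  M.pi x * (M.P j (col x j + 1) / M.P j (col x j)) * M.dP j (col x j)

/-- Weight of the row terms. -/
noncomputable def DDw (y : St I J) (i : I) : ℝ :=
  M.pi y * (M.L i (row y i - 1) / M.L i (row y i)) * M.dL i (row y i - 1)

omit [DecidableEq I] [DecidableEq J] in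
theorem AAw_nonneg (x : St I J) (j : J) : 0 ≤ M.AAw x j :=
  mul_nonneg (mul_pos (M.pi_pos _) (div_pos (M.Ppos _ _) (M.Ppos _ _))).le (M.dP_nonneg _ _)

omit [DecidableEq I] [DecidableEq J] in
theorem DDw_nonneg (x : St I J) (i : I) : 0 ≤ M.DDw x i :=
  mul_nonneg (mul_pos (M.pi_pos _) (div_pos (M.Lpos _ _) (M.Lpos _ _))).le (M.dL_nonneg _ _)

theorem up2 {x : St I J} (hx : x ∈ M.box) (c d : I × J) : x + e c 1 + e d 1 ∈ M.box ↔
    x + e c 1 ∈ M.box ∧ x + e d 1 ∈ M.box ∧ ¬ (c = d ∧ x c + 1 = M.cap c) := by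
  constructor
  · intro h
    refine ⟨M.mid_mem hx h, M.mid_mem (d := c) hx (by rwa [add_right_comm]), ?_⟩
    rintro ⟨rfl, h2⟩
    have := (M.mem_box.1 h c).2
    simp only [Pi.add_apply, e_apply, if_true] at this
    omega
  · rintro ⟨h1, h2, h3⟩
    rw [mem_box] at *
    intro a
    have a1 := hx a
    have a2 := h1 a
    have a3 := h2 a
    simp only [Pi.add_apply, e_apply] at *
    split_ifs at * with p q q
    · subst p; subst q
      have : ¬ x a + 1 = M.cap a := fun h => h3 ⟨rfl, h⟩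
      omega
    all_goals omega

theorem down2 {y : St I J} (hy : y ∈ M.box) (c d : I × J) : y - e c 1 - e d 1 ∈ M.box ↔
    y - e c 1 ∈ M.box ∧ y - e d 1 ∈ M.box ∧ ¬ (c = d ∧ y c = 1) := by
  simp only [mem_box] at *
  constructor
  · intro h
    refine ⟨fun a => ?_, fun a => ?_, ?_⟩
    · have a1 := hy a
      have a2 := h a
      simp only [Pi.sub_apply, e_apply] at *
      split_ifs at * <;> omega
    · have a1 := hy a
      have a2 := h a
      simp only [Pi.sub_apply, e_apply] at *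
      split_ifs at * <;> omega
    · rintro ⟨rfl, h2⟩
      have := (h c).1
      simp only [Pi.sub_apply, e_apply, if_true] at this
      omega
  · rintro ⟨h1, h2, h3⟩ a
    have a1 := hy a
    have a2 := h1 a
    have a3 := h2 a
    simp only [Pi.sub_apply, e_apply] at *
    split_ifs at * with p q q
    · subst p; subst q
      have : ¬ y a = 1 := fun h => h3 ⟨rfl, h⟩
      omega
    all_goals omega

theorem AA_eq {x : St I J} (hx : x ∈ M.box) (c d : I × J) : M.AA u c d x =
    (if c.2 = d.2 then M.AAw x c.2 * (M.vA u c x * M.vA u d x) else 0) +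
      if c = d then M.tw x c * gr u c x ^ 2 else 0 := by
  have p1 := M.Psi_shift x c 1
  have p2 := M.Psi_shift x d 1
  have p3 := M.Psi_shift (x + e c 1) d 1
  rw [col_add, col_e, p1] at p3
  have n1 := (M.Ppos c.2 (col x c.2)).ne'
  have n2 := (M.Ppos d.2 (col x d.2)).ne'
  have n3 := (M.Ppos c.2 (col x c.2 + 1)).ne'
  have n4 := (M.Psi_pos x).ne'
  have n5 := (M.Lam_pos x).ne'
  simp only [AA, om, R, vA, tw, AAw, dP, pi, M.up2 hx, hx, true_and]
  by_cases h1 : x + e c 1 ∈ M.box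
  · by_cases h2 : x + e d 1 ∈ M.box
    · simp only [h1, h2, true_and, if_true, and_true]
      by_cases h3 : c = d
      · subst h3
        simp only [if_true, true_and] at *
        rw [p3, p1]
        split_ifs <;> field_simp <;> ring
      · simp only [h3, false_and, not_false_eq_true, if_true, if_false, add_zero]
        rw [p3, p1, p2]
        by_cases h4 : c.2 = d.2
        · rw [if_pos h4.symm, if_pos h4, ← h4]
          field_simp
        · rw [if_neg (Ne.symm h4), if_neg h4, add_zero]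
          field_simp
          ring
    · have h3 : c ≠ d := by rintro rfl; exact h2 h1
      simp [h2, h3]
  · by_cases h3 : c = d
    · subst h3; simp [h1]
    · simp [h1, h3]

theorem BB_eq {y : St I J} (hy : y ∈ M.box) (c d : I × J) : M.BB u c d y =
    (if c.1 = d.1 then M.DDw y c.1 * (M.vB u c y * M.vB u d y) else 0) +
      if c = d then M.bw (y - e c 1) c * gr u c (y - e c 1) ^ 2 else 0 := by
  have p1 := M.Lam_shift y c (-1)
  have p2 := M.Lam_shift y d (-1)
  have p3 := M.Lam_shift (y - e c 1) d (-1)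
  simp only [e_neg, ← sub_eq_add_neg] at p1 p2 p3
  rw [row_sub, row_e, p1] at p3
  have n1 := (M.Lpos c.1 (row y c.1)).ne'
  have n2 := (M.Lpos d.1 (row y d.1)).ne'
  have n3 := (M.Lpos c.1 (row y c.1 - 1)).ne'
  have n4 := (M.Psi_pos y).ne'
  have n5 := (M.Lam_pos y).ne'
  have e1 : y - e c 1 - e d 1 + e c 1 + e d 1 = y := by abel
  have e2 : (y - e c 1) c = 0 ↔ y c = 1 := by
    simp only [Pi.sub_apply, e_apply, if_true]; omega
  simp only [BB, om, R, vB, bw, DDw, dL, pi, M.down2 hy, hy, and_true, sub_add_cancel, e1, e2]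
  by_cases h1 : y - e c 1 ∈ M.box
  · by_cases h2 : y - e d 1 ∈ M.box
    · simp only [h1, h2, true_and, if_true, and_true]
      by_cases h3 : c = d
      · subst h3
        simp only [if_true, true_and] at *
        rw [p3, p1]
        split_ifs <;> field_simp <;> ring
      · simp only [h3, false_and, not_false_eq_true, if_true, if_false, add_zero]
        rw [p3, p1, p2]
        by_cases h4 : c.1 = d.1
        · rw [if_pos h4.symm, if_pos h4, ← h4]
          field_simp
        · rw [if_neg (Ne.symm h4), if_neg h4, sub_zero]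
          field_simp
          ring
    · have h3 : c ≠ d := by rintro rfl; exact h2 h1
      simp [h2, h3]
  · by_cases h3 : c = d
    · subst h3; simp [h1]
    · simp [h1, h3]

/-- Energy of the gradients in one cell. -/
noncomputable def En (c : I × J) : ℝ := ∑ x ∈ M.box, M.om x c * gr u c x ^ 2

/-- Bottom face terms. -/
noncomputable def Bt (c : I × J) : ℝ := ∑ x ∈ M.box, M.bw x c * gr u c x ^ 2

/-- Top face terms. -/
noncomputable def Tt (c : I × J) : ℝ := ∑ x ∈ M.box, M.tw x c * gr u c x ^ 2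

/-- Row terms. -/
noncomputable def DD (i : I) : ℝ := ∑ y ∈ M.box, M.DDw y i * (∑ j, M.vB u (i, j) y) ^ 2

/-- Norm square of the generator. -/
noncomputable def NN : ℝ := ∑ x ∈ M.box, (∑ c, M.Lc u c x) ^ 2 / M.pi x

theorem Bt_shift (c : I × J) :
    ∑ y ∈ M.box, M.bw (y - e c 1) c * gr u c (y - e c 1) ^ 2 = M.Bt u c :=
  M.sum_shift (fun x => M.bw x c * gr u c x ^ 2) (e c 1) fun _ hy => M.bw_ne (left_ne_zero_of_mul hy)

theorem Bt_nonneg (c : I × J) : 0 ≤ M.Bt u c :=
  sum_nonneg fun _ _ => mul_nonneg (M.bw_nonneg _ _) (sq_nonneg _)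

theorem Tt_nonneg (c : I × J) : 0 ≤ M.Tt u c :=
  sum_nonneg fun _ _ => mul_nonneg (M.tw_nonneg _ _) (sq_nonneg _)

theorem DD_nonneg (i : I) : 0 ≤ M.DD u i :=
  sum_nonneg fun _ _ => mul_nonneg (M.DDw_nonneg _ _) (sq_nonneg _)

theorem En_nonneg (c : I × J) : 0 ≤ M.En u c :=
  sum_nonneg fun _ _ => mul_nonneg (M.om_nonneg _ _) (sq_nonneg _)

theorem NN_ge : ∑ c, ∑ d, M.Sq u c d + ∑ c, M.Tt u c + (∑ i, M.DD u i + ∑ c, M.Bt u c) ≤
    M.NN u := by
  have h1 : M.NN u = ∑ c, ∑ d, ∑ x ∈ M.box, M.Lc u c x * M.Lc u d x / M.pi x := by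
    rw [NN]
    simp only [sq, sum_mul_sum, sum_div]
    rw [sum_comm]
    exact sum_congr rfl fun c _ => sum_comm
  have h2 : ∑ c, M.Tt u c ≤ ∑ c, ∑ d, ∑ x ∈ M.box, M.AA u c d x := by
    rw [sum_congr rfl fun c _ => sum_comm, sum_comm]
    simp only [Tt]
    rw [sum_comm]
    refine sum_le_sum fun x hx => ?_
    simp only [M.AA_eq u hx, sum_add_distrib, sum_ite_eq, mem_univ, if_true]
    have : ∑ c : I × J, ∑ d : I × J, (if c.2 = d.2 then M.AAw x c.2 * (M.vA u c x * M.vA u d x)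
        else 0) = ∑ j, M.AAw x j * (∑ i, M.vA u (i, j) x) ^ 2 := by
      simp only [Fintype.sum_prod_type_right, sq, sum_mul_sum, mul_sum]
      refine sum_congr rfl fun j _ => sum_congr rfl fun i _ => ?_
      rw [sum_comm]
      simp [sum_mul, mul_sum, mul_comm]
    rw [this]
    have : 0 ≤ ∑ j, M.AAw x j * (∑ i, M.vA u (i, j) x) ^ 2 :=
      sum_nonneg fun _ _ => mul_nonneg (M.AAw_nonneg _ _) (sq_nonneg _)
    linarith
  have h3 : ∑ i, M.DD u i + ∑ c, M.Bt u c = ∑ c, ∑ d, ∑ x ∈ M.box, M.BB u c d x := by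
    rw [sum_congr rfl fun c _ => sum_comm, sum_comm]
    simp only [DD, ← Bt_shift]
    rw [sum_comm, sum_comm (s := univ), ← sum_add_distrib]
    refine sum_congr rfl fun x hx => ?_
    simp only [M.BB_eq u hx, sum_add_distrib, sum_ite_eq, mem_univ, if_true]
    congr 1
    simp only [Fintype.sum_prod_type, sq, sum_mul_sum, mul_sum]
    refine sum_congr rfl fun j _ => sum_congr rfl fun i _ => ?_
    rw [sum_comm]
    simp [sum_mul, mul_sum, mul_comm]
  simp only [h1, bochner, sum_add_distrib]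
  linarith

theorem parts_nonneg : 0 ≤ ∑ c, ∑ d, M.Sq u c d ∧ 0 ≤ ∑ c, M.Tt u c ∧ 0 ≤ ∑ i, M.DD u i ∧
    0 ≤ ∑ c, M.Bt u c :=
  ⟨sum_nonneg fun _ _ => sum_nonneg fun _ _ => M.Sq_nonneg u _ _,
    sum_nonneg fun _ _ => M.Tt_nonneg u _, sum_nonneg fun _ _ => M.DD_nonneg u _,
    sum_nonneg fun _ _ => M.Bt_nonneg u _⟩

theorem NN_nonneg : 0 ≤ M.NN u := by
  have := M.NN_ge u
  have := M.parts_nonneg u
  linarith [this.1, this.2.1, this.2.2.1, this.2.2.2]

theorem Sq_le (c d : I × J) : M.Sq u c d ≤ M.NN u := by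
  have h1 := M.NN_ge u
  have h2 := M.parts_nonneg u
  have h3 := single_le_sum (f := fun d => M.Sq u c d) (fun _ _ => M.Sq_nonneg u _ _) (mem_univ d)
  have h4 := single_le_sum (f := fun c => ∑ d, M.Sq u c d)
    (fun _ _ => sum_nonneg fun _ _ => M.Sq_nonneg u _ _) (mem_univ c)
  linarith [h2.1, h2.2.1, h2.2.2.1, h2.2.2.2]

theorem Tt_le (c : I × J) : M.Tt u c ≤ M.NN u := by
  have h1 := M.NN_ge u
  have h2 := M.parts_nonneg u
  have h3 := single_le_sum (f := fun d => M.Tt u d) (fun _ _ => M.Tt_nonneg u _) (mem_univ c)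
  linarith [h2.1, h2.2.1, h2.2.2.1, h2.2.2.2]

theorem Bt_le (c : I × J) : M.Bt u c ≤ M.NN u := by
  have h1 := M.NN_ge u
  have h2 := M.parts_nonneg u
  have h3 := single_le_sum (f := fun d => M.Bt u d) (fun _ _ => M.Bt_nonneg u _) (mem_univ c)
  linarith [h2.1, h2.2.1, h2.2.2.1, h2.2.2.2]

theorem DD_le (i : I) : M.DD u i ≤ M.NN u := by
  have h1 := M.NN_ge u
  have h2 := M.parts_nonneg u
  have h3 := single_le_sum (f := fun d => M.DD u d) (fun _ _ => M.DD_nonneg u _) (mem_univ i)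
  linarith [h2.1, h2.2.1, h2.2.2.1, h2.2.2.2]

theorem cell_le (c : I × J) {κ κ' : ℝ}
    (h1 : ∀ x ∈ M.box, x + e c 1 ∈ M.box → M.dP c.2 (col x c.2) ≤ κ)
    (h2 : ∀ x ∈ M.box, x + e c 1 ∈ M.box → M.dL c.1 (row x c.1) ≤ κ') :
    ∑ x ∈ M.box, M.Lc u c x ^ 2 / M.pi x ≤ 3 * M.NN u + (κ + κ') * M.En u c := by
  have a1 : ∑ x ∈ M.box, M.AA u c c x ≤ κ * M.En u c + M.Tt u c := by
    rw [En, Tt, mul_sum, ← sum_add_distrib]
    refine sum_le_sum fun x hx => ?_
    rw [M.AA_eq u hx, if_pos rfl, if_pos rfl]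
    refine add_le_add ?_ le_rfl
    unfold vA om AAw
    by_cases h : x + e c 1 ∈ M.box
    · rw [if_pos h, if_pos ⟨hx, h⟩, M.Psi_shift, pi]
      have := mul_le_mul_of_nonneg_right (h1 x hx h) (mul_nonneg (mul_pos (mul_pos (M.Lam_pos x)
        (M.Psi_pos x)) (div_pos (M.Ppos c.2 (col x c.2 + 1)) (M.Ppos c.2 (col x c.2)))).le
        (sq_nonneg (gr u c x)))
      nlinarith
    · rw [if_neg h, if_neg fun h' => h h'.2]; simp
  have a2 : ∑ x ∈ M.box, M.BB u c c x ≤ κ' * M.En u c + M.Bt u c := by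
    rw [← Bt_shift, En, ← M.sum_shift (fun x => M.om x c * gr u c x ^ 2) (e c 1)
      fun _ hy => M.om_ne (left_ne_zero_of_mul hy), mul_sum, ← sum_add_distrib]
    refine sum_le_sum fun x hx => ?_
    rw [M.BB_eq u hx, if_pos rfl, if_pos rfl]
    refine add_le_add ?_ le_rfl
    unfold vB om DDw
    by_cases h : x - e c 1 ∈ M.box
    · have p1 := M.Lam_shift x c (-1)
      simp only [e_neg, ← sub_eq_add_neg] at p1
      have h3 := h2 _ h (by rwa [sub_add_cancel])
      rw [row_sub, row_e, if_pos rfl] at h3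
      rw [if_pos h, sub_add_cancel, if_pos ⟨h, hx⟩, p1, pi]
      have := mul_le_mul_of_nonneg_right h3 (mul_nonneg (mul_pos (mul_pos (M.Lam_pos x)
        (M.Psi_pos x)) (div_pos (M.Lpos c.1 (row x c.1 - 1)) (M.Lpos c.1 (row x c.1)))).le
        (sq_nonneg (gr u c (x - e c 1))))
      nlinarith
    · rw [if_neg h, if_neg fun h' => h h'.1]; simp
  have a3 := M.bochner u c c
  simp only [← sq] at a3
  rw [a3]
  linarith [M.Sq_le u c c, M.Tt_le u c, M.Bt_le u c]

end Mdl

end Vale.Agent.P328
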