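import Vale.Agent.P328.Spec

/-!
Mixing of the Metropolis chain in the weighted square norm.
-/

namespace Vale.Agent.P328

namespace Ch

open Finset Function

variable {I J : Type} [Fintype I] [Fintype J] [DecidableEq I] [DecidableEq J]

theorem upd_mem (M : Mdl I J) {x : St I J} (hx : x ∈ M.box) (c : I × J) {t : ℤ}
    (ht : t ∈ Icc 0 (M.cap c)) : update x c t ∈ M.box := by
  rw [M.mem_box] at *
  intro d
  by_cases h : d = c
  · subst h
    rw [update_self]
    exact mem_Icc.1 ht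
  · rw [update_of_ne h]
    exact hx d

theorem swap (M : Mdl I J) (c : I × J) (H : St I J → St I J → ℝ) :
    ∑ x ∈ M.box, ∑ t ∈ Icc 0 (M.cap c), H x (update x c t) =
      ∑ x ∈ M.box, ∑ t ∈ Icc 0 (M.cap c), H (update x c t) x := by
  rw [← sum_product', ← sum_product']
  refine sum_nbij' (fun p => (update p.1 c p.2, p.1 c)) (fun p => (update p.1 c p.2, p.1 c))
    ?_ ?_ ?_ ?_ ?_
  · intro p hp
    rw [mem_product] at hp ⊢
    exact ⟨upd_mem M hp.1 c hp.2, mem_Icc.2 (M.mem_box.1 hp.1 c)⟩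
  · intro p hp
    rw [mem_product] at hp ⊢
    exact ⟨upd_mem M hp.1 c hp.2, mem_Icc.2 (M.mem_box.1 hp.1 c)⟩
  · intro p _
    simp
  · intro p _
    simp
  · intro p _
    simp

/-- Conductance. -/
noncomputable def cd (M : Mdl I J) (w : St I J → ℝ) (θ : ℝ) (c : I × J) (x y : St I J) : ℝ :=
  θ * (1 / ((M.cap c : ℝ) + 1)) * min (w x) (w y)

/-- Dirichlet form. -/
noncomputable def Dir (M : Mdl I J) (w : St I J → ℝ) (θ : ℝ) (F G : St I J → ℝ) : ℝ :=
  ∑ c, ∑ x ∈ M.box, ∑ t ∈ Icc 0 (M.cap c),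
    cd M w θ c x (update x c t) * ((F (update x c t) - F x) * (G (update x c t) - G x))

omit [Fintype I] [Fintype J] [DecidableEq I] [DecidableEq J] in
theorem cap_pos (M : Mdl I J) (c : I × J) : (0 : ℝ) < (M.cap c : ℝ) + 1 := by
  have : (0 : ℝ) ≤ M.cap c := by exact_mod_cast M.capnn c
  linarith

omit [Fintype I] [Fintype J] [DecidableEq I] [DecidableEq J] in
theorem card_line (M : Mdl I J) (c : I × J) : ((Icc 0 (M.cap c)).card : ℝ) = (M.cap c : ℝ) + 1 := by
  have h := M.capnn c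
  have : (((Icc 0 (M.cap c)).card : ℤ)) = M.cap c + 1 := by
    rw [Int.card_Icc]
    omega
  exact_mod_cast this

theorem gen (M : Mdl I J) (w : St I J → ℝ) (θ : ℝ) (F : St I J → ℝ) {x : St I J} (hx : 0 < w x) :
    w x * (Kop M w θ F x - F x) =
      ∑ c, ∑ t ∈ Icc 0 (M.cap c), cd M w θ c x (update x c t) * (F (update x c t) - F x) := by
  unfold Kop cd
  rw [add_sub_cancel_left, mul_sum, mul_sum]
  refine sum_congr rfl fun c _ => ?_
  rw [mul_sum, mul_sum, mul_sum]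
  refine sum_congr rfl fun t _ => ?_
  have : min (w x) (w (update x c t)) = w x * min 1 (w (update x c t) / w x) := by
    rw [mul_min_of_nonneg _ _ hx.le, mul_one, mul_div_cancel₀ _ hx.ne']
  rw [this]
  ring

theorem ibp (M : Mdl I J) (w : St I J → ℝ) (θ : ℝ) (hw : ∀ x ∈ M.box, 0 < w x)
    (F G : St I J → ℝ) :
    ∑ x ∈ M.box, G x * (w x * (Kop M w θ F x - F x)) = - (1 / 2) * Dir M w θ F G := by
  have h1 : ∑ x ∈ M.box, G x * (w x * (Kop M w θ F x - F x)) = ∑ c, ∑ x ∈ M.box,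
      ∑ t ∈ Icc 0 (M.cap c), cd M w θ c x (update x c t) * ((F (update x c t) - F x) * G x) := by
    rw [sum_comm]
    refine sum_congr rfl fun x hx => ?_
    rw [gen M w θ F (hw x hx), mul_sum]
    refine sum_congr rfl fun c _ => ?_
    rw [mul_sum]
    exact sum_congr rfl fun t _ => by ring
  rw [h1, Dir, mul_sum]
  refine sum_congr rfl fun c _ => ?_
  have h2 := swap M c fun x y => cd M w θ c x y * ((F y - F x) * G x)
  have h3 : ∑ x ∈ M.box, ∑ t ∈ Icc 0 (M.cap c), cd M w θ c x (update x c t) *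
      ((F (update x c t) - F x) * (G (update x c t) - G x)) =
      - ∑ x ∈ M.box, ∑ t ∈ Icc 0 (M.cap c), cd M w θ c (update x c t) x *
        ((F x - F (update x c t)) * G (update x c t)) -
      ∑ x ∈ M.box, ∑ t ∈ Icc 0 (M.cap c), cd M w θ c x (update x c t) *
        ((F (update x c t) - F x) * G x) := by
    simp only [← sum_neg_distrib, ← sum_sub_distrib]
    refine sum_congr rfl fun x _ => sum_congr rfl fun t _ => ?_
    unfold cd
    rw [min_comm (w (update x c t))]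
    ring
  rw [h3, ← h2]
  ring

theorem cd_nonneg (M : Mdl I J) (w : St I J → ℝ) {θ : ℝ} (hθ : 0 < θ)
    (hw : ∀ x ∈ M.box, 0 < w x) {x : St I J} (hx : x ∈ M.box) (c : I × J) {t : ℤ}
    (ht : t ∈ Icc 0 (M.cap c)) : 0 ≤ cd M w θ c x (update x c t) := by
  unfold cd
  have h1 := cap_pos M c
  have h2 : 0 ≤ min (w x) (w (update x c t)) :=
    le_min (hw x hx).le (hw _ (upd_mem M hx c ht)).le
  positivity

theorem cs {α : Type} (s : Finset α) (k d : α → ℝ) (hk : ∀ a ∈ s, 0 ≤ k a) :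
    (∑ a ∈ s, k a * d a) ^ 2 ≤ (∑ a ∈ s, k a) * ∑ a ∈ s, k a * (d a * d a) := by
  refine sum_sq_le_sum_mul_sum_of_sq_le_mul s hk
    (fun a ha => mul_nonneg (hk a ha) (mul_self_nonneg _)) fun a _ => le_of_eq ?_
  ring

theorem sq_gen (M : Mdl I J) (w : St I J → ℝ) {θ : ℝ} (hθ : 0 < θ)
    (hθ' : θ * Fintype.card (I × J) ≤ 1 / 2) (hw : ∀ x ∈ M.box, 0 < w x) (F : St I J → ℝ) :
    ∑ x ∈ M.box, w x * (Kop M w θ F x - F x) ^ 2 ≤ 1 / 2 * Dir M w θ F F := by
  rw [Dir, sum_comm, mul_sum]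
  refine sum_le_sum fun x hx => ?_
  have hx' := hw x hx
  have h1 := gen M w θ F hx'
  rw [sum_sigma'] at h1
  have h2 := cs (univ.sigma fun c : I × J => Icc 0 (M.cap c))
    (fun p => cd M w θ p.1 x (update x p.1 p.2)) (fun p => F (update x p.1 p.2) - F x)
    (fun p hp => cd_nonneg M w hθ hw hx p.1 (mem_sigma.1 hp).2)
  have h3 : ∑ p ∈ univ.sigma fun c : I × J => Icc 0 (M.cap c),
      cd M w θ p.1 x (update x p.1 p.2) ≤ 1 / 2 * w x := by
    rw [sum_sigma]
    calc ∑ c : I × J, ∑ t ∈ Icc 0 (M.cap c), cd M w θ c x (update x c t)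
        ≤ ∑ c : I × J, θ * w x := by
          refine sum_le_sum fun c _ => ?_
          have h4 := cap_pos M c
          calc ∑ t ∈ Icc 0 (M.cap c), cd M w θ c x (update x c t)
              ≤ ∑ _t ∈ Icc 0 (M.cap c), θ * (1 / ((M.cap c : ℝ) + 1)) * w x :=
                sum_le_sum fun t _ => mul_le_mul_of_nonneg_left (min_le_left _ _) (by positivity)
            _ = θ * w x := by
                rw [sum_const, nsmul_eq_mul, card_line]
                field_simp
      _ = θ * Fintype.card (I × J) * w x := by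
          rw [sum_const, card_univ, nsmul_eq_mul]; ring
      _ ≤ _ := mul_le_mul_of_nonneg_right hθ' hx'.le
  rw [sum_sigma']
  rw [← h1] at h2
  have h5 : 0 ≤ ∑ p ∈ univ.sigma fun c : I × J => Icc 0 (M.cap c),
      cd M w θ p.1 x (update x p.1 p.2) *
        ((F (update x p.1 p.2) - F x) * (F (update x p.1 p.2) - F x)) :=
    sum_nonneg fun p hp => mul_nonneg (cd_nonneg M w hθ hw hx p.1 (mem_sigma.1 hp).2)
      (mul_self_nonneg _)
  have h6 := h2.trans (mul_le_mul_of_nonneg_right h3 h5)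
  refine le_of_mul_le_mul_left ?_ hx'
  calc w x * (w x * (Kop M w θ F x - F x) ^ 2) = (w x * (Kop M w θ F x - F x)) ^ 2 := by ring
    _ ≤ _ := h6
    _ = _ := by ring

theorem contr (M : Mdl I J) (w : St I J → ℝ) {θ : ℝ} (hθ : 0 < θ)
    (hθ' : θ * Fintype.card (I × J) ≤ 1 / 2) (hw : ∀ x ∈ M.box, 0 < w x) (F : St I J → ℝ) :
    ∑ x ∈ M.box, w x * Kop M w θ F x ^ 2 ≤
      ∑ x ∈ M.box, w x * F x ^ 2 - 1 / 2 * Dir M w θ F F := by
  have h1 := ibp M w θ hw F F
  have h2 := sq_gen M w hθ hθ' hw F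
  have h3 : ∑ x ∈ M.box, w x * Kop M w θ F x ^ 2 = ∑ x ∈ M.box, w x * F x ^ 2 +
      2 * ∑ x ∈ M.box, F x * (w x * (Kop M w θ F x - F x)) +
      ∑ x ∈ M.box, w x * (Kop M w θ F x - F x) ^ 2 := by
    rw [mul_sum, ← sum_add_distrib, ← sum_add_distrib]
    exact sum_congr rfl fun x _ => by ring
  linarith

theorem mean (M : Mdl I J) (w : St I J → ℝ) (θ : ℝ) (hw : ∀ x ∈ M.box, 0 < w x)
    (F : St I J → ℝ) : ∑ x ∈ M.box, w x * Kop M w θ F x = ∑ x ∈ M.box, w x * F x := by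
  have h1 := ibp M w θ hw F fun _ => 1
  simp only [Dir, sub_self, mul_zero, sum_const_zero, one_mul, mul_sub, sum_sub_distrib] at h1
  linarith

theorem line (M : Mdl I J) (w : St I J → ℝ) {θ C : ℝ} (hθ : 0 < θ)
    (hw : ∀ x ∈ M.box, M.pi x ≤ w x) (c : I × J)
    (hC : ∀ x ∈ M.box, ((M.cap c : ℝ) + 1) * M.pi x ≤
      C * ∑ t ∈ Icc 0 (M.cap c), M.pi (update x c t)) (F : St I J → ℝ) {x : St I J}
    (hx : x ∈ M.box) :
    θ * (M.pi x * (F x - (∑ t ∈ Icc 0 (M.cap c), M.pi (update x c t) * F (update x c t)) /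
      ∑ t ∈ Icc 0 (M.cap c), M.pi (update x c t)) ^ 2) ≤
    C * ∑ t ∈ Icc 0 (M.cap c),
      cd M w θ c x (update x c t) * ((F (update x c t) - F x) * (F (update x c t) - F x)) := by
  have hZ : 0 < ∑ t ∈ Icc 0 (M.cap c), M.pi (update x c t) :=
    sum_pos (fun t _ => M.pi_pos _) ⟨0, mem_Icc.2 ⟨le_rfl, M.capnn c⟩⟩
  have h1 := cs (Icc 0 (M.cap c)) (fun t => M.pi (update x c t))
    (fun t => F (update x c t) - F x) fun t _ => (M.pi_pos _).le
  have h2 : ∑ t ∈ Icc 0 (M.cap c), M.pi (update x c t) * (F (update x c t) - F x) =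
      ∑ t ∈ Icc 0 (M.cap c), M.pi (update x c t) * F (update x c t) -
        (∑ t ∈ Icc 0 (M.cap c), M.pi (update x c t)) * F x := by
    rw [sum_mul, ← sum_sub_distrib]
    exact sum_congr rfl fun t _ => by ring
  have h3 : ∀ t ∈ Icc 0 (M.cap c), θ * M.pi x * M.pi (update x c t) ≤
      (∑ t ∈ Icc 0 (M.cap c), M.pi (update x c t)) * (C * cd M w θ c x (update x c t)) := by
    intro t ht
    have hy := upd_mem M hx c ht
    have a1 := hC x hx
    have a2 := hC _ hy
    simp only [update_idem] at a2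
    have a3 := hw x hx
    have a4 := hw _ hy
    have a5 := M.pi_pos x
    have a6 := M.pi_pos (update x c t)
    have a7 := cap_pos M c
    unfold cd
    generalize ∑ t ∈ Icc 0 (M.cap c), M.pi (update x c t) = Z at *
    generalize M.pi (update x c t) = b at *
    generalize M.pi x = a at *
    generalize (M.cap c : ℝ) + 1 = n at *
    have a8 : n * (a * b) ≤ C * Z * min (w x) (w (update x c t)) := by
      have a0 : 0 ≤ C * Z := le_trans (by positivity) a1
      rcases le_total (w x) (w (update x c t)) with h | h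
      · rw [min_eq_left h]
        calc n * (a * b) = n * b * a := by ring
          _ ≤ C * Z * w x := mul_le_mul a2 a3 a5.le a0
      · rw [min_eq_right h]
        calc n * (a * b) = n * a * b := by ring
          _ ≤ C * Z * w (update x c t) := mul_le_mul a1 a4 a6.le a0
    calc θ * a * b = θ * (1 / n) * (n * (a * b)) := by field_simp
      _ ≤ θ * (1 / n) * (C * Z * min (w x) (w (update x c t))) :=
          mul_le_mul_of_nonneg_left a8 (by positivity)
      _ = _ := by ring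
  have h4 : θ * M.pi x * ∑ t ∈ Icc 0 (M.cap c), M.pi (update x c t) *
      ((F (update x c t) - F x) * (F (update x c t) - F x)) ≤
      (∑ t ∈ Icc 0 (M.cap c), M.pi (update x c t)) * (C * ∑ t ∈ Icc 0 (M.cap c),
      cd M w θ c x (update x c t) * ((F (update x c t) - F x) * (F (update x c t) - F x))) := by
    rw [mul_sum, mul_sum (a := C), mul_sum]
    refine sum_le_sum fun t ht => ?_
    have := mul_le_mul_of_nonneg_right (h3 t ht) (mul_self_nonneg (F (update x c t) - F x))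
    linarith
  rw [h2] at h1
  have a5 := M.pi_pos x
  generalize ∑ t ∈ Icc 0 (M.cap c), M.pi (update x c t) = Z at *
  generalize ∑ t ∈ Icc 0 (M.cap c), M.pi (update x c t) * F (update x c t) = S at *
  generalize ∑ t ∈ Icc 0 (M.cap c), M.pi (update x c t) *
      ((F (update x c t) - F x) * (F (update x c t) - F x)) = V at *
  have e1 : (F x - S / Z) ^ 2 = (S - Z * F x) ^ 2 / Z / Z := by
    field_simp
    ring
  have h5 : (S - Z * F x) ^ 2 / Z ≤ V := by
    rw [div_le_iff₀ hZ]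
    linarith
  rw [e1, ← mul_div_assoc, ← mul_div_assoc, div_le_iff₀ hZ]
  have h6 : θ * M.pi x * ((S - Z * F x) ^ 2 / Z) ≤ θ * M.pi x * V :=
    mul_le_mul_of_nonneg_left h5 (by positivity)
  linarith

theorem poinc (M : Mdl I J) (w : St I J → ℝ) {K C θ : ℝ} (hK : 1 ≤ K) (hθ : 0 < θ)
    (hw : ∀ x ∈ M.box, M.pi x ≤ w x ∧ w x ≤ 2 * M.pi x)
    (hg : ∀ u, ∑ c, ∑ x ∈ M.box, M.Lc u c x ^ 2 / M.pi x ≤ K * M.NN u)
    (hC : ∀ c, ∀ x ∈ M.box, ((M.cap c : ℝ) + 1) * M.pi x ≤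
      C * ∑ t ∈ Icc 0 (M.cap c), M.pi (update x c t)) (F : St I J → ℝ)
    (hF : ∑ x ∈ M.box, w x * F x = 0) :
    θ * ∑ x ∈ M.box, w x * F x ^ 2 ≤ 2 * K * C * Dir M w θ F F := by
  have hZ : 0 < ∑ x ∈ M.box, M.pi x := sum_pos (fun x _ => M.pi_pos _) ⟨0, M.zero_mem⟩
  obtain ⟨a, ha⟩ : ∃ a : ℝ, ∑ x ∈ M.box, M.pi x * (F x - a) = 0 := by
    refine ⟨(∑ x ∈ M.box, M.pi x * F x) / ∑ x ∈ M.box, M.pi x, ?_⟩
    simp only [mul_sub, sum_sub_distrib]
    rw [← sum_mul, mul_div_cancel₀ _ hZ.ne', sub_self]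
  have h1 := M.variance_le (by linarith) hg (fun x => F x - a) ha
    (fun c x => (∑ t ∈ Icc 0 (M.cap c), M.pi (update x c t) * F (update x c t)) /
      (∑ t ∈ Icc 0 (M.cap c), M.pi (update x c t)) - a) (by
      intro c x _ _
      have : ∀ t, update (x + e c 1) c t = update x c t := by
        intro t
        funext d
        by_cases h : d = c
        · subst h
          simp
        · simp [h, e_apply]
      simp only [this])
  simp only [sub_sub_sub_cancel_right] at h1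
  have h2 : θ * ∑ c, ∑ x ∈ M.box, M.pi x * (F x -
      (∑ t ∈ Icc 0 (M.cap c), M.pi (update x c t) * F (update x c t)) /
      (∑ t ∈ Icc 0 (M.cap c), M.pi (update x c t))) ^ 2 ≤ C * Dir M w θ F F := by
    rw [Dir, mul_sum, mul_sum]
    refine sum_le_sum fun c _ => ?_
    rw [mul_sum, mul_sum]
    exact sum_le_sum fun x hx => line M w hθ (fun x hx => (hw x hx).1) c (hC c) F hx
  have h3 : ∑ x ∈ M.box, w x * F x ^ 2 ≤ ∑ x ∈ M.box, w x * (F x - a) ^ 2 := by
    have e1 : ∑ x ∈ M.box, w x * (F x - a) ^ 2 = ∑ x ∈ M.box, w x * F x ^ 2 -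
        2 * a * ∑ x ∈ M.box, w x * F x + ∑ x ∈ M.box, w x * a ^ 2 := by
      rw [mul_sum, ← sum_sub_distrib, ← sum_add_distrib]
      exact sum_congr rfl fun x _ => by ring
    have e2 : 0 ≤ ∑ x ∈ M.box, w x * a ^ 2 :=
      sum_nonneg fun x hx => mul_nonneg ((M.pi_pos x).le.trans (hw x hx).1) (sq_nonneg _)
    rw [e1, hF]
    linarith
  have h4 : ∑ x ∈ M.box, w x * (F x - a) ^ 2 ≤ 2 * ∑ x ∈ M.box, M.pi x * (F x - a) ^ 2 := by
    rw [mul_sum]
    refine sum_le_sum fun x hx => ?_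
    rw [← mul_assoc]
    exact mul_le_mul_of_nonneg_right (hw x hx).2 (sq_nonneg _)
  have h5 := mul_le_mul_of_nonneg_left h2 (by linarith : (0 : ℝ) ≤ K)
  have h6 := mul_le_mul_of_nonneg_left ((h3.trans h4).trans
    (mul_le_mul_of_nonneg_left h1 (by norm_num))) hθ.le
  linarith

theorem iter_sub (M : Mdl I J) (w : St I J → ℝ) (θ μ : ℝ) (T : ℕ) (F : St I J → ℝ) :
    (Kop M w θ)^[T] (fun x => F x - μ) = fun x => (Kop M w θ)^[T] F x - μ := by
  induction T with
  | zero => rfl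
  | succ T ih =>
    rw [iterate_succ_apply', iterate_succ_apply', ih]
    funext x
    simp only [Kop, sub_sub_sub_cancel_right]
    ring

end Ch

open Finset Ch in
theorem chain (I J : Type) [Fintype I] [Fintype J] [DecidableEq I] [DecidableEq J] :
    ChainStmt I J := by
  intro M w K C θ hK hC hθ hθ' hθ1 hw hg hl F hF x0 hx0 T
  have hw' : ∀ x ∈ M.box, 0 < w x := fun x hx => (M.pi_pos x).trans_le (hw x hx).1
  have hZ : 0 < ∑ x ∈ M.box, w x := sum_pos hw' ⟨0, M.zero_mem⟩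
  have hKC : 1 ≤ K * C := one_le_mul_of_one_le_of_one_le hK hC
  have hg0 : 0 ≤ 1 - θ / (4 * K * C) := by
    rw [sub_nonneg, div_le_one (by nlinarith)]
    nlinarith
  have key : ∀ G : St I J → ℝ, ∑ x ∈ M.box, w x * G x = 0 → ∀ T : ℕ,
      ∑ x ∈ M.box, w x * (Kop M w θ)^[T] G x = 0 ∧
      ∑ x ∈ M.box, w x * (Kop M w θ)^[T] G x ^ 2 ≤
        (∑ x ∈ M.box, w x * G x ^ 2) * (1 - θ / (4 * K * C)) ^ T := by
    intro G hG T
    induction T with
    | zero => exact ⟨hG, by simp⟩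
    | succ T ih =>
      rw [Function.iterate_succ_apply']
      refine ⟨(mean M w θ hw' _).trans ih.1, ?_⟩
      have h1 := contr M w hθ hθ' hw' ((Kop M w θ)^[T] G)
      have h2 := poinc M w hK hθ hw hg hl _ ih.1
      have h3 := mul_le_mul_of_nonneg_right ih.2 hg0
      have h4 : θ / (4 * K * C) * ∑ x ∈ M.box, w x * (Kop M w θ)^[T] G x ^ 2 ≤
          1 / 2 * Dir M w θ ((Kop M w θ)^[T] G) ((Kop M w θ)^[T] G) := by
        rw [div_mul_eq_mul_div, div_le_iff₀ (by nlinarith)]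
        linarith
      rw [pow_succ (1 - θ / (4 * K * C)), ← mul_assoc]
      linarith
  obtain ⟨μ, hμ⟩ : ∃ μ, μ = (∑ x ∈ M.box, w x * F x) / ∑ x ∈ M.box, w x := ⟨_, rfl⟩
  rw [← hμ]
  have h0 : ∑ x ∈ M.box, w x * (F x - μ) = 0 := by
    simp only [mul_sub, sum_sub_distrib]
    rw [← sum_mul, hμ, mul_div_cancel₀ _ hZ.ne', sub_self]
  have h1 := (key _ h0 T).2
  rw [iter_sub] at h1
  have h2 : w x0 * ((Kop M w θ)^[T] F x0 - μ) ^ 2 ≤
      ∑ x ∈ M.box, w x * ((Kop M w θ)^[T] F x - μ) ^ 2 :=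
    single_le_sum (f := fun x => w x * ((Kop M w θ)^[T] F x - μ) ^ 2)
      (fun x hx => mul_nonneg (hw' x hx).le (sq_nonneg _)) hx0
  have h3 : |μ| ≤ 1 := by
    rw [hμ, abs_div, abs_of_pos hZ, div_le_one hZ]
    refine (abs_sum_le_sum_abs _ _).trans (sum_le_sum fun x hx => ?_)
    rw [abs_mul, abs_of_pos (hw' x hx)]
    exact mul_le_of_le_one_right (hw' x hx).le (hF x hx)
  have h4 : ∑ x ∈ M.box, w x * (F x - μ) ^ 2 ≤ 4 * ∑ x ∈ M.box, w x := by
    rw [mul_sum]
    refine sum_le_sum fun x hx => ?_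
    have a1 := abs_le.1 (hF x hx)
    have a2 := abs_le.1 h3
    rw [mul_comm 4]
    exact mul_le_mul_of_nonneg_left (by nlinarith) (hw' x hx).le
  have h5 := mul_le_mul_of_nonneg_right h4 (pow_nonneg hg0 T)
  have h6 := hw' x0 hx0
  refine le_of_mul_le_mul_left ?_ h6
  calc w x0 * ((Kop M w θ)^[T] F x0 - μ) ^ 2
      ≤ 4 * (∑ x ∈ M.box, w x) * (1 - θ / (4 * K * C)) ^ T := (h2.trans h1).trans h5
    _ = _ := by field_simp

end Vale.Agent.P328
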