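import Mathlib

/-!
Contingency tables: definitions used in the statement.
-/

namespace Vale.Agent.P328

open Finset

/-- The contingency tables with row sums `r` and column sums `c`
(an entry of row `i` is at most `r i`, so the bound on the entries loses nothing). -/
def tables {I J : Type} [Fintype I] [Fintype J] [DecidableEq I] [DecidableEq J]
    (r : I → ℕ) (c : J → ℕ) : Finset (I → J → ℕ) :=
  (Fintype.piFinset fun i => Fintype.piFinset fun _ : J => range (r i + 1)).filter
    fun X => (∀ i, ∑ j, X i j = r i) ∧ ∀ j, ∑ i, X i j = c j

/-- The length of the instance: dimensions plus the numbers of binary digits of the margins. -/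
def len {m n : ℕ} (r : Fin m → ℕ) (c : Fin n → ℕ) : ℕ :=
  m + n + ∑ i, (r i).size + ∑ j, (c j).size

/-- Self-delimiting binary code of a list: each item is preceded by `1`, the end is `0`. -/
def codeList {α : Type} (f : α → List Bool) (l : List α) : List Bool :=
  (l.flatMap fun a => true :: f a) ++ [false]

/-- Code of a bit. -/
def codeBit (b : Bool) : List Bool := if b then [true, false, false] else [false]

/-- Code of a number: the list of its binary digits. -/
def codeNat (n : ℕ) : List Bool := codeList codeBit n.bits

/-- Code of the input: row sums, column sums, accuracy parameter, random bits. -/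
def codeIn (a : List ℕ × List ℕ × ℕ × List Bool) : List Bool :=
  true :: (codeList codeNat a.1 ++ true :: (codeList codeNat a.2.1 ++
    true :: (codeNat a.2.2.1 ++ codeList codeBit a.2.2.2)))

/-- Code of the output: the list of the rows. -/
def codeOut (X : List (List ℕ)) : List Bool := codeList (codeList codeNat) X

end Vale.Agent.P328
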