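import Vale.Agent.P328.Boch

/-!
From the Bochner bound to a variance bound.
-/

namespace Vale.Agent.P328

open Finset

variable {I J : Type} [Fintype I] [Fintype J] [DecidableEq I] [DecidableEq J]

namespace Mdl

variable (M : Mdl I J)

theorem ibp (u h : St I J → ℝ) (c : I × J) : ∑ x ∈ M.box, h x * M.Lc u c x =
    - ∑ x ∈ M.box, M.om x c * (gr u c x * gr h c x) := by
  have := M.sum_shift (fun x => M.om x c * (gr u c x * h (x + e c 1))) (e c 1)
    fun _ hy => M.om_ne (left_ne_zero_of_mul hy)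
  simp only [sub_add_cancel] at this
  have h2 : ∑ x ∈ M.box, h x * M.Lc u c x = ∑ x ∈ M.box, M.om x c * (gr u c x * h x) -
      ∑ x ∈ M.box, M.om (x - e c 1) c * (gr u c (x - e c 1) * h x) := by
    rw [← sum_sub_distrib]
    exact sum_congr rfl fun x _ => by rw [Lc]; ring
  rw [h2, this, ← sum_sub_distrib, ← sum_neg_distrib]
  exact sum_congr rfl fun x _ => by simp only [gr]; ring

theorem zero_mem : (0 : St I J) ∈ M.box := M.mem_box.2 fun c => ⟨le_rfl, M.capnn c⟩

theorem const_of (u : St I J → ℝ)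
    (h : ∀ c x, x ∈ M.box → x + e c 1 ∈ M.box → u (x + e c 1) = u x) :
    ∀ x ∈ M.box, u x = u 0 := by
  have key : ∀ n : ℕ, ∀ x ∈ M.box, ∑ c, x c = n → u x = u 0 := by
    intro n
    induction n with
    | zero =>
      intro x hx hs
      have := (sum_eq_zero_iff_of_nonneg fun c _ => (M.mem_box.1 hx c).1).1 hs
      rw [show x = 0 from funext fun c => this c (mem_univ c)]
    | succ n ih =>
      intro x hx hs
      obtain ⟨c, hc⟩ : ∃ c, 0 < x c := by
        by_contra hh
        push Not at hh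
        have : ∑ c, x c ≤ 0 := sum_nonpos fun c _ => hh c
        omega
      have h1 : x - e c 1 ∈ M.box := M.mem_box.2 fun a => by
        have := M.mem_box.1 hx a
        simp only [Pi.sub_apply, e_apply]
        split_ifs with ha
        · subst ha; omega
        · omega
      have h2 := h c _ h1 (by rwa [sub_add_cancel])
      rw [sub_add_cancel] at h2
      rw [h2]
      refine ih _ h1 ?_
      simp only [Pi.sub_apply, sum_sub_distrib, e_apply, sum_ite_eq', mem_univ, if_true, hs]
      push_cast; ring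
  intro x hx
  refine key (∑ c, x c).toNat x hx ?_
  rw [Int.toNat_of_nonneg (sum_nonneg fun c _ => (M.mem_box.1 hx c).1)]

theorem sum_Lc (u : St I J → ℝ) (c : I × J) : ∑ x ∈ M.box, M.Lc u c x = 0 := by
  simpa [gr] using M.ibp u (fun _ => 1) c

theorem exists_sol (g : St I J → ℝ) (hg : ∑ x ∈ M.box, g x = 0) :
    ∃ u : St I J → ℝ, ∀ x ∈ M.box, ∑ c, M.Lc u c x = g x := by
  classical
  let ext : (M.box → ℝ) → St I J → ℝ := fun f x => if h : x ∈ M.box then f ⟨x, h⟩ else 0
  have hadd : ∀ f f' x, ext (f + f') x = ext f x + ext f' x := fun f f' x => by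
    simp only [ext]; split_ifs <;> simp
  have hsm : ∀ (a : ℝ) f x, ext (a • f) x = a * ext f x := fun a f x => by
    simp only [ext]; split_ifs <;> simp
  let T : (M.box → ℝ) →ₗ[ℝ] (M.box → ℝ) :=
    { toFun := fun f x => ∑ c, M.Lc (ext f) c x - ∑ y, f y
      map_add' := fun f f' => by
        funext x
        simp only [Lc, gr, hadd, Pi.add_apply, sum_add_distrib]
        rw [show ∀ a b c d : ℝ, a - b + (c - d) = a + c - (b + d) from fun _ _ _ _ => by ring,
          ← sum_add_distrib (s := univ (α := I × J))]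
        congr 1
        exact sum_congr rfl fun c _ => by ring
      map_smul' := fun a f => by
        funext x
        simp only [Lc, gr, hsm, Pi.smul_apply, smul_eq_mul, RingHom.id_apply, mul_sub, mul_sum]
        congr 1
        exact sum_congr rfl fun c _ => by ring }
  have hsum : ∀ f, ∑ x, T f x = - (M.box.card * ∑ y, f y) := fun f => by
    have : ∑ x : M.box, ∑ c, M.Lc (ext f) c x = 0 := by
      rw [sum_coe_sort M.box fun x => ∑ c, M.Lc (ext f) c x, sum_comm]
      exact sum_eq_zero fun c _ => M.sum_Lc _ c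
    simp only [T, LinearMap.coe_mk, AddHom.coe_mk, sum_sub_distrib, this]
    simp
  have hcard : (M.box.card : ℝ) ≠ 0 := by
    exact_mod_cast (card_pos.2 ⟨0, M.zero_mem⟩).ne'
  have hinj : Function.Injective T := by
    rw [injective_iff_map_eq_zero]
    intro f hf
    have h1 : ∑ y, f y = 0 := by
      have := hsum f
      rw [hf] at this
      simp only [Pi.zero_apply, sum_const_zero, zero_eq_neg, mul_eq_zero, hcard, false_or] at this
      exact this
    have h2 : ∀ x ∈ M.box, ∑ c, M.Lc (ext f) c x = 0 := fun x hx => by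
      have : ∑ c, M.Lc (ext f) c x - ∑ y, f y = 0 := congrFun hf ⟨x, hx⟩
      rwa [h1, sub_zero] at this
    have h3 : ∑ c, ∑ x ∈ M.box, M.om x c * (gr (ext f) c x * gr (ext f) c x) = 0 := by
      have : ∑ c, ∑ x ∈ M.box, ext f x * M.Lc (ext f) c x = 0 := by
        rw [sum_comm]
        exact sum_eq_zero fun x hx => by rw [← mul_sum, h2 x hx, mul_zero]
      simp only [M.ibp, sum_neg_distrib] at this
      linarith
    have h4 := M.const_of (ext f) fun c x hx hx' => by
      have a1 := (sum_eq_zero_iff_of_nonneg fun c _ => sum_nonneg fun x _ =>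
        mul_nonneg (M.om_nonneg x c) (mul_self_nonneg _)).1 h3 c (mem_univ c)
      have a2 := (sum_eq_zero_iff_of_nonneg fun x _ =>
        mul_nonneg (M.om_nonneg x c) (mul_self_nonneg _)).1 a1 x hx
      rw [om, if_pos ⟨hx, hx'⟩] at a2
      have a3 := (mul_eq_zero.1 a2).resolve_left (mul_pos (M.Lam_pos _) (M.Psi_pos _)).ne'
      exact sub_eq_zero.1 (mul_self_eq_zero.1 a3)
    have h5 : ∀ x, f x = ext f 0 := fun x => by
      rw [← h4 x x.2]; simp [ext]
    simp only [h5, sum_const, card_univ, Fintype.card_coe, nsmul_eq_mul, mul_eq_zero, hcard,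
      false_or] at h1
    funext x
    rw [h5, h1]; rfl
  obtain ⟨f, hf⟩ := LinearMap.injective_iff_surjective.1 hinj fun x => g x
  have h1 : ∑ y, f y = 0 := by
    have := hsum f
    rw [hf, sum_coe_sort M.box g, hg] at this
    simpa [hcard] using this
  refine ⟨ext f, fun x hx => ?_⟩
  have : ∑ c, M.Lc (ext f) c x - ∑ y, f y = g x := congrFun hf ⟨x, hx⟩
  rwa [h1, sub_zero] at this

theorem variance_le {K : ℝ} (hK : 0 < K)
    (h : ∀ u, ∑ c, ∑ x ∈ M.box, M.Lc u c x ^ 2 / M.pi x ≤ K * M.NN u) (F : St I J → ℝ)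
    (hF : ∑ x ∈ M.box, M.pi x * F x = 0) (m : I × J → St I J → ℝ)
    (hm : ∀ c x, x ∈ M.box → x + e c 1 ∈ M.box → m c (x + e c 1) = m c x) :
    ∑ x ∈ M.box, M.pi x * F x ^ 2 ≤ K * ∑ c, ∑ x ∈ M.box, M.pi x * (F x - m c x) ^ 2 := by
  obtain ⟨u, hu⟩ := M.exists_sol (fun x => M.pi x * F x) hF
  have h1 : M.NN u = ∑ x ∈ M.box, M.pi x * F x ^ 2 := sum_congr rfl fun x hx => by
    rw [hu x hx]; have := (M.pi_pos x).ne'; field_simp
  have h2 : ∑ x ∈ M.box, M.pi x * F x ^ 2 = ∑ c, ∑ x ∈ M.box, (F x - m c x) * M.Lc u c x := by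
    have : ∀ c, ∑ x ∈ M.box, m c x * M.Lc u c x = 0 := fun c => by
      rw [M.ibp, neg_eq_zero]
      refine sum_eq_zero fun x _ => ?_
      by_cases h0 : M.om x c = 0
      · rw [h0, zero_mul]
      · have := M.om_ne h0
        rw [gr.eq_1 (m c), hm c x this.1 this.2]; simp
    simp only [sub_mul, sum_sub_distrib, this, sum_const_zero, sub_zero]
    rw [sum_comm]
    exact sum_congr rfl fun x hx => by rw [← mul_sum, hu x hx]; ring
  have h3 : 2 * K * ∑ c, ∑ x ∈ M.box, (F x - m c x) * M.Lc u c x ≤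
      K ^ 2 * ∑ c, ∑ x ∈ M.box, M.pi x * (F x - m c x) ^ 2 +
        ∑ c, ∑ x ∈ M.box, M.Lc u c x ^ 2 / M.pi x := by
    simp only [mul_sum, ← sum_add_distrib]
    refine sum_le_sum fun c _ => sum_le_sum fun x _ => ?_
    have hp := M.pi_pos x
    have : 0 ≤ (K * M.pi x * (F x - m c x) - M.Lc u c x) ^ 2 / M.pi x := by positivity
    have e1 : (K * M.pi x * (F x - m c x) - M.Lc u c x) ^ 2 / M.pi x =
        K ^ 2 * (M.pi x * (F x - m c x) ^ 2) + M.Lc u c x ^ 2 / M.pi x -
          2 * K * ((F x - m c x) * M.Lc u c x) := by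
      field_simp; ring
    linarith
  have h4 := h u
  rw [← h2] at h3
  rw [h1] at h4
  refine le_of_mul_le_mul_left ?_ hK
  nlinarith

end Mdl

end Vale.Agent.P328
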