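import Vale.Agent.P328.Par
import Vale.Agent.P328.Boch

/-!
Numerical facts about the parameters.
-/

namespace Vale.Agent.P328

open Finset

variable {I J : Type} [Fintype I] [Fintype J] [DecidableEq I] [DecidableEq J]

namespace Par

variable (p : Par I J)

section gam

omit [DecidableEq I] [DecidableEq J]

theorem q_pos : 0 < p.q := lt_of_lt_of_le (by norm_num) p.q_ge

theorem qR_pos : (0 : ℝ) < p.q := by exact_mod_cast p.q_pos

theorem gam_rpos (x : ℝ) : 0 < p.gam ^ x := Real.rpow_pos_of_pos p.gam_pos _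

theorem gam_add (x y : ℝ) : p.gam ^ (x + y) = p.gam ^ x * p.gam ^ y := Real.rpow_add p.gam_pos _ _

theorem gam_le_one {x : ℝ} (h : 0 ≤ x) : p.gam ^ x ≤ 1 := Real.rpow_le_one p.gam_pos.le p.gam_le h

theorem gam_lo {y : ℝ} (h : 0 ≤ y) : 1 - 2 * y / p.q ≤ p.gam ^ y := by
  have h1 := Real.one_sub_inv_le_log_of_pos p.gam_pos
  have h2 : 1 - p.gam⁻¹ ≥ -(2 / p.q) := by
    have hq := p.qR
    have e : p.gam⁻¹ = 1 + 1 / (p.q - 1) := by
      have : (p.q : ℝ) - 1 ≠ 0 := by linarith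
      unfold gam; field_simp; ring
    have : 1 / ((p.q : ℝ) - 1) ≤ 2 / p.q := by
      rw [div_le_div_iff₀ (by linarith) (by linarith)]; linarith
    linarith
  rw [Real.rpow_def_of_pos p.gam_pos]
  have h3 := Real.add_one_le_exp (Real.log p.gam * y)
  have h4 := mul_le_mul_of_nonneg_right (h2.le.trans h1) h
  have : 2 * y / p.q = 2 / p.q * y := by ring
  linarith

theorem gam_hi {y : ℝ} (h : 0 ≤ y) (h1 : y ≤ 1) : p.gam ^ y ≤ 1 - y / p.q := by
  have := rpow_one_add_le_one_add_mul_self (s := -(1 / p.q)) (p := y)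
    (by have := p.gam_pos; unfold gam at this; linarith) h h1
  rw [← sub_eq_add_neg] at this
  refine this.trans (le_of_eq ?_)
  ring

theorem gam_nine {y : ℝ} (h : y ≤ 9) : 1 ≤ 2 * p.gam ^ y := by
  have h1 := p.gam_lo (y := 9) (by norm_num)
  have h2 := p.gam_anti h
  have h3 : 2 * 9 / (p.q : ℝ) ≤ 1 / 2 := by
    rw [div_le_div_iff₀ p.qR_pos (by norm_num)]; linarith [p.qR]
  linarith

theorem gam_q : p.gam ^ (p.q : ℝ) ≤ 1 / 2 := by
  have h1 : p.gam ≤ Real.exp (-(1 / p.q)) := by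
    have := Real.add_one_le_exp (-(1 / (p.q : ℝ))); unfold gam; linarith
  have h2 := Real.rpow_le_rpow p.gam_pos.le h1 p.qR_pos.le
  rw [← Real.exp_mul, neg_mul, one_div_mul_cancel p.qR_pos.ne'] at h2
  have h3 := Real.add_one_le_exp 1
  rw [Real.exp_neg] at h2
  refine h2.trans ?_
  rw [one_div]
  exact inv_anti₀ (by norm_num) (by linarith)

theorem gam_q' : 1 / 4 ≤ p.gam ^ (p.q : ℝ) := by
  have h1 := one_add_mul_self_le_rpow_one_add (s := -(1 / p.q)) (p := p.q / 2)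
    (by have := p.gam_pos; unfold gam at this; linarith) (by linarith [p.qR])
  have h3 : 1 + (p.q : ℝ) / 2 * -(1 / p.q) = 1 / 2 := by
    have := p.qR_pos.ne'; field_simp; norm_num
  rw [h3, ← sub_eq_add_neg] at h1
  have h2 := p.gam_add (p.q / 2) (p.q / 2)
  rw [add_halves] at h2
  rw [h2]
  unfold gam
  nlinarith

theorem qR_eq : (p.q : ℝ) = 2 ^ p.b := by simp [q]

theorem gam_qb : p.q * p.gam ^ ((p.q : ℝ) * p.b) ≤ 1 := by
  rw [Real.rpow_mul p.gam_pos.le, Real.rpow_natCast]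
  have := pow_le_pow_left₀ (p.gam_rpos _).le p.gam_q p.b
  rw [one_div, inv_pow, ← p.qR_eq] at this
  have h := p.qR_pos
  calc _ ≤ (p.q : ℝ) * (p.q : ℝ)⁻¹ := by gcongr
    _ = 1 := by field_simp

theorem gam_qb' : 1 ≤ (p.q : ℝ) ^ 2 * p.gam ^ ((p.q : ℝ) * p.b) := by
  rw [Real.rpow_mul p.gam_pos.le, Real.rpow_natCast]
  have := pow_le_pow_left₀ (by norm_num) p.gam_q' p.b
  have e : ((1 : ℝ) / 4) ^ p.b = ((p.q : ℝ) ^ 2)⁻¹ := by
    rw [p.qR_eq, ← pow_mul, mul_comm, pow_mul, ← inv_pow]; norm_num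
  rw [e] at this
  have h := p.qR_pos
  calc (1 : ℝ) = (p.q : ℝ) ^ 2 * ((p.q : ℝ) ^ 2)⁻¹ := by field_simp
    _ ≤ _ := by gcongr

theorem gam_up {x y d K : ℝ} (h : x + d ≤ y) (hK : K * p.gam ^ d ≤ 1) (h0 : 0 ≤ K) :
    K * p.gam ^ y ≤ p.gam ^ x := by
  have h1 := p.gam_anti h
  rw [gam_add] at h1
  have h2 := p.gam_rpos x
  nlinarith

theorem gam_dn {x y d K : ℝ} (h : y ≤ x + d) (hK : 1 ≤ K * p.gam ^ d) (h0 : 0 ≤ K) :
    p.gam ^ x ≤ K * p.gam ^ y := by
  have h1 := p.gam_anti h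
  rw [gam_add] at h1
  have h2 := p.gam_rpos x
  nlinarith

theorem b_le : p.b ≤ p.q := Nat.lt_two_pow_self.le

theorem b_pos : 1 ≤ p.b := by
  have := p.q_ge
  by_contra h
  rw [q, show p.b = 0 by omega] at this
  omega

end gam

section size

omit [DecidableEq I] [DecidableEq J]

theorem mn_le : 64 * (Fintype.card I * Fintype.card J) ≤ p.q ∧
    64 * (Fintype.card J * Fintype.card J) ≤ p.q ∧ 64 * Fintype.card I ≤ p.q ∧
    64 * Fintype.card J ≤ p.q := by
  have h := p.hq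
  unfold q
  generalize Fintype.card I = m at *
  generalize Fintype.card J = n at *
  have e : (m + n + 2) ^ 3 = m ^ 3 + n ^ 3 + 3 * m ^ 2 * n + 3 * m * n ^ 2 + 6 * m ^ 2 + 6 * (n * n) +
    12 * (m * n) + 12 * m + 12 * n + 8 := by ring
  omega

theorem r_le (i : I) : p.r i ≤ ∑ l, p.r l :=
  single_le_sum (f := p.r) (fun _ _ => Nat.zero_le _) (mem_univ i)

theorem c_le (j : J) : p.c j ≤ ∑ l, p.r l :=
  p.hsum ▸ single_le_sum (f := p.c) (fun _ _ => Nat.zero_le _) (mem_univ j)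

theorem N_le : ∑ l, p.r l ≤ Fintype.card J * p.c p.ns := by
  rw [p.hsum]
  simpa using sum_le_card_nsmul univ p.c _ fun j _ => p.hns j

end size

omit [DecidableEq J] in
theorem rh_le (i : I) : p.rh i ≤ p.r i := by unfold rh; split_ifs <;> omega

omit [DecidableEq J] in
theorem rh_eq {i : I} (h : i ≠ p.ms) : p.rh i = p.r i := if_neg h

omit [DecidableEq J] in
theorem rh_ms : p.rh p.ms = 0 := if_pos rfl

theorem size_bd {n : ℕ} (h : 1 ≤ n) : (n : ℤ) ≤ 2 ^ n.size - 1 ∧ (2 : ℤ) ^ n.size ≤ 2 * n := by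
  have h1 := Nat.lt_size_self n
  have h2 : 2 ^ (n.size - 1) ≤ n := Nat.lt_size.1 (by have := Nat.size_pos.2 h; omega)
  have h3 : 2 ^ n.size = 2 * 2 ^ (n.size - 1) := by
    rw [← pow_succ']; congr 1; have := Nat.size_pos.2 h; omega
  have h4 : 2 ^ n.size ≤ 2 * n := by omega
  zify at h1 h4
  omega

theorem cap_ms (j : J) : p.mdl.cap (p.ms, j) = 0 := by simp [mdl, cap, ex]

theorem cap_ns {i : I} (h : i ≠ p.ms) : 6 * (p.r i : ℤ) + 8 ≤ p.mdl.cap (i, p.ns) ∧
    p.mdl.cap (i, p.ns) + 1 ≤ 12 * p.r i + 16 := by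
  have := size_bd (n := 6 * p.r i + 8) (by omega)
  simp only [mdl, cap, ex, if_neg h, if_true]
  push_cast at this
  omega

theorem cap_ne {i : I} (h : i ≠ p.ms) {j : J} (h' : j ≠ p.ns) :
    2 * min (p.r i : ℤ) (p.c j) + 3 ≤ p.mdl.cap (i, j) ∧
    p.mdl.cap (i, j) + 1 ≤ 4 * min (p.r i : ℤ) (p.c j) + 6 := by
  have := size_bd (n := 2 * min (p.r i) (p.c j) + 3) (by omega)
  simp only [mdl, cap, ex, if_neg h, if_neg h']
  push_cast at this
  omega

theorem cap_le (i : I) (j : J) : p.mdl.cap (i, j) + 1 ≤ 16 * (p.rh i + 1) := by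
  by_cases h : i = p.ms
  · rw [h, cap_ms]; omega
  rw [p.rh_eq h]
  by_cases h' : j = p.ns
  · have := p.cap_ns h; rw [h']; omega
  · have := p.cap_ne h h'; omega

theorem ne_ms {x : St I J} {i : I} {j : J} (h : x ∈ p.mdl.box) (h' : x + e (i, j) 1 ∈ p.mdl.box) :
    i ≠ p.ms := by
  rintro rfl
  have h1 := p.mdl.mem_box.1 h (p.ms, j)
  have h2 := p.mdl.mem_box.1 h' (p.ms, j)
  rw [cap_ms] at h2
  simp only [Pi.add_apply, e_apply, if_true] at h2
  omega

theorem row_nn {x : St I J} (h : x ∈ p.mdl.box) (i : I) : 0 ≤ row x i :=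
  sum_nonneg fun _ _ => (p.mdl.mem_box.1 h _).1

theorem col_nn {x : St I J} (h : x ∈ p.mdl.box) (j : J) : 0 ≤ col x j :=
  sum_nonneg fun _ _ => (p.mdl.mem_box.1 h _).1

theorem le_row {x : St I J} (h : x ∈ p.mdl.box) (i : I) (j : J) : x (i, j) ≤ row x i :=
  single_le_sum (f := fun j => x (i, j)) (fun _ _ => (p.mdl.mem_box.1 h _).1) (mem_univ j)

theorem le_row2 {x : St I J} (h : x ∈ p.mdl.box) (i : I) {j k : J} (hjk : j ≠ k) :
    x (i, j) + x (i, k) ≤ row x i := by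
  have := sum_le_sum_of_subset_of_nonneg (f := fun j => x (i, j)) (subset_univ {j, k})
    fun _ _ _ => (p.mdl.mem_box.1 h _).1
  rwa [sum_pair hjk] at this

theorem row_le {x : St I J} (h : x ∈ p.mdl.box) (i : I) : row x i ≤ p.q * (p.rh i + 1) := by
  have h1 : row x i ≤ Fintype.card J * (16 * ((p.rh i : ℤ) + 1)) := by
    simpa [row] using sum_le_card_nsmul univ (fun j => x (i, j)) (16 * ((p.rh i : ℤ) + 1)) fun j _ => by
      have := (p.mdl.mem_box.1 h (i, j)).2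
      have := p.cap_le i j
      omega
  have h2 : 64 * (Fintype.card J : ℤ) ≤ p.q := by exact_mod_cast p.mn_le.2.2.2
  nlinarith

theorem col_le {x : St I J} (h : x ∈ p.mdl.box) (j : J) : col x j ≤ p.q * (p.c j + 1) := by
  have h2 : 64 * (Fintype.card J : ℤ) ≤ p.q := by exact_mod_cast p.mn_le.2.2.2
  have h3 : 64 * (Fintype.card I : ℤ) ≤ p.q := by exact_mod_cast p.mn_le.2.2.1
  by_cases hj : j = p.ns
  · have h1 : col x j ≤ ∑ i, (16 * (p.r i : ℤ) + 16) := sum_le_sum fun i _ => by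
      have := (p.mdl.mem_box.1 h (i, j)).2
      have := p.cap_le i j
      have := p.rh_le i
      omega
    have h4 : ∑ i, (p.r i : ℤ) ≤ Fintype.card J * p.c p.ns := by exact_mod_cast p.N_le
    rw [sum_add_distrib, ← mul_sum] at h1
    simp only [sum_const, card_univ, nsmul_eq_mul] at h1
    rw [← hj] at h4
    nlinarith
  · have h1 : col x j ≤ Fintype.card I * (6 * ((p.c j : ℤ) + 1)) := by
      simpa [col] using sum_le_card_nsmul univ (fun i => x (i, j)) (6 * ((p.c j : ℤ) + 1)) fun i _ => by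
        have := (p.mdl.mem_box.1 h (i, j)).2
        by_cases hi : i = p.ms
        · rw [hi, cap_ms] at this; rw [hi]; omega
        · have := p.cap_ne hi hj
          omega
    nlinarith

omit [DecidableEq I] [DecidableEq J] in
theorem div_facts {r k : ℕ} (h : p.q ^ (5 + k) ≤ r) :
    p.q ^ k ≤ r / p.q ^ 5 ∧ p.q ^ 5 * (r / p.q ^ 5) ≤ r ∧ r + 1 ≤ 2 * p.q ^ 5 * (r / p.q ^ 5) := by
  have h0 : 0 < p.q ^ 5 := pow_pos p.q_pos _
  have h1 : p.q ^ k ≤ r / p.q ^ 5 := (Nat.le_div_iff_mul_le h0).2 (by rwa [← pow_add, add_comm])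
  have h2 := Nat.lt_mul_div_succ r h0
  have h3 : 1 ≤ p.q ^ k := Nat.one_le_pow _ _ p.q_pos
  refine ⟨h1, Nat.mul_div_le _ _, ?_⟩
  nlinarith

omit [DecidableEq J] in
theorem aa_le (i : I) : p.q ^ 3 * p.aa i ≤ p.rh i := by
  unfold aa mu
  split_ifs with h
  · have := (p.div_facts (k := 8) h).2.1
    have h2 := p.q_ge
    unfold hh
    calc _ = 2 * (p.q ^ 4 * (p.rh i / p.q ^ 5)) := by ring
      _ ≤ p.q * (p.q ^ 4 * (p.rh i / p.q ^ 5)) := by gcongr; omega
      _ = _ := by ring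
      _ ≤ _ := this
  · omega

omit [DecidableEq J] in
theorem aa_le' (i : I) : p.aa i ≤ p.rh i :=
  le_trans (Nat.le_mul_of_pos_left _ (pow_pos p.q_pos 3)) (p.aa_le i)

omit [DecidableEq J] in
theorem SA_le : p.q ^ 2 * p.SA ≤ p.c p.ns := by
  have h1 : p.q ^ 3 * p.SA ≤ ∑ l, p.r l := by
    rw [SA, mul_sum]; exact sum_le_sum fun i _ => (p.aa_le i).trans (p.rh_le i)
  have h2 := p.N_le
  have h3 := p.mn_le.2.2.2
  refine Nat.le_of_mul_le_mul_left ?_ p.q_pos
  calc _ = p.q ^ 3 * p.SA := by ring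
    _ ≤ Fintype.card J * p.c p.ns := h1.trans h2
    _ ≤ _ := by gcongr; omega

theorem cc_le (j : J) : p.c j ≤ p.cc j ∧ p.cc j ≤ 2 * p.c j := by
  unfold cc
  split_ifs with h
  · have h1 := p.SA_le
    have h2 : 2 ≤ p.q ^ 2 := le_trans (by have := p.q_ge; omega) (Nat.le_self_pow two_ne_zero _)
    have := Nat.mul_le_mul_right p.SA h2
    rw [h]; omega
  · omega

end Par

end Vale.Agent.P328
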