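import Vale.Agent.P328.Facts

/-!
Ratios and curvatures of the weights.
-/

namespace Vale.Agent.P328

open Finset

variable {I J : Type} [Fintype I] [Fintype J] [DecidableEq I] [DecidableEq J]

namespace Par

variable (p : Par I J)

theorem L_eq (i : I) (t : ℤ) : p.mdl.L i t = p.gam ^ p.ER i t := rfl

theorem P_eq (j : J) (t : ℤ) : p.mdl.P j t = p.gam ^ p.EC j t := rfl

omit [DecidableEq I] [DecidableEq J] in
theorem gam_div (x y : ℝ) : p.gam ^ x / p.gam ^ y = p.gam ^ (x - y) :=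
  (Real.rpow_sub p.gam_pos _ _).symm

omit [DecidableEq J] in
theorem ER_small {i : I} (h : ¬ p.q ^ 13 ≤ p.rh i) (t : ℤ) :
    p.ER i t = 3 * (p.q * p.b) * (|t - p.rh i| : ℤ) := by rw [ER, if_neg h]; ring

omit [DecidableEq J] in
theorem ER_big {i : I} (h : p.q ^ 13 ≤ p.rh i) (t : ℤ) :
    p.ER i t = ((t : ℝ) - p.rh i - p.q * p.hh i) ^ 2 / (p.hh i : ℝ) ^ 2 := by
  rw [ER, if_pos h, mu, if_pos h]; push_cast; ring

omit [DecidableEq J] in
theorem hh_facts {i : I} (h : p.q ^ 13 ≤ p.rh i) : (p.q : ℝ) ^ 8 ≤ p.hh i ∧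
    (p.q : ℝ) ^ 5 * p.hh i ≤ p.rh i ∧ (p.rh i : ℝ) + 1 ≤ 2 * p.q ^ 5 * p.hh i := by
  exact_mod_cast p.div_facts (k := 8) h

omit [DecidableEq I] [DecidableEq J] in
theorem gg_facts {j : J} (h : p.q ^ 12 ≤ p.c j) : (p.q : ℝ) ^ 7 ≤ p.gg j ∧
    (p.q : ℝ) ^ 5 * p.gg j ≤ p.c j ∧ (p.c j : ℝ) + 1 ≤ 2 * p.q ^ 5 * p.gg j := by
  exact_mod_cast p.div_facts (k := 7) h

omit [DecidableEq I] [DecidableEq J] in
theorem gam_3qb : (p.q : ℝ) ^ 3 * p.gam ^ (3 * ((p.q : ℝ) * p.b)) ≤ 1 ∧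
    1 ≤ (p.q : ℝ) ^ 6 * p.gam ^ (3 * ((p.q : ℝ) * p.b)) := by
  have e : p.gam ^ (3 * ((p.q : ℝ) * p.b)) = (p.gam ^ ((p.q : ℝ) * p.b)) ^ 3 := by
    rw [mul_comm, Real.rpow_mul p.gam_pos.le]; norm_cast
  have h0 := p.gam_rpos ((p.q : ℝ) * p.b)
  have h1 := p.qR_pos
  rw [e, ← mul_pow, show (p.q : ℝ) ^ 6 = (p.q ^ 2) ^ 3 by ring, ← mul_pow]
  exact ⟨pow_le_one₀ (by positivity) p.gam_qb, one_le_pow₀ p.gam_qb'⟩

omit [DecidableEq I] [DecidableEq J] in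
theorem gam_qq : p.q * p.gam ^ ((p.q : ℝ) ^ 2) ≤ 1 := by
  refine le_trans (mul_le_mul_of_nonneg_left (p.gam_anti ?_) p.qR_pos.le) p.gam_qb
  have : (p.b : ℝ) ≤ p.q := by exact_mod_cast p.b_le
  nlinarith [p.qR_pos]

theorem L_mono (i : I) {s t : ℤ} (h : (p.rh i : ℤ) + p.mu i ≤ s) (h' : s ≤ t) :
    p.mdl.L i t ≤ p.mdl.L i s := by
  refine p.gam_anti ?_
  unfold ER
  split_ifs
  · have : (s - p.rh i - p.mu i) ^ 2 ≤ (t - p.rh i - p.mu i) ^ 2 :=
      pow_le_pow_left₀ (by omega) (by omega) 2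
    exact div_le_div_of_nonneg_right (by exact_mod_cast this) (by positivity)
  · have : |s - p.rh i| ≤ |t - p.rh i| := by simp only [abs_eq_max_neg]; omega
    exact mul_le_mul_of_nonneg_left (by exact_mod_cast this) (by positivity)

omit [DecidableEq J] in
theorem dl_le (i : I) : (p.mu i : ℤ) + p.dl i ≤ p.aa i + 1 ∧ 1 ≤ p.dl i := by
  unfold aa dl mu
  split_ifs with h
  · have h1 := (p.div_facts (k := 8) h).1
    have h2 := Nat.mul_pos p.q_pos ((pow_pos p.q_pos 8).trans_le h1)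
    unfold hh
    omega
  · omega

theorem L_down (i : I) {t : ℤ} (h : (p.rh i : ℤ) + p.aa i < t) :
    p.q * p.mdl.L i t ≤ p.mdl.L i (t - p.dl i) := by
  by_cases hb : p.q ^ 13 ≤ p.rh i
  · refine p.gam_up ?_ p.gam_qq p.qR_pos.le
    have h1 := (p.hh_facts hb).1
    have h0 : (0 : ℝ) < p.hh i := lt_of_lt_of_le (pow_pos p.qR_pos _) h1
    rw [aa, mu, if_pos hb] at h
    have h2 : (p.rh i : ℝ) + 2 * (p.q * p.hh i) < t := by exact_mod_cast h
    rw [p.ER_big hb, p.ER_big hb, dl, if_pos hb, div_add' _ _ _ (by positivity)]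
    refine div_le_div_of_nonneg_right ?_ (by positivity)
    push_cast
    have h3 := mul_pos p.qR_pos h0
    nlinarith
  · refine p.gam_up (d := p.q * p.b) ?_ p.gam_qb p.qR_pos.le
    rw [aa, mu, if_neg hb] at h
    rw [p.ER_small hb, p.ER_small hb, dl, if_neg hb, abs_of_nonneg (by omega),
      abs_of_nonneg (by omega)]
    have : (0 : ℝ) ≤ p.q * p.b := by positivity
    push_cast
    nlinarith

theorem L_up (i : I) {t : ℤ} (h : t < p.rh i) : p.q * p.mdl.L i t ≤ p.mdl.L i (t + p.dl i) := by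
  by_cases hb : p.q ^ 13 ≤ p.rh i
  · refine p.gam_up ?_ p.gam_qq p.qR_pos.le
    have h1 := (p.hh_facts hb).1
    have h0 : (0 : ℝ) < p.hh i := lt_of_lt_of_le (pow_pos p.qR_pos _) h1
    have h2 : (t : ℝ) < p.rh i := by exact_mod_cast h
    rw [p.ER_big hb, p.ER_big hb, dl, if_pos hb, div_add' _ _ _ (by positivity)]
    refine div_le_div_of_nonneg_right ?_ (by positivity)
    push_cast
    have h3 := mul_pos p.qR_pos h0
    nlinarith
  · refine p.gam_up (d := p.q * p.b) ?_ p.gam_qb p.qR_pos.le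
    rw [p.ER_small hb, p.ER_small hb, dl, if_neg hb, abs_of_nonpos (by omega),
      abs_of_nonpos (by omega)]
    have : (0 : ℝ) ≤ p.q * p.b := by positivity
    push_cast
    nlinarith

theorem L_up3 {i : I} (hb : ¬ p.q ^ 13 ≤ p.rh i) {t : ℤ} (h : t < p.rh i) :
    p.q * p.q ^ 2 * p.mdl.L i t ≤ p.mdl.L i (t + 1) := by
  rw [← pow_succ']
  refine p.gam_up ?_ p.gam_3qb.1 (by positivity)
  rw [p.ER_small hb, p.ER_small hb, abs_of_nonpos (by omega), abs_of_nonpos (by omega)]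
  push_cast
  nlinarith

omit [DecidableEq J] in
theorem ER_lip {i : I} (hb : ¬ p.q ^ 13 ≤ p.rh i) {s t : ℤ} (h : |s - t| ≤ 1) :
    p.ER i s ≤ p.ER i t + 3 * (p.q * p.b) := by
  rw [p.ER_small hb, p.ER_small hb]
  have h1 : |s - p.rh i| ≤ |t - p.rh i| + 1 := by simp only [abs_eq_max_neg] at *; omega
  have h2 : ((|s - p.rh i| : ℤ) : ℝ) ≤ (|t - p.rh i| : ℤ) + 1 := by exact_mod_cast h1
  have : (0 : ℝ) ≤ p.q * p.b := by positivity
  nlinarith

omit [DecidableEq J] in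
theorem ER_near {i : I} (hb : p.q ^ 13 ≤ p.rh i) {t τ : ℤ} (h0 : 0 ≤ t)
    (h1 : t ≤ p.q * (p.rh i + 1)) (h2 : p.q ^ 7 * |τ| ≤ p.hh i) :
    |p.ER i (t + τ) - p.ER i t| ≤ 1 := by
  obtain ⟨a1, a2, a3⟩ := p.hh_facts hb
  have hq := p.qR
  have h0' : (0 : ℝ) ≤ t := by exact_mod_cast h0
  have h1' : (t : ℝ) ≤ p.q * (p.rh i + 1) := by exact_mod_cast h1
  have h2' : (p.q : ℝ) ^ 7 * |(τ : ℝ)| ≤ p.hh i := by exact_mod_cast h2
  rw [p.ER_big hb, p.ER_big hb]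
  generalize (p.hh i : ℝ) = H at *
  generalize (p.rh i : ℝ) = r at *
  generalize (p.q : ℝ) = Q at *
  have q1 : (1 : ℝ) ≤ Q := by linarith
  have H0 : 0 < H := lt_of_lt_of_le (by positivity) a1
  have q5 : Q * H ≤ Q ^ 5 * H := mul_le_mul_of_nonneg_right (le_self_pow₀ q1 (by norm_num)) H0.le
  have q6 : 512 * (Q ^ 5 * H) ≤ Q * (Q ^ 5 * H) := mul_le_mul_of_nonneg_right hq (by positivity)
  have q7 : 512 * (Q ^ 6 * H) ≤ Q * (Q ^ 6 * H) := mul_le_mul_of_nonneg_right hq (by positivity)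
  have b1 : |t - r - Q * H| ≤ 2 * Q ^ 6 * H := by
    rw [abs_le]; constructor <;> nlinarith
  have b2 : |(τ : ℝ)| ≤ Q ^ 6 * H := by
    have := mul_le_mul_of_nonneg_right (one_le_pow₀ (n := 7) q1) (abs_nonneg (τ : ℝ))
    have := mul_le_mul_of_nonneg_right (one_le_pow₀ (n := 6) q1) H0.le
    linarith
  rw [← sub_div, abs_div, abs_of_pos (a := H ^ 2) (by positivity), div_le_one (by positivity)]
  push_cast
  have e : (t + τ - r - Q * H) ^ 2 - (t - r - Q * H) ^ 2 = τ * (2 * (t - r - Q * H) + τ) := by ring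
  have b3 : |2 * (t - r - Q * H) + τ| ≤ Q ^ 7 * H := by
    have := abs_add_le (2 * (t - r - Q * H)) τ
    rw [abs_mul, abs_two] at this
    nlinarith
  rw [e, abs_mul]
  calc _ ≤ |(τ : ℝ)| * (Q ^ 7 * H) := by gcongr
    _ = Q ^ 7 * |(τ : ℝ)| * H := by ring
    _ ≤ H * H := by gcongr
    _ = _ := by ring

omit [DecidableEq J] in
theorem ER_step {i : I} (hb : p.q ^ 13 ≤ p.rh i) {t : ℤ} (h0 : 0 ≤ t)
    (h1 : t ≤ p.q * (p.rh i + 1)) :
    |p.ER i (t + 1) - p.ER i t| ≤ 1 ∧ |p.ER i (t - 1) - p.ER i t| ≤ 1 := by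
  have h2 : (p.q : ℤ) ^ 7 ≤ p.hh i := by
    have := (p.div_facts (k := 8) hb).1
    exact_mod_cast (Nat.pow_le_pow_right p.q_pos (by norm_num)).trans this
  exact ⟨p.ER_near hb h0 h1 (by simpa using h2), p.ER_near (τ := -1) hb h0 h1 (by simpa using h2)⟩

theorem L_ratio (i : I) {t : ℤ} (h0 : 0 ≤ t) (h1 : t ≤ p.q * (p.rh i + 1)) :
    p.mdl.L i t ≤ p.q ^ 6 * p.mdl.L i (t - 1) := by
  refine p.gam_dn ?_ p.gam_3qb.2 (by positivity)
  by_cases hb : p.q ^ 13 ≤ p.rh i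
  · have := (abs_le.1 (p.ER_step hb h0 h1).2).2
    have h3 : (1 : ℝ) ≤ p.b := by exact_mod_cast p.b_pos
    nlinarith [p.qR]
  · exact p.ER_lip hb (by simp)

theorem dL_eq (i : I) (t : ℤ) : p.mdl.dL i t =
    p.gam ^ (p.ER i t - p.ER i (t + 1)) - p.gam ^ (p.ER i (t - 1) - p.ER i t) := by
  simp only [Mdl.dL, L_eq, gam_div]

theorem dL_big {i : I} (hb : p.q ^ 13 ≤ p.rh i) (t : ℤ) : p.mdl.dL i t =
    p.gam ^ (p.ER i t - p.ER i (t + 1)) * (1 - p.gam ^ (2 / (p.hh i : ℝ) ^ 2)) := by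
  rw [dL_eq, mul_sub, mul_one, ← gam_add]
  congr 2
  simp only [p.ER_big hb]
  push_cast
  ring

theorem dL_lo (i : I) {t : ℤ} (h0 : 0 ≤ t) (h1 : t ≤ p.q * (p.rh i + 1))
    (h : p.q ^ 13 ≤ p.rh i ∨ t = p.rh i) :
    1 / (2 * p.q * ((p.rh i : ℝ) + 1) ^ 2) ≤ p.mdl.dL i t := by
  have hq := p.qR
  by_cases hb : p.q ^ 13 ≤ p.rh i
  · obtain ⟨a1, a2, a3⟩ := p.hh_facts hb
    have a4 := p.gam_nine (y := p.ER i t - p.ER i (t + 1))
      (by have := (abs_le.1 (p.ER_step hb h0 h1).1).1; linarith)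
    have q8 : (512 : ℝ) ≤ p.q ^ 8 := hq.trans (le_self_pow₀ (by linarith) (by norm_num))
    have q5 : (1 : ℝ) ≤ p.q ^ 5 := one_le_pow₀ (by linarith)
    have a5 := p.gam_hi (y := 2 / (p.hh i : ℝ) ^ 2) (by positivity)
      (by rw [div_le_one (by nlinarith)]; nlinarith)
    have a6 : 1 / (p.q * ((p.rh i : ℝ) + 1) ^ 2) ≤ 2 / (p.hh i : ℝ) ^ 2 / p.q := by
      rw [div_div, div_le_div_iff₀ (by positivity) (by nlinarith)]
      have : (p.hh i : ℝ) ^ 2 ≤ (p.rh i + 1) ^ 2 := pow_le_pow_left₀ (by positivity) (by nlinarith) 2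
      nlinarith
    have a7 : 0 ≤ 1 / (p.q * ((p.rh i : ℝ) + 1) ^ 2) := by positivity
    have e : 1 / (2 * p.q * ((p.rh i : ℝ) + 1) ^ 2) =
      1 / 2 * (1 / (p.q * ((p.rh i : ℝ) + 1) ^ 2)) := by field_simp
    rw [p.dL_big hb, e]
    exact mul_le_mul (by linarith) (by linarith) a7 (p.gam_rpos _).le
  · have ht := h.resolve_left hb
    subst ht
    have a1 : 1 / (2 * p.q * ((p.rh i : ℝ) + 1) ^ 2) ≤ 1 := by
      rw [div_le_one (by positivity)]
      have : (1 : ℝ) ≤ (p.rh i + 1) ^ 2 := one_le_pow₀ (by linarith [Nat.cast_nonneg (α := ℝ) (p.rh i)])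
      nlinarith
    have a2 := p.gam_up (x := p.ER i (p.rh i) - p.ER i (p.rh i + 1)) (y := 0)
      (by simp [p.ER_small hb]) p.gam_3qb.1 (by positivity)
    have a3 := p.gam_le_one (x := p.ER i (p.rh i - 1) - p.ER i (p.rh i))
      (by simp only [p.ER_small hb]; simp; positivity)
    have q3 : (512 : ℝ) ≤ p.q ^ 3 := hq.trans (le_self_pow₀ (by linarith) (by norm_num))
    rw [Real.rpow_zero] at a2
    rw [dL_eq]
    linarith

theorem dL_hi (i : I) {t : ℤ} (h0 : 0 ≤ t) (h1 : t ≤ p.q * (p.rh i + 1)) :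
    p.mdl.dL i t ≤ p.q ^ 32 / ((p.rh i : ℝ) + 1) ^ 2 := by
  have hq := p.qR
  rw [le_div_iff₀ (by positivity)]
  by_cases hb : p.q ^ 13 ≤ p.rh i
  · obtain ⟨a1, a2, a3⟩ := p.hh_facts hb
    have H0 : (0 : ℝ) < p.hh i := lt_of_lt_of_le (by positivity) a1
    have a4 := p.gam_dn (x := p.ER i t - p.ER i (t + 1)) (y := 0) (d := 1)
      (by have := (abs_le.1 (p.ER_step hb h0 h1).1).2; linarith) (p.gam_nine (by norm_num))
      zero_le_two
    have a5 := p.gam_lo (y := 2 / (p.hh i : ℝ) ^ 2) (by positivity)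
    have a6 := p.gam_le_one (x := 2 / (p.hh i : ℝ) ^ 2) (by positivity)
    rw [Real.rpow_zero, mul_one] at a4
    rw [p.dL_big hb]
    calc _ ≤ 2 * (2 * (2 / (p.hh i : ℝ) ^ 2) / p.q) * (2 * p.q ^ 5 * p.hh i) ^ 2 := by
          gcongr
          linarith
      _ = 32 * (p.q : ℝ) ^ 9 := by field_simp; norm_num
      _ ≤ p.q * (p.q : ℝ) ^ 9 := by gcongr; linarith
      _ = (p.q : ℝ) ^ 10 := by ring
      _ ≤ _ := pow_le_pow_right₀ (by linarith) (by norm_num)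
  · have a1 : (p.rh i : ℝ) + 1 ≤ p.q ^ 13 := by exact_mod_cast not_le.1 hb
    have a2 := p.gam_dn (x := p.ER i t - p.ER i (t + 1)) (y := 0)
      (by have := p.ER_lip hb (s := t + 1) (t := t) (by simp); linarith) p.gam_3qb.2
      (by positivity)
    have a3 := p.gam_rpos (p.ER i (t - 1) - p.ER i t)
    rw [Real.rpow_zero, mul_one] at a2
    calc _ ≤ (p.q : ℝ) ^ 6 * (p.q ^ 13) ^ 2 := by
          gcongr
          rw [dL_eq]; linarith
      _ = _ := by ring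

theorem EC_nonneg (j : J) (t : ℤ) : 0 ≤ p.EC j t := by
  have h2 : (0 : ℝ) ≤ (max 0 (t - p.cc j) : ℤ) := by exact_mod_cast le_max_left _ _
  unfold EC; split_ifs <;> positivity

theorem P_le_one (j : J) (t : ℤ) : p.mdl.P j t ≤ 1 := p.gam_le_one (p.EC_nonneg j t)

theorem P_flat (j : J) {t : ℤ} (h : t ≤ p.cc j) : p.mdl.P j t = 1 := by
  rw [P_eq, EC, max_eq_left (by omega)]; simp

theorem EC_near {j : J} (hb : p.q ^ 12 ≤ p.c j) {t τ : ℤ} (h0 : 0 ≤ τ)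
    (h1 : t ≤ p.q * (p.c j + 1)) (h2 : p.q ^ 7 * τ ≤ p.gg j) : p.EC j (t + τ) ≤ p.EC j t + 1 := by
  obtain ⟨a1, a2, a3⟩ := p.gg_facts hb
  have hq := p.qR
  have G0 : (0 : ℝ) < p.gg j := lt_of_lt_of_le (by positivity) a1
  rw [EC, EC, if_pos hb, if_pos hb, div_add' _ _ _ (by positivity)]
  refine div_le_div_of_nonneg_right ?_ (by positivity)
  have b0 : (0 : ℤ) ≤ p.q * (p.c j + 1) := by positivity
  have b1 : ((max 0 (t + τ - p.cc j) : ℤ) : ℝ) ≤ (max 0 (t - p.cc j) : ℤ) + τ := by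
    exact_mod_cast (by omega : max 0 (t + τ - p.cc j) ≤ max 0 (t - p.cc j) + τ)
  have b2 : ((max 0 (t - p.cc j) : ℤ) : ℝ) ≤ p.q * (p.c j + 1) := by
    exact_mod_cast (by omega : max 0 (t - p.cc j) ≤ p.q * (p.c j + 1))
  have b3 : (0 : ℝ) ≤ (max 0 (t - p.cc j) : ℤ) := by exact_mod_cast le_max_left _ _
  have b4 : (0 : ℝ) ≤ (max 0 (t + τ - p.cc j) : ℤ) := by exact_mod_cast le_max_left _ _
  have h0' : (0 : ℝ) ≤ τ := by exact_mod_cast h0
  have h2' : (p.q : ℝ) ^ 7 * τ ≤ p.gg j := by exact_mod_cast h2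
  refine (pow_le_pow_left₀ b4 b1 2).trans ?_
  generalize ((max 0 (t - p.cc j) : ℤ) : ℝ) = w at *
  generalize (p.gg j : ℝ) = G at *
  generalize (p.c j : ℝ) = r at *
  generalize (p.q : ℝ) = Q at *
  have q1 : (1 : ℝ) ≤ Q := by linarith
  have q7 : 512 * (Q ^ 6 * G) ≤ Q * (Q ^ 6 * G) := mul_le_mul_of_nonneg_right hq (by positivity)
  have c2 : (τ : ℝ) ≤ Q ^ 6 * G := by
    have := mul_le_mul_of_nonneg_right (one_le_pow₀ (n := 7) q1) h0'
    have := mul_le_mul_of_nonneg_right (one_le_pow₀ (n := 6) q1) G0.le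
    linarith
  have c3 : 2 * w + τ ≤ Q ^ 7 * G := by nlinarith
  have c4 := mul_le_mul_of_nonneg_left c3 h0'
  have c5 := mul_le_mul_of_nonneg_right h2' G0.le
  nlinarith

theorem EC_lip {j : J} (hb : ¬ p.q ^ 12 ≤ p.c j) (t : ℤ) :
    p.EC j (t + 1) ≤ p.EC j t + p.q * p.b := by
  rw [EC, EC, if_neg hb, if_neg hb]
  have b1 : ((max 0 (t + 1 - p.cc j) : ℤ) : ℝ) ≤ (max 0 (t - p.cc j) : ℤ) + 1 := by
    exact_mod_cast (by omega : max 0 (t + 1 - p.cc j) ≤ max 0 (t - p.cc j) + 1)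
  have : (0 : ℝ) ≤ p.q * p.b := by positivity
  nlinarith

omit [DecidableEq I] [DecidableEq J] in
theorem qb_ge : (9 : ℝ) ≤ p.q * p.b := by
  have h3 : (1 : ℝ) ≤ p.b := by exact_mod_cast p.b_pos
  nlinarith [p.qR]

theorem P_step (j : J) {t : ℤ} (h1 : t ≤ p.q * (p.c j + 1)) :
    p.mdl.P j t ≤ p.q ^ 2 * p.mdl.P j (t + 1) := by
  refine p.gam_dn ?_ p.gam_qb' (by positivity)
  by_cases hb : p.q ^ 12 ≤ p.c j
  · have := p.EC_near hb zero_le_one h1 (by exact_mod_cast (mul_one _).trans_le (p.div_facts (k := 7) hb).1)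
    linarith [p.qb_ge]
  · exact p.EC_lip hb t

theorem P_width (j : J) {t τ : ℤ} (h0 : 0 ≤ τ) (h1 : t ≤ p.q * (p.c j + 1))
    (h2 : p.q ^ 13 * τ ≤ p.c j) : p.mdl.P j t ≤ 2 * p.mdl.P j (t + τ) := by
  rcases h0.eq_or_lt with rfl | h3
  · rw [add_zero]; linarith [p.mdl.Ppos j t]
  have q0 : (0 : ℤ) < p.q := by exact_mod_cast p.q_pos
  have hb : p.q ^ 12 ≤ p.c j := by
    have h4 : (p.q : ℤ) ^ 13 ≤ p.c j := le_trans (le_mul_of_one_le_right (by positivity) h3) h2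
    exact (Nat.pow_le_pow_right (j := 13) p.q_pos (by norm_num)).trans (by exact_mod_cast h4)
  refine p.gam_dn (p.EC_near hb h0 h1 ?_) (p.gam_nine (by norm_num)) zero_le_two
  have h5 : (p.c j : ℤ) + 1 ≤ 2 * p.q ^ 5 * p.gg j := by exact_mod_cast (p.div_facts (k := 7) hb).2.2
  have h6 : (2 : ℤ) ≤ p.q := by have := p.q_ge; omega
  refine le_of_mul_le_mul_left ?_ (show (0 : ℤ) < p.q ^ 6 by positivity)
  have := mul_le_mul_of_nonneg_right h6 (show (0 : ℤ) ≤ p.q ^ 5 * p.gg j by positivity)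
  nlinarith

/-- Extra room of a column. -/
def eta (j : J) : ℕ := if p.q ^ 12 ≤ p.c j then p.gg j else 0

theorem P_eta (j : J) : 1 ≤ p.q ^ 2 * p.mdl.P j (p.cc j + 2 * p.eta j + 1) := by
  have := p.gam_dn (x := 0) (y := p.EC j (p.cc j + 2 * p.eta j + 1)) ?_ p.gam_qb' (by positivity)
  · rwa [Real.rpow_zero] at this
  rw [EC, eta, max_eq_right (by omega)]
  split_ifs with hb
  · obtain ⟨a1, -, -⟩ := p.gg_facts hb
    have G1 : (1 : ℝ) ≤ p.gg j := le_trans (one_le_pow₀ (by linarith [p.qR])) a1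
    refine le_trans ?_ (p.qb_ge.trans (zero_add _).ge)
    rw [div_le_iff₀ (by positivity)]
    push_cast
    nlinarith
  · simp

omit [DecidableEq I] [DecidableEq J] in
theorem eta_le (j : J) : 2 * p.eta j ≤ p.c j ∧
    Fintype.card J * p.c j + 1 ≤ p.q ^ 13 * (p.eta j + 1) := by
  have h1 := p.mn_le.2.2.2
  have h2 := p.q_ge
  unfold eta
  split_ifs with hb
  · obtain ⟨-, a2, a3⟩ := p.div_facts (k := 7) hb
    have h3 : 2 ≤ p.q ^ 5 := le_trans (by omega) (Nat.le_self_pow (by norm_num) _)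
    have h4 : p.q ^ 6 ≤ p.q ^ 13 := Nat.pow_le_pow_right p.q_pos (by norm_num)
    unfold gg
    generalize p.c j / p.q ^ 5 = g at *
    refine ⟨le_trans (Nat.mul_le_mul_right _ h3) a2, ?_⟩
    calc _ ≤ Fintype.card J * (2 * p.q ^ 5 * g) + 1 := by gcongr; omega
      _ = 2 * Fintype.card J * (p.q ^ 5 * g) + 1 := by ring
      _ ≤ p.q * (p.q ^ 5 * g) + p.q ^ 6 := by gcongr; omega; exact Nat.one_le_pow _ _ p.q_pos
      _ = p.q ^ 6 * (g + 1) := by ring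
      _ ≤ _ := by gcongr
  · refine ⟨by omega, ?_⟩
    calc _ ≤ Fintype.card J * p.q ^ 12 + p.q ^ 12 := by
          gcongr; omega; exact Nat.one_le_pow _ _ p.q_pos
      _ = (Fintype.card J + 1) * p.q ^ 12 := by ring
      _ ≤ p.q * p.q ^ 12 := by gcongr; omega
      _ = _ := by ring

theorem dP_hi (j : J) (t : ℤ) : p.mdl.dP j t ≤ p.q ^ 32 / ((p.c j : ℝ) + 1) ^ 2 := by
  have hq := p.qR
  have a0 := p.gam_le_one (x := p.EC j (t + 1) - p.EC j t) (sub_nonneg.2 (p.EC_mono j (by omega)))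
  rw [le_div_iff₀ (by positivity)]
  simp only [Mdl.dP, P_eq, gam_div]
  by_cases hb : p.q ^ 12 ≤ p.c j
  · obtain ⟨a1, a2, a3⟩ := p.gg_facts hb
    have H0 : (0 : ℝ) < p.gg j := lt_of_lt_of_le (by positivity) a1
    have a4 : p.EC j (t + 1 + 1) - p.EC j (t + 1) ≤
        p.EC j (t + 1) - p.EC j t + 2 / (p.gg j : ℝ) ^ 2 := by
      simp only [EC, if_pos hb, ← sub_div, ← add_div]
      refine div_le_div_of_nonneg_right ?_ (by positivity)
      have : max 0 (t + 1 + 1 - p.cc j) ^ 2 - max 0 (t + 1 - p.cc j) ^ 2 ≤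
          max 0 (t + 1 - p.cc j) ^ 2 - max 0 (t - p.cc j) ^ 2 + 2 := by
        rcases lt_trichotomy (t + 1) (p.cc j) with h | h | h
        · rw [max_eq_left (by omega), max_eq_left (by omega), max_eq_left (by omega)]; norm_num
        · rw [max_eq_left (a := 0) (b := t - _) (by omega), ← h]; norm_num
        · rw [max_eq_right (by omega), max_eq_right (by omega), max_eq_right (by omega)]
          nlinarith
      exact_mod_cast this
    have a5 := p.gam_lo (y := 2 / (p.gg j : ℝ) ^ 2) (by positivity)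
    have a6 := p.gam_le_one (x := 2 / (p.gg j : ℝ) ^ 2) (by positivity)
    have a7 := p.gam_anti a4
    rw [gam_add] at a7
    have a8 := mul_le_mul_of_nonneg_right a0 (sub_nonneg.2 a6)
    calc _ ≤ (2 * (2 / (p.gg j : ℝ) ^ 2) / p.q) * (2 * p.q ^ 5 * p.gg j) ^ 2 := by
          gcongr
          linarith
      _ = 16 * (p.q : ℝ) ^ 9 := by field_simp; norm_num
      _ ≤ p.q * (p.q : ℝ) ^ 9 := by gcongr; linarith
      _ = (p.q : ℝ) ^ 10 := by ring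
      _ ≤ _ := pow_le_pow_right₀ (by linarith) (by norm_num)
  · have a1 : (p.c j : ℝ) + 1 ≤ p.q ^ 12 := by exact_mod_cast not_le.1 hb
    have a3 := p.gam_rpos (p.EC j (t + 1 + 1) - p.EC j (t + 1))
    calc _ ≤ (1 : ℝ) * (p.q ^ 12) ^ 2 := by
          gcongr
          linarith
      _ = (p.q : ℝ) ^ 24 := by ring
      _ ≤ _ := pow_le_pow_right₀ (by linarith) (by norm_num)

end Par

end Vale.Agent.P328
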