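import Mathlib

/-!
One-dimensional tools for the Poincare inequality on fibres.
-/

namespace Vale.Agent.P328.Fib

open Finset

/-- Total positivity of order two of a sequence. -/
def TP (m : ℤ → ℝ) : Prop :=
  ∀ x z u v : ℤ, x ≤ u → x ≤ v → u + v = x + z → m x * m z ≤ m u * m v

theorem tp_of_step (m : ℤ → ℝ) (h : ∀ x y : ℤ, x ≤ y → m x * m (y + 1) ≤ m (x + 1) * m y) :
    TP m := by
  have key : ∀ (d : ℕ) (x z : ℤ), 2 * (d : ℤ) ≤ z - x → m x * m z ≤ m (x + d) * m (z - d) := by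
    intro d
    induction d with
    | zero => intro x z _; simp
    | succ d ih =>
      intro x z hd
      push_cast at hd
      have h1 := ih x z (by omega)
      have h2 := h (x + d) (z - d - 1) (by omega)
      have e1 : z - d - 1 + 1 = z - d := by ring
      rw [e1] at h2
      have e2 : x + ((d + 1 : ℕ) : ℤ) = x + d + 1 := by push_cast; ring
      have e3 : z - ((d + 1 : ℕ) : ℤ) = z - d - 1 := by push_cast; ring
      rw [e2, e3]
      exact h1.trans h2
  intro x z u v hu hv huv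
  rcases le_total u v with h' | h'
  · have := key (u - x).toNat x z (by omega)
    have e1 : x + ((u - x).toNat : ℤ) = u := by omega
    have e2 : z - ((u - x).toNat : ℤ) = v := by omega
    rwa [e1, e2] at this
  · have := key (v - x).toNat x z (by omega)
    have e1 : x + ((v - x).toNat : ℤ) = v := by omega
    have e2 : z - ((v - x).toNat : ℤ) = u := by omega
    rwa [e1, e2, mul_comm (m v)] at this

theorem step_of_lc (a : ℤ → ℝ) (hp : ∀ t, 0 < a t) (hl : ∀ t, a (t - 1) * a (t + 1) ≤ a t ^ 2)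
    (x y : ℤ) (hxy : x ≤ y) : a x * a (y + 1) ≤ a (x + 1) * a y := by
  induction y, hxy using Int.leInduction with
  | base => rw [mul_comm]
  | succ y _ ih =>
    have h1 := hl (y + 1)
    rw [add_sub_cancel_right] at h1
    have h2 : a y * (a x * a (y + 1 + 1)) ≤ a y * (a (x + 1) * a (y + 1)) := by
      have := hp x
      have := hp (y + 1)
      calc a y * (a x * a (y + 1 + 1)) = a x * (a y * a (y + 1 + 1)) := by ring
        _ ≤ a x * a (y + 1) ^ 2 := by gcongr
        _ = a x * a (y + 1) * a (y + 1) := by ring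
        _ ≤ a (x + 1) * a y * a (y + 1) := by gcongr
        _ = a y * (a (x + 1) * a (y + 1)) := by ring
    exact le_of_mul_le_mul_left h2 (hp y)

/-- Cauchy-Binet for two by two minors. -/
theorem binet (n : ℕ) (a0 a1 r1 r2 : ℕ → ℝ) (ha : ∀ u v, u ≤ v → a0 v * a1 u ≤ a0 u * a1 v)
    (hr : ∀ u v, u ≤ v → r1 v * r2 u ≤ r1 u * r2 v) :
    (∑ t ∈ range n, a1 t * r1 t) * (∑ t ∈ range n, a0 t * r2 t) ≤
      (∑ t ∈ range n, a0 t * r1 t) * (∑ t ∈ range n, a1 t * r2 t) := by
  have h : 0 ≤ ∑ u ∈ range n, ∑ v ∈ range n,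
      (a0 u * a1 v - a0 v * a1 u) * (r1 u * r2 v - r1 v * r2 u) := by
    refine sum_nonneg fun u _ => sum_nonneg fun v _ => ?_
    rcases le_total u v with h | h
    · exact mul_nonneg (sub_nonneg.2 (ha u v h)) (sub_nonneg.2 (hr u v h))
    · exact mul_nonneg_of_nonpos_of_nonpos (sub_nonpos.2 (ha v u h)) (sub_nonpos.2 (hr v u h))
  have e : ∑ u ∈ range n, ∑ v ∈ range n,
      (a0 u * a1 v - a0 v * a1 u) * (r1 u * r2 v - r1 v * r2 u) =
      (∑ t ∈ range n, a0 t * r1 t) * (∑ t ∈ range n, a1 t * r2 t) -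
      (∑ t ∈ range n, a0 t * r2 t) * (∑ t ∈ range n, a1 t * r1 t) -
      (∑ t ∈ range n, a1 t * r1 t) * (∑ t ∈ range n, a0 t * r2 t) +
      (∑ t ∈ range n, a1 t * r2 t) * (∑ t ∈ range n, a0 t * r1 t) := by
    simp only [sum_mul_sum, ← sum_sub_distrib, ← sum_add_distrib]
    exact sum_congr rfl fun u _ => sum_congr rfl fun v _ => by ring
  rw [e] at h
  linarith

/-- The convolution of two totally positive sequences is totally positive. -/
theorem tp_conv (n : ℕ) (A R : ℤ → ℝ) (hA : TP A) (hR : TP R) (h0 : A (-1) = 0) (hn : A n = 0) :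
    TP fun s => ∑ t ∈ range n, A t * R (s - t) := by
  have e0 : ∀ s : ℤ, ∑ t ∈ range n, A t * R (s - t) = ∑ t ∈ range (n + 1), A t * R (s - t) := by
    intro s
    rw [sum_range_succ, hn]; simp
  have e1 : ∀ s : ℤ, ∑ t ∈ range n, A t * R (s - t) =
      ∑ t ∈ range (n + 1), A ((t : ℤ) - 1) * R (s + 1 - t) := by
    intro s
    rw [sum_range_succ']
    simp only [Nat.cast_zero, zero_sub, h0, zero_mul, add_zero]
    refine sum_congr rfl fun t _ => ?_
    push_cast
    congr 2 <;> ring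
  apply tp_of_step
  intro x y hxy
  show (∑ t ∈ range n, A t * R (x - t)) * (∑ t ∈ range n, A t * R (y + 1 - t)) ≤
    (∑ t ∈ range n, A t * R (x + 1 - t)) * (∑ t ∈ range n, A t * R (y - t))
  rw [e1 x, e0 (y + 1), e0 (x + 1), e1 y]
  refine binet (n + 1) (fun t => A t) (fun t => A ((t : ℤ) - 1)) (fun t => R (x + 1 - t))
    (fun t => R (y + 1 - t)) ?_ ?_
  · intro u v huv
    rw [mul_comm]
    rcases eq_or_lt_of_le huv with h | h
    · subst h; rw [mul_comm]
    · exact hA _ _ _ _ (by omega) (by omega) (by ring)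
  · intro u v huv
    exact hR _ _ _ _ (by omega) (by omega) (by ring)

/-- Monotone likelihood ratio gives the order of the initial sums. -/
theorem mlr (q q' : ℕ → ℝ) (h : ∀ u v, u ≤ v → q v * q' u ≤ q u * q' v) (k n : ℕ) (hk : k ≤ n) :
    (∑ t ∈ range k, q' t) * (∑ t ∈ range n, q t) ≤
      (∑ t ∈ range k, q t) * (∑ t ∈ range n, q' t) := by
  rw [← sum_range_add_sum_Ico q hk, ← sum_range_add_sum_Ico q' hk]
  have : (∑ t ∈ range k, q' t) * (∑ t ∈ Ico k n, q t) ≤
      (∑ t ∈ range k, q t) * (∑ t ∈ Ico k n, q' t) := by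
    simp only [sum_mul_sum]
    refine sum_le_sum fun u hu => sum_le_sum fun v hv => ?_
    rw [mul_comm]
    exact h u v (by simp at hu hv; omega)
  nlinarith

/-- The quantile coupling of two interlacing laws. -/
theorem cpl (n : ℕ) (p p' G G' : ℕ → ℝ) (hs : ∑ t ∈ range n, p t = 1)
    (hs' : ∑ t ∈ range n, p' t = 1) (hn : 0 ≤ p' n)
    (h1 : ∀ k ≤ n, ∑ t ∈ range k, p' t ≤ ∑ t ∈ range k, p t)
    (h2 : ∀ k < n, ∑ t ∈ range k, p t ≤ ∑ t ∈ range (k + 1), p' t) :
    ∃ st mo : ℕ → ℝ, (∀ t < n, st t ≤ p t ∧ st t ≤ p' t ∧ mo t ≤ p t ∧ mo t ≤ p' (t + 1)) ∧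
      (∑ t ∈ range n, p' t * G' t - ∑ t ∈ range n, p t * G t) ^ 2 ≤
        ∑ t ∈ range n, st t * (G' t - G t) ^ 2 + ∑ t ∈ range n, mo t * (G' (t + 1) - G t) ^ 2 := by
  set F : ℕ → ℝ := fun k => ∑ t ∈ range k, p t with hF
  set F' : ℕ → ℝ := fun k => ∑ t ∈ range k, p' t with hF'
  have sF : ∀ k, F (k + 1) = F k + p k := fun k => sum_range_succ _ _
  have sF' : ∀ k, F' (k + 1) = F' k + p' k := fun k => sum_range_succ _ _
  have g1 : ∀ k ≤ n, F' k ≤ F k := h1
  have g2 : ∀ k < n, F k ≤ F' (k + 1) := h2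
  have Fn : F n = 1 := hs
  have Fn' : F' n = 1 := hs'
  refine ⟨fun t => F' (t + 1) - F t, fun t => F (t + 1) - F' (t + 1), ?_, ?_⟩
  · intro t ht
    have a1 := g1 (t + 1) ht
    have a2 := g1 t ht.le
    have a3 := g2 t ht
    have a4 := sF t
    have a5 := sF' t
    have a6 := sF' (t + 1)
    refine ⟨by linarith, by linarith, by linarith, ?_⟩
    rcases eq_or_lt_of_le (Nat.succ_le_of_lt ht) with h | h
    · have h' : t + 1 = n := h
      show F (t + 1) - F' (t + 1) ≤ p' (t + 1)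
      rw [h', Fn, Fn']; linarith
    · have := g2 (t + 1) h
      show F (t + 1) - F' (t + 1) ≤ p' (t + 1)
      linarith
  · have id1 : ∀ k, ∑ t ∈ range k, p' t * G' t - ∑ t ∈ range k, p t * G t =
        ∑ t ∈ range k, (F' (t + 1) - F t) * (G' t - G t) +
        ∑ t ∈ range k, (F (t + 1) - F' (t + 1)) * (G' (t + 1) - G t) - (F k - F' k) * G' k := by
      intro k
      induction k with
      | zero => simp [hF, hF']
      | succ k ih =>
        simp only [sum_range_succ]
        have a4 := sF k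
        have a5 := sF' k
        rw [a4, a5]
        linear_combination ih
    have id2 := id1 n
    rw [Fn, Fn', sub_self, zero_mul, sub_zero] at id2
    set D := ∑ t ∈ range n, p' t * G' t - ∑ t ∈ range n, p t * G t with hD
    have tot : ∑ t ∈ range n, (F' (t + 1) - F t) + ∑ t ∈ range n, (F (t + 1) - F' (t + 1)) = 1 := by
      rw [← sum_add_distrib, ← hs]
      exact sum_congr rfl fun t _ => by rw [sF t]; ring
    have n1 : 0 ≤ ∑ t ∈ range n, (F' (t + 1) - F t) * (G' t - G t - D) ^ 2 :=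
      sum_nonneg fun t ht => mul_nonneg (sub_nonneg.2 (g2 t (mem_range.1 ht))) (sq_nonneg _)
    have n2 : 0 ≤ ∑ t ∈ range n, (F (t + 1) - F' (t + 1)) * (G' (t + 1) - G t - D) ^ 2 :=
      sum_nonneg fun t ht => mul_nonneg (sub_nonneg.2 (g1 (t + 1) (mem_range.1 ht))) (sq_nonneg _)
    have ex : ∀ w h : ℕ → ℝ, ∑ t ∈ range n, w t * (h t - D) ^ 2 =
        ∑ t ∈ range n, w t * h t ^ 2 - 2 * D * ∑ t ∈ range n, w t * h t +
          D ^ 2 * ∑ t ∈ range n, w t := by
      intro w h
      simp only [mul_sum, ← sum_sub_distrib, ← sum_add_distrib]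
      exact sum_congr rfl fun t _ => by ring
    rw [ex (fun t => F' (t + 1) - F t) (fun t => G' t - G t)] at n1
    rw [ex (fun t => F (t + 1) - F' (t + 1)) (fun t => G' (t + 1) - G t)] at n2
    have e2 : D * D = D * (∑ t ∈ range n, (F' (t + 1) - F t) * (G' t - G t) +
        ∑ t ∈ range n, (F (t + 1) - F' (t + 1)) * (G' (t + 1) - G t)) := by rw [← id2]
    have e3 : D ^ 2 * (∑ t ∈ range n, (F' (t + 1) - F t) +
        ∑ t ∈ range n, (F (t + 1) - F' (t + 1))) = D ^ 2 := by rw [tot, mul_one]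
    nlinarith

theorem seg (w G : ℕ → ℝ) (c : ℝ) (hc : 0 ≤ c) (i j : ℕ) (hij : i ≤ j)
    (h : ∀ u, i ≤ u → u < j → c ≤ w u) :
    c * (G j - G i) ^ 2 ≤ ((j - i : ℕ) : ℝ) * ∑ u ∈ Ico i j, w u * (G (u + 1) - G u) ^ 2 := by
  have e : G j - G i = ∑ u ∈ Ico i j, (G (u + 1) - G u) := by
    rw [sum_Ico_eq_sub _ hij, sum_range_sub, sum_range_sub]; ring
  have h1 := sq_sum_le_card_mul_sum_sq (s := Ico i j) (f := fun u => G (u + 1) - G u)
  rw [Nat.card_Ico] at h1
  rw [e]
  calc c * (∑ u ∈ Ico i j, (G (u + 1) - G u)) ^ 2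
      ≤ c * (((j - i : ℕ) : ℝ) * ∑ u ∈ Ico i j, (G (u + 1) - G u) ^ 2) := by gcongr
    _ = ((j - i : ℕ) : ℝ) * ∑ u ∈ Ico i j, c * (G (u + 1) - G u) ^ 2 := by
      rw [← mul_sum]; ring
    _ ≤ _ := by
      gcongr with u hu
      exact h u (mem_Ico.1 hu).1 (mem_Ico.1 hu).2

/-- Poincare inequality on a line. -/
theorem line (n r : ℕ) (m : ℤ → ℝ) (G : ℕ → ℝ) (h0 : ∀ t, 0 ≤ m t) (hm : TP m)
    (hr : ∀ t : ℕ, r < t → m t = 0) :
    ∃ x, ∑ t ∈ range n, m t * (G t - x) ^ 2 ≤
      ((r : ℝ) + 1) ^ 2 * ∑ t ∈ range n, min (m t) (m (t + 1)) * (G (t + 1) - G t) ^ 2 := by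
  set E := ∑ t ∈ range n, min (m t) (m (t + 1)) * (G (t + 1) - G t) ^ 2 with hE
  have w0 : ∀ t : ℕ, 0 ≤ min (m t) (m (t + 1)) * (G (t + 1) - G t) ^ 2 :=
    fun t => mul_nonneg (le_min (h0 _) (h0 _)) (sq_nonneg _)
  have E0 : 0 ≤ E := sum_nonneg fun t _ => w0 t
  rcases Nat.eq_zero_or_pos n with hn | hn
  · subst hn
    exact ⟨0, by simpa using mul_nonneg (sq_nonneg _) E0⟩
  obtain ⟨t0, ht0, hmax⟩ := exists_max_image (range n) (fun t : ℕ => m t) ⟨0, mem_range.2 hn⟩
  refine ⟨G t0, ?_⟩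
  have ht0' := mem_range.1 ht0
  have one : ∀ t ∈ range n, m t * (G t - G t0) ^ 2 ≤ if t < r + 1 then ((r : ℝ) + 1) * E else 0 := by
    intro t ht
    have ht' := mem_range.1 ht
    rcases eq_or_lt_of_le (h0 t) with hz | hz
    · rw [← hz, zero_mul]
      split_ifs
      · positivity
      · exact le_rfl
    have hz0 : 0 < m t0 := hz.trans_le (hmax t ht)
    have tr : t ≤ r := by
      by_contra hc
      exact hz.ne' (hr t (not_le.1 hc))
    have tr0 : t0 ≤ r := by
      by_contra hc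
      exact hz0.ne' (hr t0 (not_le.1 hc))
    rw [if_pos (by omega)]
    have btw : ∀ u : ℕ, min t t0 ≤ u → u ≤ max t t0 → m t ≤ m u := by
      intro u h1 h2
      have hv : t + t0 - u ∈ range n := mem_range.2 (by omega)
      have h3 := hmax _ hv
      have h4 : m t * m t0 ≤ m u * m ((t + t0 - u : ℕ) : ℤ) := by
        rcases le_total t t0 with h | h
        · exact hm _ _ _ _ (by omega) (by omega) (by omega)
        · rw [mul_comm]
          exact hm _ _ _ _ (by omega) (by omega) (by omega)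
      have h5 : m t * m t0 ≤ m u * m t0 := h4.trans (mul_le_mul_of_nonneg_left h3 (h0 _))
      exact le_of_mul_le_mul_right h5 hz0
    have h6 := seg (fun u : ℕ => min (m u) (m (u + 1))) G (m t) (h0 t) (min t t0) (max t t0)
      (by omega) (fun u h1 h2 => le_min (btw u h1 h2.le) (by
        have := btw (u + 1) (by omega) (by omega)
        push_cast at this
        exact this))
    have h7 : (G t - G t0) ^ 2 = (G (max t t0) - G (min t t0)) ^ 2 := by
      rcases le_total t t0 with h | h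
      · rw [max_eq_right h, min_eq_left h]; ring
      · rw [max_eq_left h, min_eq_right h]
    rw [h7]
    refine h6.trans (mul_le_mul ?_ ?_ (sum_nonneg fun u _ => w0 u) (by positivity))
    · have : max t t0 - min t t0 ≤ r + 1 := by omega
      exact_mod_cast this
    · refine sum_le_sum_of_subset_of_nonneg ?_ fun u _ _ => w0 u
      intro u hu
      have := mem_Ico.1 hu
      exact mem_range.2 (by omega)
  refine (sum_le_sum one).trans ?_
  rw [← sum_filter, sum_const, nsmul_eq_mul]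
  have hc : ((range n).filter (fun t => t < r + 1)).card ≤ r + 1 := by
    refine (card_le_card (t := range (r + 1)) ?_).trans (by simp)
    intro u hu
    exact mem_range.2 (mem_filter.1 hu).2
  have hc' : (((range n).filter (fun t => t < r + 1)).card : ℝ) ≤ (r : ℝ) + 1 := by
    exact_mod_cast hc
  calc _ ≤ ((r : ℝ) + 1) * (((r : ℝ) + 1) * E) := by gcongr
    _ = _ := by ring

end Vale.Agent.P328.Fib
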