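import Vale.Agent.P328.Spec
import Vale.Agent.P328.Fiber1

/-!
The Poincare inequality on fibres, by induction on the set of free coordinates.
-/

namespace Vale.Agent.P328.Fib

open Finset

variable {J : Type} [Fintype J] [DecidableEq J] (cp : J → ℤ) (a : J → ℤ → ℝ)

/-- The box on the coordinates of `S`. -/
noncomputable def Bx (S : Finset J) : Finset (J → ℤ) :=
  Fintype.piFinset fun k => if k ∈ S then Icc 0 (cp k) else {0}

/-- The fibre on the coordinates of `S`. -/
noncomputable def Y (S : Finset J) (s : ℤ) : Finset (J → ℤ) :=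
  (Bx cp S).filter fun y => ∑ k, y k = s

/-- The weight, zero outside the box. -/
noncomputable def N (S : Finset J) (y : J → ℤ) : ℝ :=
  if y ∈ Bx cp S then ∏ k ∈ S, a k (y k) else 0

/-- The weight of one coordinate, zero outside the box. -/
noncomputable def A (l : J) (t : ℤ) : ℝ := if 0 ≤ t ∧ t ≤ cp l then a l t else 0

/-- Total weight of a fibre. -/
noncomputable def Z (S : Finset J) (s : ℤ) : ℝ := ∑ y ∈ Y cp S s, N cp a S y

/-- Mean on a fibre. -/
noncomputable def E (S : Finset J) (s : ℤ) (g : (J → ℤ) → ℝ) : ℝ :=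
  (∑ y ∈ Y cp S s, N cp a S y * g y) / Z cp a S s

theorem mem_Bx {S : Finset J} {y : J → ℤ} :
    y ∈ Bx cp S ↔ (∀ k ∈ S, 0 ≤ y k ∧ y k ≤ cp k) ∧ ∀ k, k ∉ S → y k = 0 := by
  unfold Bx
  rw [Fintype.mem_piFinset]
  constructor
  · intro h
    refine ⟨fun k hk => ?_, fun k hk => ?_⟩
    · have := h k
      rw [if_pos hk] at this
      exact mem_Icc.1 this
    · have := h k
      rw [if_neg hk] at this
      exact mem_singleton.1 this
  · intro h k
    split_ifs with hk
    · exact mem_Icc.2 (h.1 k hk)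
    · exact mem_singleton.2 (h.2 k hk)

theorem mem_Y {S : Finset J} {s : ℤ} {y : J → ℤ} :
    y ∈ Y cp S s ↔ y ∈ Bx cp S ∧ ∑ k, y k = s := by
  unfold Y
  rw [mem_filter]

theorem mem_ins {S : Finset J} {l : J} (hl : l ∉ S) {y : J → ℤ} (hy : y l = 0) (t : ℤ) :
    y + Pi.single l t ∈ Bx cp (insert l S) ↔ (0 ≤ t ∧ t ≤ cp l) ∧ y ∈ Bx cp S := by
  simp only [mem_Bx, mem_insert, forall_eq_or_imp, Pi.add_apply, Pi.single_eq_same, hy, zero_add,
    not_or]
  constructor
  · rintro ⟨⟨h1, h2⟩, h3⟩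
    refine ⟨h1, fun k hk => ?_, fun k hk => ?_⟩
    · have hne : k ≠ l := fun h => hl (h ▸ hk)
      simpa [Pi.single_eq_of_ne hne] using h2 k hk
    · by_cases hkl : k = l
      · rw [hkl]; exact hy
      · simpa [Pi.single_eq_of_ne hkl] using h3 k ⟨hkl, hk⟩
  · rintro ⟨h1, h2, h3⟩
    refine ⟨⟨h1, fun k hk => ?_⟩, fun k hk => ?_⟩
    · have hne : k ≠ l := fun h => hl (h ▸ hk)
      simpa [Pi.single_eq_of_ne hne] using h2 k hk
    · simpa [Pi.single_eq_of_ne hk.1] using h3 k hk.2

theorem Y_zero {S : Finset J} {s : ℤ} {y : J → ℤ} (hy : y ∈ Y cp S s) {l : J} (hl : l ∉ S) :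
    y l = 0 := ((mem_Bx cp).1 ((mem_Y cp).1 hy).1).2 l hl

theorem decomp {S : Finset J} {l : J} (hl : l ∉ S) (s : ℤ) (F : (J → ℤ) → ℝ) :
    ∑ y ∈ Y cp (insert l S) s, F y =
      ∑ t ∈ range (cp l + 1).toNat, ∑ y ∈ Y cp S (s - t), F (y + Pi.single l (t : ℤ)) := by
  rw [sum_sigma']
  symm
  refine sum_bij' (fun x _ => x.2 + Pi.single l (x.1 : ℤ))
    (fun y _ => ⟨(y l).toNat, y - Pi.single l (y l)⟩) ?_ ?_ ?_ ?_ ?_
  · rintro ⟨t, y⟩ hx
    obtain ⟨ht, hy⟩ := mem_sigma.1 hx
    have ht' := mem_range.1 ht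
    dsimp only at ht' hy ⊢
    have h0 := Y_zero cp hy hl
    obtain ⟨h1, h2⟩ := (mem_Y cp).1 hy
    refine (mem_Y cp).2 ⟨(mem_ins cp hl h0 _).2 ⟨by omega, h1⟩, ?_⟩
    simp [sum_add_distrib, h2]
  · intro y hy
    obtain ⟨h1, h2⟩ := (mem_Y cp).1 hy
    have e : y = (y - Pi.single l (y l)) + Pi.single l (y l) := by simp
    have h0 : (y - Pi.single l (y l) : J → ℤ) l = 0 := by simp
    rw [e] at h1
    obtain ⟨h3, h4⟩ := (mem_ins cp hl h0 _).1 h1
    refine mem_sigma.2 ⟨mem_range.2 (by dsimp only; omega), (mem_Y cp).2 ⟨h4, ?_⟩⟩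
    have e2 : (((y l).toNat : ℕ) : ℤ) = y l := by omega
    simp [sum_sub_distrib, h2, e2]
  · rintro ⟨t, y⟩ hx
    obtain ⟨_, hy⟩ := mem_sigma.1 hx
    have h0 := Y_zero cp hy hl
    dsimp only at h0
    simp [h0]
  · intro y hy
    obtain ⟨h1, _⟩ := (mem_Y cp).1 hy
    have h3 := ((mem_Bx cp).1 h1).1 l (mem_insert_self _ _)
    have e2 : (((y l).toNat : ℕ) : ℤ) = y l := by omega
    simp [e2]
  · intro x _
    rfl

theorem N_ins {S : Finset J} {l : J} (hl : l ∉ S) {y : J → ℤ} (hy : y l = 0) (t : ℤ) :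
    N cp a (insert l S) (y + Pi.single l t) = A cp a l t * N cp a S y := by
  unfold N A
  simp only [mem_ins cp hl hy]
  by_cases h1 : 0 ≤ t ∧ t ≤ cp l
  · by_cases h2 : y ∈ Bx cp S
    · rw [if_pos ⟨h1, h2⟩, if_pos h1, if_pos h2, prod_insert hl]
      simp only [Pi.add_apply, Pi.single_eq_same, hy, zero_add]
      congr 1
      refine prod_congr rfl fun k hk => ?_
      have hne : k ≠ l := fun h => hl (h ▸ hk)
      simp [Pi.single_eq_of_ne hne]
    · rw [if_neg (fun h => h2 h.2), if_neg h2, mul_zero]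
  · rw [if_neg (fun h => h1 h.1), if_neg h1, zero_mul]

theorem sumN_ins {S : Finset J} {l : J} (hl : l ∉ S) (s : ℤ) (g : (J → ℤ) → ℝ) :
    ∑ y ∈ Y cp (insert l S) s, N cp a (insert l S) y * g y =
      ∑ t ∈ range (cp l + 1).toNat, A cp a l t *
        ∑ y ∈ Y cp S (s - t), N cp a S y * g (y + Pi.single l (t : ℤ)) := by
  rw [decomp cp hl]
  refine sum_congr rfl fun t _ => ?_
  rw [mul_sum]
  refine sum_congr rfl fun y hy => ?_
  rw [N_ins cp a hl (Y_zero cp hy hl), mul_assoc]

theorem Z_ins {S : Finset J} {l : J} (hl : l ∉ S) (s : ℤ) :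
    Z cp a (insert l S) s = ∑ t ∈ range (cp l + 1).toNat, A cp a l t * Z cp a S (s - t) := by
  have := sumN_ins cp a hl s (fun _ => 1)
  simpa [Z] using this

theorem Y_neg {S : Finset J} {s : ℤ} (hs : s < 0) : Y cp S s = ∅ := by
  refine eq_empty_of_forall_notMem fun y hy => ?_
  obtain ⟨h1, h2⟩ := (mem_Y cp).1 hy
  have h3 := (mem_Bx cp).1 h1
  have : 0 ≤ ∑ k, y k := sum_nonneg fun k _ => by
    by_cases hk : k ∈ S
    · exact (h3.1 k hk).1
    · exact (h3.2 k hk).ge
  omega

theorem Y_empty {s : ℤ} {y : J → ℤ} (hy : y ∈ Y cp ∅ s) : y = 0 := by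
  funext k
  exact Y_zero cp hy (notMem_empty k)

theorem Z_empty {s : ℤ} (hs : s ≠ 0) : Z cp a ∅ s = 0 := by
  unfold Z
  refine sum_eq_zero fun y hy => ?_
  have h1 := Y_empty cp hy
  have h2 := ((mem_Y cp).1 hy).2
  rw [h1] at h2
  simp at h2
  exact absurd h2.symm hs

theorem A_out (l : J) (t : ℤ) (h : t < 0 ∨ cp l < t) : A cp a l t = 0 := by
  unfold A
  rw [if_neg (by omega)]

variable {a} (hp : ∀ k t, 0 < a k t)
include hp

theorem N_nonneg (S : Finset J) (y : J → ℤ) : 0 ≤ N cp a S y := by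
  unfold N
  split_ifs
  · exact prod_nonneg fun k _ => (hp _ _).le
  · exact le_rfl

theorem A_nonneg (l : J) (t : ℤ) : 0 ≤ A cp a l t := by
  unfold A
  split_ifs
  · exact (hp _ _).le
  · exact le_rfl

theorem Z_nonneg (S : Finset J) (s : ℤ) : 0 ≤ Z cp a S s :=
  sum_nonneg fun y _ => N_nonneg cp hp S y

theorem ZE (S : Finset J) (s : ℤ) (g : (J → ℤ) → ℝ) :
    ∑ y ∈ Y cp S s, N cp a S y * g y = Z cp a S s * E cp a S s g := by
  unfold E
  by_cases h : Z cp a S s = 0
  · rw [h, zero_mul]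
    have := (sum_eq_zero_iff_of_nonneg fun y _ => N_nonneg cp hp S y).1 h
    exact sum_eq_zero fun y hy => by rw [this y hy, zero_mul]
  · field_simp

theorem bias (S : Finset J) (s : ℤ) (g : (J → ℤ) → ℝ) (x : ℝ) :
    ∑ y ∈ Y cp S s, N cp a S y * (g y - x) ^ 2 =
      ∑ y ∈ Y cp S s, N cp a S y * (g y - E cp a S s g) ^ 2 +
        Z cp a S s * (E cp a S s g - x) ^ 2 := by
  have ex : ∀ x : ℝ, ∑ y ∈ Y cp S s, N cp a S y * (g y - x) ^ 2 =
      ∑ y ∈ Y cp S s, N cp a S y * g y ^ 2 - 2 * x * ∑ y ∈ Y cp S s, N cp a S y * g y +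
        x ^ 2 * Z cp a S s := by
    intro x
    simp only [Z, mul_sum, ← sum_sub_distrib, ← sum_add_distrib]
    exact sum_congr rfl fun t _ => by ring
  rw [ex, ex, ZE cp hp S s g]
  ring

theorem jensen (S : Finset J) (s : ℤ) (g g' : (J → ℤ) → ℝ) :
    Z cp a S s * (E cp a S s g' - E cp a S s g) ^ 2 ≤
      ∑ y ∈ Y cp S s, N cp a S y * (g' y - g y) ^ 2 := by
  have h1 := bias cp hp S s (fun y => g' y - g y) 0
  have h2 : E cp a S s (fun y => g' y - g y) = E cp a S s g' - E cp a S s g := by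
    unfold E
    rw [← sub_div, ← sum_sub_distrib]
    congr 1
    exact sum_congr rfl fun y _ => by ring
  rw [h2] at h1
  simp only [sub_zero] at h1
  rw [h1]
  have : 0 ≤ ∑ y ∈ Y cp S s, N cp a S y * (g' y - g y - (E cp a S s g' - E cp a S s g)) ^ 2 :=
    sum_nonneg fun y _ => mul_nonneg (N_nonneg cp hp S y) (sq_nonneg _)
  linarith

variable (hl : ∀ k t, a k (t - 1) * a k (t + 1) ≤ a k t ^ 2)
include hl

theorem A_tp (l : J) : TP (A cp a l) := by
  apply tp_of_step
  intro x y hxy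
  by_cases h1 : 0 ≤ x ∧ y + 1 ≤ cp l
  · unfold A
    rw [if_pos (by omega), if_pos (by omega), if_pos (by omega), if_pos (by omega)]
    exact step_of_lc (a l) (hp l) (hl l) x y hxy
  · have h2 : A cp a l x * A cp a l (y + 1) = 0 := by
      rcases lt_or_ge x 0 with h | h
      · rw [A_out cp a l x (Or.inl h), zero_mul]
      · rw [A_out cp a l (y + 1) (Or.inr (by omega)), mul_zero]
    rw [h2]
    exact mul_nonneg (A_nonneg cp hp _ _) (A_nonneg cp hp _ _)

theorem Z_tp (S : Finset J) : TP (Z cp a S) := by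
  induction S using Finset.induction_on with
  | empty =>
    intro x z u v hu hv h
    by_cases hx : x = 0
    · by_cases hz : z = 0
      · have h1 : u = x := by omega
        have h2 : v = z := by omega
        rw [h1, h2]
      · rw [Z_empty cp a hz, mul_zero]
        exact mul_nonneg (Z_nonneg cp hp _ _) (Z_nonneg cp hp _ _)
    · rw [Z_empty cp a hx, zero_mul]
      exact mul_nonneg (Z_nonneg cp hp _ _) (Z_nonneg cp hp _ _)
  | insert l S hS ih =>
    have e : Z cp a (insert l S) =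
        fun s => ∑ t ∈ range (cp l + 1).toNat, A cp a l t * Z cp a S (s - t) :=
      funext fun s => Z_ins cp a hS s
    rw [e]
    exact tp_conv _ _ _ (A_tp cp hp hl l) ih (A_out cp a l _ (by omega))
      (A_out cp a l _ (by omega))

theorem cover (S : Finset J) : ∀ (s : ℤ) (g g' : (J → ℤ) → ℝ) (c c' : ℝ), 0 ≤ c → 0 ≤ c' →
    min (c * Z cp a S s) (c' * Z cp a S (s + 1)) * (E cp a S (s + 1) g' - E cp a S s g) ^ 2 ≤
      ∑ β ∈ S, ∑ y ∈ Y cp S s, min (c * N cp a S y) (c' * N cp a S (y + Pi.single β 1)) *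
        (g' (y + Pi.single β 1) - g y) ^ 2 := by
  induction S using Finset.induction_on with
  | empty =>
    intro s g g' c c' _ _
    rw [sum_empty]
    refine mul_nonpos_of_nonpos_of_nonneg ?_ (sq_nonneg _)
    by_cases hs : s = 0
    · refine (min_le_right _ _).trans ?_
      rw [Z_empty cp a (by omega), mul_zero]
    · refine (min_le_left _ _).trans ?_
      rw [Z_empty cp a hs, mul_zero]
  | insert l S hS ih =>
    intro s g g' c c' hc hc'
    have R0 : 0 ≤ ∑ β ∈ insert l S, ∑ y ∈ Y cp (insert l S) s,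
        min (c * N cp a (insert l S) y) (c' * N cp a (insert l S) (y + Pi.single β 1)) *
        (g' (y + Pi.single β 1) - g y) ^ 2 :=
      sum_nonneg fun β _ => sum_nonneg fun y _ => mul_nonneg
        (le_min (mul_nonneg hc (N_nonneg cp hp _ _)) (mul_nonneg hc' (N_nonneg cp hp _ _)))
        (sq_nonneg _)
    rcases eq_or_lt_of_le (Z_nonneg cp hp (insert l S) s) with hz | hz
    · refine le_trans (mul_nonpos_of_nonpos_of_nonneg ?_ (sq_nonneg _)) R0
      refine (min_le_left _ _).trans ?_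
      rw [← hz, mul_zero]
    rcases eq_or_lt_of_le (Z_nonneg cp hp (insert l S) (s + 1)) with hz' | hz'
    · refine le_trans (mul_nonpos_of_nonpos_of_nonneg ?_ (sq_nonneg _)) R0
      refine (min_le_right _ _).trans ?_
      rw [← hz', mul_zero]
    clear R0
    set n := (cp l + 1).toNat with hn
    set Zs := Z cp a (insert l S) s with hZs
    set Zs' := Z cp a (insert l S) (s + 1) with hZs'
    have eZ : Zs = ∑ t ∈ range n, A cp a l t * Z cp a S (s - t) := Z_ins cp a hS s
    have eZ' : Zs' = ∑ t ∈ range n, A cp a l t * Z cp a S (s + 1 - t) := Z_ins cp a hS (s + 1)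
    have An : A cp a l n = 0 := A_out cp a l _ (by omega)
    have A1 : A cp a l (-1) = 0 := A_out cp a l _ (by omega)
    have tA := A_tp cp hp hl l
    have tZ := Z_tp cp hp hl S
    have sh : ∀ k, ∑ t ∈ range (k + 1), A cp a l ((t : ℤ) - 1) * Z cp a S (s + 1 - t) =
        ∑ t ∈ range k, A cp a l t * Z cp a S (s - t) := by
      intro k
      rw [sum_range_succ']
      simp only [Nat.cast_zero, zero_sub, A1, zero_mul, add_zero]
      refine sum_congr rfl fun t _ => ?_
      push_cast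
      congr 2 <;> ring
    obtain ⟨st, mo, hb, hq⟩ := cpl n (fun t => A cp a l t * Z cp a S (s - t) / Zs)
      (fun t => A cp a l t * Z cp a S (s + 1 - t) / Zs')
      (fun t => E cp a S (s - t) fun y => g (y + Pi.single l (t : ℤ)))
      (fun t => E cp a S (s + 1 - t) fun y => g' (y + Pi.single l (t : ℤ)))
      (by rw [← sum_div, ← eZ, div_self hz.ne'])
      (by rw [← sum_div, ← eZ', div_self hz'.ne'])
      (by rw [An]; simp)
      (by
        intro k hk
        have := mlr (fun t => A cp a l t * Z cp a S (s - t))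
          (fun t => A cp a l t * Z cp a S (s + 1 - t)) (fun u v huv => by
            have h1 := tZ (s - v) (s + 1 - u) (s - u) (s + 1 - v) (by omega) (by omega) (by ring)
            have h2 := mul_le_mul_of_nonneg_left h1
              (mul_nonneg (A_nonneg cp hp l u) (A_nonneg cp hp l v))
            linarith) k n hk
        rw [← eZ, ← eZ'] at this
        rw [← sum_div, ← sum_div, div_le_div_iff₀ hz' hz]
        exact this)
      (by
        intro k hk
        have := mlr (fun t => A cp a l t * Z cp a S (s + 1 - t))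
          (fun t => A cp a l ((t : ℤ) - 1) * Z cp a S (s + 1 - t)) (fun u v huv => by
            have h1 : A cp a l (u - 1) * A cp a l v ≤ A cp a l u * A cp a l (v - 1) := by
              rcases eq_or_lt_of_le huv with h | h
              · subst h; rw [mul_comm]
              · exact tA _ _ _ _ (by omega) (by omega) (by ring)
            have h2 := mul_le_mul_of_nonneg_left h1
              (mul_nonneg (Z_nonneg cp hp S (s + 1 - u)) (Z_nonneg cp hp S (s + 1 - v)))
            linarith) (k + 1) (n + 1) (by omega)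
        rw [sh, sh, ← eZ, sum_range_succ _ n, An, zero_mul, add_zero, ← eZ'] at this
        rw [← sum_div, ← sum_div, div_le_div_iff₀ hz hz']
        exact this)
    have eE : ∀ (s : ℤ) (g : (J → ℤ) → ℝ), E cp a (insert l S) s g =
        ∑ t ∈ range n, A cp a l t * Z cp a S (s - t) / Z cp a (insert l S) s *
          E cp a S (s - t) fun y => g (y + Pi.single l (t : ℤ)) := by
      intro s g
      conv_lhs => unfold E
      rw [sumN_ins cp a hS, sum_div]
      refine sum_congr rfl fun t _ => ?_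
      rw [ZE cp hp S (s - t) fun y : J → ℤ => g (y + (Pi.single l (t : ℤ) : J → ℤ))]
      ring
    rw [eE s g, eE (s + 1) g']
    set m := min (c * Zs) (c' * Zs') with hm
    have m0 : 0 ≤ m := le_min (mul_nonneg hc hz.le) (mul_nonneg hc' hz'.le)
    have mb : ∀ x w : ℝ, 0 ≤ w → x ≤ w / Zs → m * x ≤ c * w := by
      intro x w hw hx
      calc m * x ≤ m * (w / Zs) := mul_le_mul_of_nonneg_left hx m0
        _ ≤ c * Zs * (w / Zs) := mul_le_mul_of_nonneg_right (min_le_left _ _) (by positivity)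
        _ = c * w := by field_simp
    have mb' : ∀ x w : ℝ, 0 ≤ w → x ≤ w / Zs' → m * x ≤ c' * w := by
      intro x w hw hx
      calc m * x ≤ m * (w / Zs') := mul_le_mul_of_nonneg_left hx m0
        _ ≤ c' * Zs' * (w / Zs') := mul_le_mul_of_nonneg_right (min_le_right _ _) (by positivity)
        _ = c' * w := by field_simp
    refine (mul_le_mul_of_nonneg_left hq m0).trans ?_
    rw [sum_insert hS, add_comm, mul_add, mul_sum, mul_sum]
    refine add_le_add ?_ ?_
    · rw [decomp cp hS]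
      refine sum_le_sum fun t ht => ?_
      obtain ⟨_, _, b3, b4⟩ := hb t (mem_range.1 ht)
      have e1 : s + 1 - ((t + 1 : ℕ) : ℤ) = s - t := by push_cast; ring
      have z0 := Z_nonneg cp hp S (s - t)
      have a0 := A_nonneg cp hp l t
      have a1 := A_nonneg cp hp l ((t + 1 : ℕ) : ℤ)
      rw [e1] at b4 ⊢
      have c3 := mb _ _ (mul_nonneg a0 z0) b3
      have c4 := mb' _ _ (mul_nonneg a1 z0) b4
      have c5 : m * mo t ≤ min (c * A cp a l t) (c' * A cp a l ((t + 1 : ℕ) : ℤ)) *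
          Z cp a S (s - t) := by
        rw [min_mul_of_nonneg _ _ z0]
        exact le_min (by linarith) (by linarith)
      have c6 := jensen cp hp S (s - t) (fun y => g (y + Pi.single l (t : ℤ)))
        (fun y => g' (y + Pi.single l ((t + 1 : ℕ) : ℤ)))
      have c7 : 0 ≤ min (c * A cp a l t) (c' * A cp a l ((t + 1 : ℕ) : ℤ)) :=
        le_min (mul_nonneg hc a0) (mul_nonneg hc' a1)
      rw [← mul_assoc]
      refine (mul_le_mul_of_nonneg_right c5 (sq_nonneg _)).trans ?_
      rw [mul_assoc]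
      refine (mul_le_mul_of_nonneg_left c6 c7).trans (le_of_eq ?_)
      rw [mul_sum]
      refine sum_congr rfl fun y hy => ?_
      have y0 := Y_zero cp hy hS
      have e2 : y + Pi.single l (t : ℤ) + Pi.single l 1 = y + Pi.single l ((t + 1 : ℕ) : ℤ) := by
        rw [add_assoc, ← Pi.single_add]; push_cast; rfl
      rw [e2, N_ins cp a hS y0, N_ins cp a hS y0, ← mul_assoc, ← mul_assoc, ← mul_assoc,
        min_mul_of_nonneg _ _ (N_nonneg cp hp S y)]
    · have e3 : ∀ β ∈ S, ∑ y ∈ Y cp (insert l S) s,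
          min (c * N cp a (insert l S) y) (c' * N cp a (insert l S) (y + Pi.single β 1)) *
          (g' (y + Pi.single β 1) - g y) ^ 2 =
          ∑ t ∈ range n, ∑ y ∈ Y cp S (s - t),
            min (c * A cp a l t * N cp a S y) (c' * A cp a l t * N cp a S (y + Pi.single β 1)) *
            (g' (y + Pi.single β 1 + Pi.single l (t : ℤ)) - g (y + Pi.single l (t : ℤ))) ^ 2 := by
        intro β hβ
        rw [decomp cp hS]
        refine sum_congr rfl fun t _ => sum_congr rfl fun y hy => ?_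
        have y0 := Y_zero cp hy hS
        have hne : l ≠ β := fun h => hS (h ▸ hβ)
        have y1 : (y + Pi.single β 1 : J → ℤ) l = 0 := by simp [y0, Pi.single_eq_of_ne hne]
        rw [add_right_comm y, N_ins cp a hS y0, N_ins cp a hS y1, mul_assoc c, mul_assoc c']
      rw [sum_congr rfl e3, sum_comm]
      refine sum_le_sum fun t ht => ?_
      obtain ⟨b1, b2, _, _⟩ := hb t (mem_range.1 ht)
      have e1 : s + 1 - (t : ℤ) = s - t + 1 := by ring
      have a0 := A_nonneg cp hp l t
      rw [e1] at b2 ⊢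
      have c1 := mb _ _ (mul_nonneg a0 (Z_nonneg cp hp S _)) b1
      have c2 := mb' _ _ (mul_nonneg a0 (Z_nonneg cp hp S _)) b2
      have c6 := ih (s - t) (fun y => g (y + Pi.single l (t : ℤ)))
        (fun y => g' (y + Pi.single l (t : ℤ))) (c * A cp a l t) (c' * A cp a l t)
        (mul_nonneg hc a0) (mul_nonneg hc' a0)
      refine le_trans ?_ c6
      rw [← mul_assoc]
      exact mul_le_mul_of_nonneg_right (le_min (by linarith) (by linarith)) (sq_nonneg _)

theorem poin (r : ℕ) (S : Finset J) : ∀ (s : ℤ), s ≤ r → ∀ f : (J → ℤ) → ℝ, ∃ x,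
    ∑ y ∈ Y cp S s, N cp a S y * (f y - x) ^ 2 ≤ ((r : ℝ) + 1) ^ 2 *
      ∑ α ∈ S, ∑ β ∈ S, ∑ y ∈ Y cp S s,
        min (N cp a S y) (N cp a S (mv y α β)) * (f (mv y α β) - f y) ^ 2 := by
  induction S using Finset.induction_on with
  | empty =>
    intro s _ f
    refine ⟨f 0, ?_⟩
    rw [sum_empty, mul_zero]
    refine le_of_eq (sum_eq_zero fun y hy => ?_)
    rw [Y_empty cp hy]; simp
  | insert l S hS ih =>
    intro s hs f
    set n := (cp l + 1).toNat with hn
    have An : A cp a l n = 0 := A_out cp a l _ (by omega)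
    have tA := A_tp cp hp hl l
    have tZ := Z_tp cp hp hl S
    obtain ⟨x, hx⟩ := line n r (fun t => A cp a l t * Z cp a S (s - t))
      (fun t => E cp a S (s - t) fun y => f (y + Pi.single l (t : ℤ)))
      (fun t => mul_nonneg (A_nonneg cp hp _ _) (Z_nonneg cp hp _ _))
      (by
        intro x z u v hu hv h
        have h1 := tA x z u v hu hv h
        have h2 := tZ (s - z) (s - x) (s - u) (s - v) (by omega) (by omega) (by omega)
        have h3 := mul_le_mul h1 h2 (mul_nonneg (Z_nonneg cp hp _ _) (Z_nonneg cp hp _ _))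
          (mul_nonneg (A_nonneg cp hp _ _) (A_nonneg cp hp _ _))
        linarith)
      (by
        intro t ht
        have : Z cp a S (s - t) = 0 := by
          unfold Z
          rw [Y_neg cp (by omega), sum_empty]
        rw [this, mul_zero])
    refine ⟨x, ?_⟩
    set T : J → J → ℝ := fun α β => ∑ y ∈ Y cp (insert l S) s,
      min (N cp a (insert l S) y) (N cp a (insert l S) (mv y α β)) * (f (mv y α β) - f y) ^ 2
      with hT
    have T0 : ∀ α β, 0 ≤ T α β := fun α β => sum_nonneg fun y _ => mul_nonneg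
      (le_min (N_nonneg cp hp _ _) (N_nonneg cp hp _ _)) (sq_nonneg _)
    have low : ∑ β ∈ S, T l β + ∑ α ∈ S, ∑ β ∈ S, T α β ≤
        ∑ α ∈ insert l S, ∑ β ∈ insert l S, T α β := by
      rw [sum_insert hS]
      refine add_le_add ?_ (sum_le_sum fun α _ => ?_)
      · rw [sum_insert hS]; linarith [T0 l l]
      · rw [sum_insert hS]; linarith [T0 α l]
    refine le_trans ?_ (mul_le_mul_of_nonneg_left low (sq_nonneg _))
    rw [sumN_ins cp a hS, mul_add]
    have split : ∑ t ∈ range n, A cp a l t *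
        ∑ y ∈ Y cp S (s - t), N cp a S y * (f (y + Pi.single l (t : ℤ)) - x) ^ 2 =
        ∑ t ∈ range n, A cp a l t * Z cp a S (s - t) *
          ((E cp a S (s - t) fun y => f (y + Pi.single l (t : ℤ))) - x) ^ 2 +
        ∑ t ∈ range n, A cp a l t * ∑ y ∈ Y cp S (s - t), N cp a S y *
          (f (y + Pi.single l (t : ℤ)) -
            E cp a S (s - t) fun y => f (y + Pi.single l (t : ℤ))) ^ 2 := by
      rw [← sum_add_distrib]
      refine sum_congr rfl fun t _ => ?_
      rw [bias cp hp S (s - t) (fun y : J → ℤ => f (y + (Pi.single l (t : ℤ) : J → ℤ))) x]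
      ring
    rw [split]
    refine add_le_add (hx.trans (mul_le_mul_of_nonneg_left ?_ (sq_nonneg _))) ?_
    · set H : ℤ → ℝ := fun t => ∑ β ∈ S, ∑ y ∈ Y cp S (s - t),
        min (A cp a l t * N cp a S y) (A cp a l (t - 1) * N cp a S (y + Pi.single β 1)) *
          (f (y + Pi.single β 1 + Pi.single l (t - 1)) - f (y + Pi.single l t)) ^ 2 with hH
      have e1 : ∑ β ∈ S, T l β = ∑ t ∈ range n, H t := by
        simp only [hH]
        rw [sum_comm (s := range n)]
        refine sum_congr rfl fun β hβ => ?_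
        simp only [hT]
        rw [decomp cp hS]
        refine sum_congr rfl fun t _ => sum_congr rfl fun y hy => ?_
        have y0 := Y_zero cp hy hS
        have hne : l ≠ β := fun h => hS (h ▸ hβ)
        have y1 : (y + Pi.single β 1 : J → ℤ) l = 0 := by simp [y0, Pi.single_eq_of_ne hne]
        have e2 : mv (y + Pi.single l (t : ℤ)) l β =
            y + Pi.single β 1 + Pi.single l ((t : ℤ) - 1) := by
          unfold mv
          rw [Pi.single_sub]; abel
        rw [e2, N_ins cp a hS y0, N_ins cp a hS y1]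
      have H0 : 0 ≤ H 0 := sum_nonneg fun β _ => sum_nonneg fun y _ => mul_nonneg
        (le_min (mul_nonneg (A_nonneg cp hp _ _) (N_nonneg cp hp _ _))
          (mul_nonneg (A_nonneg cp hp _ _) (N_nonneg cp hp _ _))) (sq_nonneg _)
      have Hn : H n ≤ 0 := sum_nonpos fun β _ => sum_nonpos fun y _ =>
        mul_nonpos_of_nonpos_of_nonneg ((min_le_left _ _).trans (by rw [An, zero_mul]))
          (sq_nonneg _)
      have e3 : ∑ t ∈ range n, H ((t + 1 : ℕ) : ℤ) ≤ ∑ t ∈ range n, H t := by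
        have h1 := sum_range_succ (fun t : ℕ => H t) n
        have h2 := sum_range_succ' (fun t : ℕ => H t) n
        simp only [Nat.cast_zero] at h2
        linarith
      rw [e1]
      refine le_trans (sum_le_sum fun t _ => ?_) e3
      have c1 := cover cp hp hl S (s - ((t + 1 : ℕ) : ℤ))
        (fun y => f (y + Pi.single l ((t + 1 : ℕ) : ℤ))) (fun y => f (y + Pi.single l (t : ℤ)))
        (A cp a l ((t + 1 : ℕ) : ℤ)) (A cp a l t) (A_nonneg cp hp _ _) (A_nonneg cp hp _ _)
      have e4 : s - ((t + 1 : ℕ) : ℤ) + 1 = s - t := by push_cast; ring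
      have e5 : ((t + 1 : ℕ) : ℤ) - 1 = t := by push_cast; ring
      have e6 : (t : ℤ) + 1 = ((t + 1 : ℕ) : ℤ) := by push_cast; ring
      rw [e4] at c1
      simp only [hH]
      rw [e5, e6, min_comm, ← neg_sq, neg_sub]
      exact c1
    · have e1 : ∑ α ∈ S, ∑ β ∈ S, T α β = ∑ t ∈ range n, A cp a l t *
          ∑ α ∈ S, ∑ β ∈ S, ∑ y ∈ Y cp S (s - t), min (N cp a S y) (N cp a S (mv y α β)) *
            (f (mv y α β + Pi.single l (t : ℤ)) - f (y + Pi.single l (t : ℤ))) ^ 2 := by
        simp only [mul_sum]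
        rw [sum_comm (s := range n)]
        refine sum_congr rfl fun α hα => ?_
        rw [sum_comm (s := range n)]
        refine sum_congr rfl fun β hβ => ?_
        simp only [hT]
        rw [decomp cp hS]
        refine sum_congr rfl fun t _ => sum_congr rfl fun y hy => ?_
        have y0 := Y_zero cp hy hS
        have hne : l ≠ β := fun h => hS (h ▸ hβ)
        have hne' : l ≠ α := fun h => hS (h ▸ hα)
        have y1 : mv y α β l = 0 := by
          simp [mv, y0, Pi.single_eq_of_ne hne, Pi.single_eq_of_ne hne']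
        have e2 : mv (y + Pi.single l (t : ℤ)) α β = mv y α β + Pi.single l (t : ℤ) := by
          unfold mv
          abel
        rw [e2, N_ins cp a hS y0, N_ins cp a hS y1, ← mul_assoc,
          mul_min_of_nonneg _ _ (A_nonneg cp hp _ _)]
      rw [e1, mul_sum]
      refine sum_le_sum fun t _ => ?_
      obtain ⟨x', hx'⟩ := ih (s - t) (by omega) (fun y => f (y + Pi.single l (t : ℤ)))
      have b := bias cp hp S (s - t) (fun y : J → ℤ => f (y + (Pi.single l (t : ℤ) : J → ℤ))) x'
      have b2 := mul_nonneg (Z_nonneg cp hp S (s - t)) (sq_nonneg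
        ((E cp a S (s - t) fun y : J → ℤ => f (y + (Pi.single l (t : ℤ) : J → ℤ))) - x'))
      rw [mul_left_comm]
      exact mul_le_mul_of_nonneg_left (by linarith) (A_nonneg cp hp _ _)

end Vale.Agent.P328.Fib

namespace Vale.Agent.P328

open Finset

theorem fib (J : Type) [Fintype J] [DecidableEq J] : FibStmt J := by
  intro cp a hp hl ρ f
  have eY : Fib.Y cp univ ρ = Fb cp ρ := by
    unfold Fib.Y Fib.Bx Fb
    simp
  have eN : ∀ y ∈ Fb cp ρ, Fib.N cp a univ y = nu a y := by
    intro y hy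
    rw [← eY] at hy
    unfold Fib.N nu
    rw [if_pos ((Fib.mem_Y cp).1 hy).1]
  have nu0 : ∀ y, 0 ≤ nu a y := fun y => prod_nonneg fun k _ => (hp _ _).le
  rcases lt_or_ge ρ 0 with hρ | hρ
  · rw [← eY, Fib.Y_neg cp hρ]
    simp
  rcases isEmpty_or_nonempty J with hJ | hJ
  · have h1 : ∑ y ∈ Fb cp ρ, ∑ z ∈ Fb cp ρ, nu a y * nu a z * (f y - f z) ^ 2 = 0 :=
      sum_eq_zero fun y _ => sum_eq_zero fun z _ => by rw [Subsingleton.elim y z]; simp
    rw [h1]
    simp
  obtain ⟨x, hx⟩ := Fib.poin cp hp hl ρ.toNat univ ρ (by omega) f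
  have e1 : ((ρ.toNat : ℕ) : ℝ) = (ρ : ℝ) := by
    have : ((ρ.toNat : ℕ) : ℤ) = ρ := by omega
    exact_mod_cast congrArg (fun z : ℤ => (z : ℝ)) this
  rw [eY, e1] at hx
  have e2 : ∑ y ∈ Fb cp ρ, Fib.N cp a univ y * (f y - x) ^ 2 =
      ∑ y ∈ Fb cp ρ, nu a y * (f y - x) ^ 2 := sum_congr rfl fun y hy => by rw [eN y hy]
  have e3 : ∀ α β, ∑ y ∈ Fb cp ρ,
      min (Fib.N cp a univ y) (Fib.N cp a univ (mv y α β)) * (f (mv y α β) - f y) ^ 2 =
      ∑ y ∈ (Fb cp ρ).filter (fun y => mv y α β ∈ Fb cp ρ),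
        min (nu a y) (nu a (mv y α β)) * (f (mv y α β) - f y) ^ 2 := by
    intro α β
    rw [sum_filter]
    refine sum_congr rfl fun y hy => ?_
    split_ifs with h
    · rw [eN y hy, eN _ h]
    · have h0 : Fib.N cp a univ (mv y α β) = 0 := by
        unfold Fib.N
        rw [if_neg]
        intro hb
        apply h
        rw [← eY] at hy ⊢
        refine (Fib.mem_Y cp).2 ⟨hb, ?_⟩
        have := ((Fib.mem_Y cp).1 hy).2
        simp [mv, sum_add_distrib, sum_sub_distrib, this]
      rw [h0, min_eq_right (Fib.N_nonneg cp hp _ _), zero_mul]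
  simp only [e3] at hx
  rw [e2] at hx
  set Ed := ∑ α, ∑ β, ∑ y ∈ (Fb cp ρ).filter (fun y => mv y α β ∈ Fb cp ρ),
    min (nu a y) (nu a (mv y α β)) * (f (mv y α β) - f y) ^ 2 with hEd
  have Ed0 : 0 ≤ Ed := sum_nonneg fun α _ => sum_nonneg fun β _ => sum_nonneg fun y _ =>
    mul_nonneg (le_min (nu0 _) (nu0 _)) (sq_nonneg _)
  set Zt := ∑ y ∈ Fb cp ρ, nu a y with hZt
  have Z0 : 0 ≤ Zt := sum_nonneg fun y _ => nu0 y
  have e4 : ∑ y ∈ Fb cp ρ, ∑ z ∈ Fb cp ρ, nu a y * nu a z * (f y - f z) ^ 2 =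
      (∑ y ∈ Fb cp ρ, nu a y * (f y - x) ^ 2) * Zt + Zt * (∑ y ∈ Fb cp ρ, nu a y * (f y - x) ^ 2) -
        2 * ((∑ y ∈ Fb cp ρ, nu a y * (f y - x)) * (∑ y ∈ Fb cp ρ, nu a y * (f y - x))) := by
    simp only [hZt, sum_mul_sum]
    simp only [mul_sum, ← sum_sub_distrib, ← sum_add_distrib]
    exact sum_congr rfl fun y _ => sum_congr rfl fun z _ => by ring
  have c1 : (1 : ℝ) ≤ (Fintype.card J : ℝ) ^ 2 := by
    have : 1 ≤ Fintype.card J := Fintype.card_pos
    exact one_le_pow₀ (by exact_mod_cast this)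
  have c2 := mul_le_mul_of_nonneg_left hx Z0
  have c3 := mul_self_nonneg (∑ y ∈ Fb cp ρ, nu a y * (f y - x))
  have c4 : 0 ≤ Zt * (((ρ : ℝ) + 1) ^ 2 * Ed) := by positivity
  have c5 := mul_le_mul_of_nonneg_right c1 c4
  rw [e4]
  linarith

end Vale.Agent.P328
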