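import Vale.Agent.P328.Par
import Vale.Agent.P328.Dual

/-!
Shared definitions: fibres, the Markov operator, the algorithm on functions.
-/

namespace Vale.Agent.P328

open Finset

section

variable {I J : Type} [Fintype I] [Fintype J] [DecidableEq I] [DecidableEq J]

/-- Vectors in a box with a given sum. -/
noncomputable def Fb (cp : J → ℤ) (ρ : ℤ) : Finset (J → ℤ) :=
  (Fintype.piFinset fun k => Icc 0 (cp k)).filter fun y => ∑ k, y k = ρ

/-- Product weight. -/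
def nu (a : J → ℤ → ℝ) (y : J → ℤ) : ℝ := ∏ k, a k (y k)

/-- Moving one unit. -/
def mv (y : J → ℤ) (α β : J) : J → ℤ := y - Pi.single α 1 + Pi.single β 1

/-- The Markov operator of the chain: choose a cell, propose a uniform value, Metropolis filter. -/
noncomputable def Kop (M : Mdl I J) (w : St I J → ℝ) (θ : ℝ) (F : St I J → ℝ) (x : St I J) : ℝ :=
  F x + θ * ∑ c, 1 / ((M.cap c : ℝ) + 1) * ∑ t ∈ Icc 0 (M.cap c),
    min 1 (w (Function.update x c t) / w x) * (F (Function.update x c t) - F x)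

/-- Poincare inequality on fibres. -/
def FibStmt (J : Type) [Fintype J] [DecidableEq J] : Prop :=
  ∀ (cp : J → ℤ) (a : J → ℤ → ℝ), (∀ k t, 0 < a k t) →
    (∀ k t, a k (t - 1) * a k (t + 1) ≤ a k t ^ 2) → ∀ (ρ : ℤ) (f : (J → ℤ) → ℝ),
    ∑ y ∈ Fb cp ρ, ∑ z ∈ Fb cp ρ, nu a y * nu a z * (f y - f z) ^ 2 ≤
      2 * (Fintype.card J : ℝ) ^ 2 * ((ρ : ℝ) + 1) ^ 2 * (∑ y ∈ Fb cp ρ, nu a y) *
        ∑ α, ∑ β, ∑ y ∈ (Fb cp ρ).filter (fun y => mv y α β ∈ Fb cp ρ),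
          min (nu a y) (nu a (mv y α β)) * (f (mv y α β) - f y) ^ 2

/-- The good part of a fibre is not small. -/
def RatStmt (J : Type) [Fintype J] [DecidableEq J] : Prop :=
  ∀ (cp : J → ℤ) (a : J → ℤ → ℝ), (∀ k t, 0 < a k t) → (∀ k, Antitone (a k)) →
    ∀ (j js : J), j ≠ js → ∀ (d : J → ℤ),
    (∀ k, k ≠ j → k ≠ js → 0 ≤ d k ∧ d k ≤ cp k ∧ ∀ t, 0 ≤ t → t ≤ d k → a k t = a k 0) →
    ∀ (ds η ρ : ℤ), 0 ≤ ds → 0 ≤ η → 2 * (ρ - ds) ≤ ∑ k ∈ (univ.erase j).erase js, d k →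
    ∀ K : ℝ, 0 ≤ K → (ρ : ℝ) + 1 ≤ K * (η + 1) →
    ∑ y ∈ Fb cp ρ, nu a y ≤
      (1 + K) ^ 2 * ∑ y ∈ (Fb cp ρ).filter (fun y => y j + y js ≤ ds + 2 * η), nu a y

/-- Mixing of the chain from the Bochner bound. -/
def ChainStmt (I J : Type) [Fintype I] [Fintype J] [DecidableEq I] [DecidableEq J] : Prop :=
  ∀ (M : Mdl I J) (w : St I J → ℝ) (K C θ : ℝ), 1 ≤ K → 1 ≤ C → 0 < θ →
    θ * Fintype.card (I × J) ≤ 1 / 2 → θ ≤ 1 →
    (∀ x ∈ M.box, M.pi x ≤ w x ∧ w x ≤ 2 * M.pi x) →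
    (∀ u, ∑ c, ∑ x ∈ M.box, M.Lc u c x ^ 2 / M.pi x ≤ K * M.NN u) →
    (∀ c, ∀ x ∈ M.box, ((M.cap c : ℝ) + 1) * M.pi x ≤
      C * ∑ t ∈ Icc 0 (M.cap c), M.pi (Function.update x c t)) →
    ∀ F : St I J → ℝ, (∀ x ∈ M.box, |F x| ≤ 1) → ∀ x0 ∈ M.box, ∀ T : ℕ,
    ((Kop M w θ)^[T] F x0 - (∑ x ∈ M.box, w x * F x) / ∑ x ∈ M.box, w x) ^ 2 ≤
      4 * ((∑ x ∈ M.box, w x) / w x0) * (1 - θ / (4 * K * C)) ^ T

namespace Par

variable (p : Par I J)

/-- Accepted states give tables, each with the same total weight. -/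
def UnifStmt : Prop :=
  (∀ x ∈ p.mdl.box, p.Acc x → p.tab x ∈ tables p.r p.c) ∧
  ∀ G : (I → J → ℕ) → ℝ, ∑ x ∈ p.mdl.box.filter p.Acc, p.wt x * G (p.tab x) =
    (∑ x ∈ p.mdl.box.filter p.Acc, p.wt x) *
      ((∑ X ∈ tables p.r p.c, G X) / (tables p.r p.c).card)

/-- Accepted states carry half of the weight. -/
def AccStmt : Prop :=
  ∑ x ∈ p.mdl.box, p.mdl.pi x ≤ 2 * ∑ x ∈ p.mdl.box.filter p.Acc, p.mdl.pi x

/-- Rounding, range of the energy, width of the lines. -/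
def RoundStmt : Prop :=
  (∀ x, p.mdl.pi x ≤ p.wt x ∧ p.wt x ≤ 2 * p.mdl.pi x) ∧
  (∀ x ∈ p.mdl.box, p.W x ≤ p.q ^ 18) ∧
  ∀ c, ∀ x ∈ p.mdl.box, ((p.mdl.cap c : ℝ) + 1) * p.mdl.pi x ≤
      (p.q : ℝ) ^ 14 * ∑ t ∈ Icc 0 (p.mdl.cap c), p.mdl.pi (Function.update x c t)

/-- The Bochner bound. -/
def GapStmt : Prop :=
  ∀ u, ∑ c, ∑ x ∈ p.mdl.box, p.mdl.Lc u c x ^ 2 / p.mdl.pi x ≤ (p.q : ℝ) ^ 98 * p.mdl.NN u

end Par

end

/-- Average over all lists of `n` bits. -/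
noncomputable def Ex : ℕ → (List Bool → ℝ) → ℝ
  | 0, F => F []
  | n + 1, F => (Ex n (fun l => F (false :: l)) + Ex n (fun l => F (true :: l))) / 2

/-- The number with given binary digits, most significant first. -/
def val (l : List Bool) : ℕ := l.foldl (fun m b => Nat.bit b m) 0

/-- The north-west corner table. -/
def nw {m n : ℕ} (r : Fin m → ℕ) (c : Fin n → ℕ) : Fin m → Fin n → ℕ := fun i j =>
  min (∑ l ∈ Iic i, r l) (∑ l ∈ Iic j, c l) - max (∑ l ∈ Iio i, r l) (∑ l ∈ Iio j, c l)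

namespace Par

variable {m n : ℕ} (p : Par (Fin m) (Fin n))

/-- Bits for the filter. -/
def K4 : ℕ := p.b * p.q ^ 18

/-- Bits for one step. -/
def B1 : ℕ := 2 * p.b + p.q + p.K4

/-- Steps in one run. -/
def T1 : ℕ := p.q ^ 134

/-- Increase of the energy. -/
def inc (x y : St (Fin m) (Fin n)) : ℕ := min (p.W y - p.W x) (p.q ^ 18)

/-- The filter. -/
def ffil (u : ℕ) (x y : St (Fin m) (Fin n)) : St (Fin m) (Fin n) :=
  if u * p.q ^ p.inc x y < (p.q - 1) ^ p.inc x y * 2 ^ p.K4 then y else x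

/-- The proposal in a given cell, then the filter. -/
def fcell (l : List Bool) (x : St (Fin m) (Fin n)) (c : Fin m × Fin n) : St (Fin m) (Fin n) :=
  p.ffil (val ((l.drop p.q).take p.K4)) x (Function.update x c (val (l.take (p.ex c))))

/-- One step of the chain. -/
def fstep (l : List Bool) (x : St (Fin m) (Fin n)) : St (Fin m) (Fin n) :=
  if h : val (l.take p.b) < m ∧ val ((l.drop p.b).take p.b) < n then
    p.fcell (l.drop (2 * p.b)) x (⟨_, h.1⟩, ⟨_, h.2⟩) else x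

/-- Several steps. -/
def frun : ℕ → List Bool → St (Fin m) (Fin n) → St (Fin m) (Fin n)
  | 0, _, x => x
  | T + 1, l, x => frun T (l.drop p.B1) (p.fstep (l.take p.B1) x)

/-- Several runs, the first accepted one gives the output. -/
def fout : ℕ → List Bool → Fin m → Fin n → ℕ
  | 0, _ => nw p.r p.c
  | s + 1, l => if p.Acc (p.frun p.T1 (l.take (p.T1 * p.B1)) 0) then
      p.tab (p.frun p.T1 (l.take (p.T1 * p.B1)) 0) else fout s (l.drop (p.T1 * p.B1))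

/-- The law of the output. -/
def LawStmt (k : ℕ) : Prop :=
  (∀ l, p.fout p.q l ∈ tables p.r p.c) ∧ ∀ P : ℕ, p.q * (p.T1 * p.B1) ≤ P →
    1 / 2 * ∑ X ∈ tables p.r p.c,
      |((univ.filter fun ρ : Fin P → Bool => p.fout p.q (List.ofFn ρ) = X).card : ℝ) / 2 ^ P -
        1 / (tables p.r p.c).card| ≤ 1 / 2 ^ k

end Par

/-- The final statement. -/
def FinalStmt : Prop :=
  ∃ (f : List ℕ × List ℕ × ℕ × List Bool → List (List ℕ)) (P : Polynomial ℕ),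
    (∃ M : Turing.TM2ComputableInPolyTime codeIn codeOut f, ∀ k, Finite (M.tm.Γ k)) ∧
    ∀ (m n : ℕ) (r : Fin m → ℕ) (c : Fin n → ℕ), 0 < m → 0 < n → ∑ i, r i = ∑ j, c j → ∀ k : ℕ,
      ∃ out : (Fin (P.eval (len r c + k)) → Bool) → Fin m → Fin n → ℕ,
        (∀ ρ, out ρ ∈ tables r c ∧ f (List.ofFn r, List.ofFn c, k, List.ofFn ρ) =
          List.ofFn fun i => List.ofFn (out ρ i)) ∧
        1 / 2 * ∑ X ∈ tables r c,
          |((univ.filter fun ρ => out ρ = X).card : ℝ) / 2 ^ P.eval (len r c + k) -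
            1 / (tables r c).card| ≤ 1 / 2 ^ k

end Vale.Agent.P328
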