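import Vale.Agent.P328.Trans
import Vale.Agent.P328.Spec

/-!
Covering, exchange edges and fibres of one row.
-/

namespace Vale.Agent.P328

open Finset

variable {I J : Type} [Fintype I] [Fintype J] [DecidableEq I] [DecidableEq J]

theorem fib_combine {X : Type} {Y G : Finset X} (hG : G ⊆ Y) {ν : X → ℝ} (f : X → ℝ)
    (h0 : ∀ y, 0 < ν y) {K E : ℝ} (hK : 0 ≤ K) (hE : 0 ≤ E)
    (h1 : ∑ y ∈ Y, ∑ z ∈ Y, ν y * ν z * (f y - f z) ^ 2 ≤ (∑ y ∈ Y, ν y) * E)
    (h2 : ∑ y ∈ Y, ν y ≤ K * ∑ y ∈ G, ν y) :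
    ∑ y ∈ Y, ν y * f y ^ 2 ≤ 2 * K * (E + ∑ y ∈ G, ν y * f y ^ 2) := by
  have s0 : 0 ≤ ∑ y ∈ G, ν y * f y ^ 2 := sum_nonneg fun y _ => mul_nonneg (h0 y).le (sq_nonneg _)
  rcases Y.eq_empty_or_nonempty with rfl | hY
  · rw [sum_empty]; positivity
  have z1 : 0 < ∑ y ∈ Y, ν y := sum_pos (fun y _ => h0 y) hY
  have z2 : 0 < ∑ y ∈ G, ν y := by
    by_contra h
    have := mul_nonpos_of_nonneg_of_nonpos hK (not_lt.1 h)
    linarith
  have h3 : (∑ y ∈ Y, ν y * f y ^ 2) * ∑ z ∈ G, ν z ≤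
      2 * ∑ y ∈ Y, ∑ z ∈ Y, ν y * ν z * (f y - f z) ^ 2 +
        2 * ((∑ y ∈ Y, ν y) * ∑ z ∈ G, ν z * f z ^ 2) := by
    have : ∑ y ∈ Y, ∑ z ∈ G, ν y * ν z * (f y - f z) ^ 2 ≤
        ∑ y ∈ Y, ∑ z ∈ Y, ν y * ν z * (f y - f z) ^ 2 := sum_le_sum fun y _ =>
      sum_le_sum_of_subset_of_nonneg hG fun z _ _ =>
        mul_nonneg (mul_pos (h0 y) (h0 z)).le (sq_nonneg _)
    refine le_trans ?_ (add_le_add (mul_le_mul_of_nonneg_left this zero_le_two) le_rfl)
    rw [sum_mul_sum, sum_mul_sum]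
    simp only [mul_sum, ← sum_add_distrib]
    refine sum_le_sum fun y _ => sum_le_sum fun z _ => ?_
    have := mul_nonneg (mul_pos (h0 y) (h0 z)).le (sq_nonneg (f y - 2 * f z))
    nlinarith
  refine le_of_mul_le_mul_right ?_ z2
  have := mul_le_mul_of_nonneg_right h2 (add_nonneg hE s0)
  nlinarith

/-- The array with row `i` removed. -/
def zr (i : I) (x : St I J) : St I J := fun c => if c.1 = i then 0 else x c

/-- The array with a single row. -/
def emb (i : I) (y : J → ℤ) : St I J := fun c => if c.1 = i then y c.2 else 0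

omit [Fintype I] [Fintype J] [DecidableEq J] in
theorem zr_emb (i : I) (x : St I J) : zr i x + emb i (fun k => x (i, k)) = x := by
  funext c; simp only [zr, emb, Pi.add_apply]; split_ifs with h
  · rw [← h]; simp
  · simp

omit [Fintype I] [DecidableEq J] in
theorem row_emb (i l : I) (y : J → ℤ) : row (emb i y) l = if l = i then ∑ k, y k else 0 := by
  simp only [row, emb]; split_ifs <;> simp

omit [Fintype J] [DecidableEq J] in
theorem col_emb (i : I) (y : J → ℤ) (k : J) : col (emb i y) k = y k := by simp [col, emb]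

omit [Fintype I] [DecidableEq J] in
theorem row_zr (i l : I) (x : St I J) : row (zr i x) l = if l = i then 0 else row x l := by
  simp only [row, zr]; split_ifs <;> simp

omit [Fintype J] [DecidableEq J] in
theorem col_zr (i : I) (x : St I J) (k : J) : col x k = col (zr i x) k + x (i, k) := by
  conv_lhs => rw [← zr_emb i x, col_add, col_emb]

omit [Fintype I] [Fintype J] in
theorem zr_sub (i : I) (x : St I J) (k : J) : zr i (x - e (i, k) 1) = zr i x := by
  funext c; simp only [zr, Pi.sub_apply, e_apply]; split_ifs with h h'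
  · rfl
  · exact absurd (congrArg Prod.fst h') h
  · simp

omit [Fintype I] [Fintype J] in
theorem emb_mv (i : I) (y : J → ℤ) (α β : J) :
    emb i (mv y α β) = emb i y + e (i, α) (-1) + e (i, β) 1 := by
  funext ⟨l, k⟩
  simp only [emb, mv, Pi.add_apply, Pi.sub_apply, e_apply, Pi.single_apply, Prod.mk.injEq]
  by_cases h : l = i <;> simp [h]
  split_ifs <;> omega

theorem mem_Fb {cp : J → ℤ} {ρ : ℤ} {y : J → ℤ} :
    y ∈ Fb cp ρ ↔ (∀ k, 0 ≤ y k ∧ y k ≤ cp k) ∧ ∑ k, y k = ρ := by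
  simp [Fb, Fintype.mem_piFinset]

namespace Mdl

variable (M : Mdl I J) (u : St I J → ℝ)

theorem EnOn_nonneg (A : Finset (St I J)) (c : I × J) : 0 ≤ M.EnOn u A c :=
  sum_nonneg fun _ _ => mul_nonneg (M.om_nonneg _ _) (sq_nonneg _)

theorem EnOn_cover {κ : Type} [Fintype κ] (A : Finset (St I J)) (B : κ → Finset (St I J))
    (c : I × J) (h : ∀ x ∈ A, M.om x c ≠ 0 → ∃ k, x ∈ B k) :
    M.EnOn u A c ≤ ∑ k, M.EnOn u (B k) c := by
  have n0 : ∀ x, 0 ≤ M.om x c * gr u c x ^ 2 := fun _ => mul_nonneg (M.om_nonneg _ _) (sq_nonneg _)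
  calc M.EnOn u A c ≤ ∑ x ∈ A, ∑ k, if x ∈ B k then M.om x c * gr u c x ^ 2 else 0 := by
        refine sum_le_sum fun x hx => ?_
        have n1 : ∀ k ∈ univ, 0 ≤ if x ∈ B k then M.om x c * gr u c x ^ 2 else 0 := fun k _ => by
          split_ifs; exacts [n0 x, le_rfl]
        by_cases h0 : M.om x c = 0
        · exact le_trans (by rw [h0, zero_mul]) (sum_nonneg n1)
        · obtain ⟨k, hk⟩ := h x hx h0
          exact le_trans (by rw [if_pos hk]) (single_le_sum n1 (mem_univ k))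
    _ ≤ _ := by
        rw [sum_comm]
        refine sum_le_sum fun k _ => ?_
        rw [sum_ite_mem]
        exact sum_le_sum_of_subset_of_nonneg inter_subset_right fun _ _ _ => n0 _

theorem EnOn_two (A B C : Finset (St I J)) (c : I × J)
    (h : ∀ x ∈ A, M.om x c ≠ 0 → x ∈ B ∨ x ∈ C) :
    M.EnOn u A c ≤ M.EnOn u B c + M.EnOn u C c := by
  have := M.EnOn_cover u A (fun b : Bool => cond b B C) c fun x hx h0 =>
    (h x hx h0).elim (fun h => ⟨true, h⟩) fun h => ⟨false, h⟩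
  simpa using this

theorem edge (A : Finset (St I J)) (i : I) (c : I × J) (α β : J) {Q : ℝ} (hQ : 0 ≤ Q)
    (h : ∀ x ∈ M.box, M.L i (row x i) ≤ Q * M.L i (row x i - 1)) :
    ∑ x ∈ A, min (M.om x c) (M.om (x + e (i, α) (-1) + e (i, β) 1) c) *
      (gr u c (x + e (i, α) (-1) + e (i, β) 1) - gr u c x) ^ 2 ≤ 4 * Q * M.NN u := by
  have s1 := M.sum_F1 u A c (i, α) (e (i, α) (-1))
  have s2 := M.sum_F1 u A c (i, β) (e (i, α) (-1))
  refine le_trans (sum_le_sum (g := fun x => 2 * Q * (M.F1 u c (i, β) (x + e (i, α) (-1)) +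
    M.F1 u c (i, α) (x + e (i, α) (-1)))) fun x _ => ?_) ?_
  swap
  · rw [← mul_sum, sum_add_distrib]; nlinarith
  have n1 := M.F1_nonneg u c (i, β) (x + e (i, α) (-1))
  have n2 := M.F1_nonneg u c (i, α) (x + e (i, α) (-1))
  have e1 : x + e (i, α) (-1) + e (i, α) 1 = x := by rw [add_assoc, ← e_add]; simp
  by_cases hab : α = β
  · rw [← hab, e1, sub_self]; rw [← hab] at n1; simp only [ne_eq, OfNat.ofNat_ne_zero,
      not_false_eq_true, zero_pow, mul_zero]; positivity
  have o1 := M.om_nonneg x c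
  have o2 := M.om_nonneg (x + e (i, α) (-1) + e (i, β) 1) c
  by_cases h1 : M.om x c = 0
  · rw [h1, min_eq_left o2, zero_mul]; positivity
  by_cases h2 : M.om (x + e (i, α) (-1) + e (i, β) 1) c = 0
  · rw [h2, min_eq_right o1, zero_mul]; positivity
  have hx := (M.om_ne h1).1
  have hz : x + e (i, α) (-1) ∈ M.box := by
    have a1 := (M.mem_box.1 (M.om_ne h2).1 (i, α)).1
    have a2 := (M.mem_box.1 hx (i, α)).2
    simp only [Pi.add_apply, e_apply, if_true, Prod.mk.injEq, hab, and_false, if_false] at a1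
    exact M.mem1 hx _ (by omega) (by omega)
  have l1 : M.Lam x ≤ Q * M.Lam (x + e (i, α) (-1)) :=
    M.Lam_le i (fun l hl => by simp [row_e, hl]) (by
      simpa only [row_add, row_e, if_true, ← sub_eq_add_neg] using h x hx)
  have l2 : M.Lam (x + e (i, α) (-1) + e (i, β) 1) = M.Lam x := M.Lam_congr fun l => by
    simp only [row_add, row_e]; split_ifs <;> omega
  have r1 : M.om x c ≤ Q * M.R (x + e (i, α) (-1)) c (i, α) := by
    rw [R, add_right_comm _ (e c 1), e1, if_pos ⟨hz, (M.om_ne h1).2⟩, M.om_eq h1, ← mul_assoc]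
    exact mul_le_mul_of_nonneg_right l1 (M.Psi_pos _).le
  have r2 : M.om (x + e (i, α) (-1) + e (i, β) 1) c ≤ Q * M.R (x + e (i, α) (-1)) c (i, β) := by
    rw [R, add_right_comm _ (e c 1), if_pos ⟨hz, (M.om_ne h2).2⟩, M.om_eq h2, ← mul_assoc, l2]
    exact mul_le_mul_of_nonneg_right l1 (M.Psi_pos _).le
  have := two_sq (a := gr u c (x + e (i, α) (-1) + e (i, β) 1) - gr u c (x + e (i, α) (-1)))
    (b := gr u c x - gr u c (x + e (i, α) (-1))) (le_min o1 o2) ((min_le_right _ _).trans r2)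
    ((min_le_left _ _).trans r1)
  rw [sub_sub_sub_cancel_right] at this
  simpa only [F1, e1] using this

/-- Bounds of the entries of a row with one marked edge. -/
def cp (i : I) (j : J) : J → ℤ := fun k => if k = j then M.cap (i, k) - 1 else M.cap (i, k)

/-- Column weights seen from a row with one marked edge. -/
def aw (z : St I J) (j : J) : J → ℤ → ℝ :=
  fun k t => M.P k (col z k + t + if k = j then 1 else 0)

theorem emb_mem {x : St I J} (hx : x ∈ M.box) {i : I} {j : J} {y : J → ℤ} {ρ : ℤ}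
    (hy : y ∈ Fb (M.cp i j) ρ) :
    zr i x + emb i y ∈ M.box ∧ zr i x + emb i y + e (i, j) 1 ∈ M.box := by
  have h1 := (mem_Fb.1 hy).1
  have h2 := M.mem_box.1 hx
  simp only [mem_box, zr, emb, Pi.add_apply, e_apply, cp, Prod.forall, Prod.mk.injEq] at *
  refine ⟨fun l k => ?_, fun l k => ?_⟩ <;>
  · have a1 := h1 k
    have a2 := h2 l k
    by_cases h : l = i
    · subst h; simp only [if_true, true_and]; split_ifs at * <;> omega
    · simpa [h] using a2

theorem fib_sum {x : St I J} (hx : x ∈ M.box) (i : I) (j : J) (ρ : ℤ) (G : St I J → ℝ) :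
    ∑ w ∈ M.box.filter (fun w => w + e (i, j) 1 ∈ M.box ∧ zr i w = zr i x ∧ row w i = ρ), G w =
      ∑ y ∈ Fb (M.cp i j) ρ, G (zr i x + emb i y) := by
  refine sum_nbij' (fun w k => w (i, k)) (fun y => zr i x + emb i y) (fun w hw => ?_)
    (fun y hy => ?_) (fun w hw => ?_) (fun y _ => ?_) (fun w hw => ?_)
  · obtain ⟨h1, h2, -, h4⟩ := mem_filter.1 hw
    refine mem_Fb.2 ⟨fun k => ?_, h4⟩
    have a1 := M.mem_box.1 h1 (i, k)
    have a2 := M.mem_box.1 h2 (i, k)
    simp only [Pi.add_apply, e_apply, cp, Prod.mk.injEq, true_and] at *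
    split_ifs at * <;> omega
  · refine mem_filter.2 ⟨(M.emb_mem hx hy).1, (M.emb_mem hx hy).2, ?_, ?_⟩
    · funext c; simp only [zr, emb, Pi.add_apply]; split_ifs <;> simp
    · rw [row_add, row_zr, row_emb, if_pos rfl, if_pos rfl, zero_add, (mem_Fb.1 hy).2]
  · rw [← (mem_filter.1 hw).2.2.1, zr_emb]
  · funext k; simp [zr, emb]
  · rw [← (mem_filter.1 hw).2.2.1, zr_emb]

theorem om_emb {x : St I J} (hx : x ∈ M.box) {i : I} {j : J} {y : J → ℤ}
    (hy : y ∈ Fb (M.cp i j) (row x i)) :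
    M.om (zr i x + emb i y) (i, j) = M.Lam x * nu (M.aw (zr i x) j) y := by
  rw [om, if_pos (M.emb_mem hx hy), M.Lam_congr (x := x) fun l => ?_]
  · simp only [Psi, nu, aw, col_add, col_emb, col_e]
  · rw [row_add, row_zr, row_emb, (mem_Fb.1 hy).2]
    split_ifs with h
    · rw [h, zero_add]
    · rw [add_zero]

theorem fib_ineq (hF : FibStmt J) {x : St I J} (hx : x ∈ M.box) (i : I) (j : J)
    (g : (J → ℤ) → Prop) [DecidablePred g] {K : ℝ} (hK : 0 ≤ K)
    (h : ∑ y ∈ Fb (M.cp i j) (row x i), nu (M.aw (zr i x) j) y ≤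
      K * ∑ y ∈ (Fb (M.cp i j) (row x i)).filter g, nu (M.aw (zr i x) j) y) :
    ∑ w ∈ M.box.filter (fun w => w + e (i, j) 1 ∈ M.box ∧ zr i w = zr i x ∧ row w i = row x i),
      M.om w (i, j) * gr u (i, j) w ^ 2 ≤
    ∑ w ∈ M.box.filter (fun w => w + e (i, j) 1 ∈ M.box ∧ zr i w = zr i x ∧ row w i = row x i),
      2 * K * (2 * (Fintype.card J : ℝ) ^ 2 * ((row x i : ℝ) + 1) ^ 2 * ∑ α, ∑ β,
        min (M.om w (i, j)) (M.om (w + e (i, α) (-1) + e (i, β) 1) (i, j)) *
          (gr u (i, j) (w + e (i, α) (-1) + e (i, β) 1) - gr u (i, j) w) ^ 2 +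
        if g (fun k => w (i, k)) then M.om w (i, j) * gr u (i, j) w ^ 2 else 0) := by
  have apos : ∀ k t, 0 < M.aw (zr i x) j k t := fun _ _ => M.Ppos _ _
  have npos : ∀ y, 0 < nu (M.aw (zr i x) j) y := fun _ => prod_pos fun _ _ => apos _ _
  have h1 := hF (M.cp i j) (M.aw (zr i x) j) apos (fun k t => by
    have := M.Plc k (col (zr i x) k + t + if k = j then 1 else 0)
    simp only [aw]
    convert this using 3 <;> ring) (row x i) (fun y => gr u (i, j) (zr i x + emb i y))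
  rw [mul_right_comm, mul_comm] at h1
  have h2 := fib_combine (filter_subset g _) _ npos hK (by
    refine mul_nonneg (by positivity) (sum_nonneg fun _ _ => sum_nonneg fun _ _ =>
      sum_nonneg fun _ _ => mul_nonneg (le_min (npos _).le (npos _).le) (sq_nonneg _))) h1 h
  have l0 := M.Lam_pos x
  rw [M.fib_sum hx, M.fib_sum hx, ← mul_sum, sum_add_distrib, ← mul_sum,
    sum_congr rfl fun y hy => by rw [M.om_emb hx hy, mul_assoc], ← mul_sum]
  refine (mul_le_mul_of_nonneg_left h2 l0.le).trans ?_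
  rw [mul_left_comm, mul_add, mul_left_comm]
  refine mul_le_mul_of_nonneg_left (add_le_add (mul_le_mul_of_nonneg_left ?_ (by positivity))
    (le_of_eq ?_)) (by positivity)
  · rw [sum_comm (s := Fb _ _), mul_sum]
    refine sum_le_sum fun α _ => ?_
    rw [sum_comm (s := Fb _ _), mul_sum]
    refine sum_le_sum fun β _ => ?_
    rw [sum_filter, mul_sum]
    refine sum_le_sum fun y hy => ?_
    split_ifs with h3
    · rw [add_assoc (zr i x), add_assoc (zr i x), ← emb_mv, M.om_emb hx hy, M.om_emb hx h3,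
        ← mul_min_of_nonneg _ _ l0.le, mul_assoc]
    · rw [mul_zero]
      exact mul_nonneg (le_min (M.om_nonneg _ _) (M.om_nonneg _ _)) (sq_nonneg _)
  · rw [sum_filter, mul_sum]
    refine sum_congr rfl fun y hy => ?_
    have : (fun k => (zr i x + emb i y) (i, k)) = y := by funext k; simp [zr, emb]
    rw [this, M.om_emb hx hy]
    split_ifs
    · ring
    · simp

end Mdl

end Vale.Agent.P328
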