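import Vale.Agent.P328.Gap1
import Vale.Agent.P328.Facts2

/-!
Energy bounds: reduction to good states, cells of small rows or columns.
-/

namespace Vale.Agent.P328

open Finset

variable {I J : Type} [Fintype I] [Fintype J] [DecidableEq I] [DecidableEq J]

namespace Par

variable (p : Par I J) (u : St I J → ℝ)

/-- States with controlled row sums. -/
def good (i : I) (D : ℕ) (x : St I J) : Prop :=
  (∀ l, p.dl l ≤ D → row x l ≤ p.rh l + p.aa l) ∧ (p.q ^ 13 ≤ p.rh i ∨ (p.rh i : ℤ) ≤ row x i)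

instance (i : I) (D : ℕ) : DecidablePred (p.good i D) := fun _ => by unfold good; infer_instance

theorem good_congr {i : I} {D : ℕ} {x y : St I J} (h : ∀ l, row y l = row x l)
    (hx : p.good i D x) : p.good i D y := by
  unfold good at *; simpa only [h] using hx

theorem big_entry {x : St I J} {l : I} (h : (p.rh l : ℤ) + p.aa l < row x l) :
    ∃ k, (p.dl l : ℤ) ≤ x (l, k) := by
  by_contra h'
  push Not at h'
  have h1 : row x l ≤ Fintype.card J * ((p.dl l : ℤ) - 1) := by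
    simpa [row] using sum_le_card_nsmul univ (fun k => x (l, k)) ((p.dl l : ℤ) - 1) fun k _ => by
      have := h' k; omega
  unfold dl at h1
  split_ifs at h1 with hb
  · have h2 := (p.div_facts (k := 8) hb).2.1
    have h3 := p.mn_le.2.2.2
    have h4 : Fintype.card J * (p.q * p.hh l) ≤ p.rh l := by
      refine le_trans ?_ h2
      have : p.q * p.q ≤ p.q ^ 5 := by
        rw [← sq]; exact Nat.pow_le_pow_right p.q_pos (by norm_num)
      calc _ ≤ p.q * (p.q * p.hh l) := by gcongr; omega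
        _ = p.q * p.q * p.hh l := by ring
        _ ≤ _ := Nat.mul_le_mul_right _ this
    zify at h4
    rw [mul_sub] at h1
    push_cast at h1
    omega
  · simp at h1; omega

theorem split (i : I) (j : J) (D : ℕ) : p.mdl.En u (i, j) ≤
    2 * p.mdl.EnOn u (p.mdl.box.filter (p.good i D)) (i, j) +
      (p.q * D ^ 2 + 4 * p.q ^ 2) * p.mdl.NN u := by
  have hq := p.qR_pos
  have n0 := p.mdl.NN_nonneg u
  have n1 := p.mdl.En_nonneg u (i, j)
  obtain ⟨B, hB⟩ : ∃ B, B = p.mdl.box.filter fun x => ¬ p.q ^ 13 ≤ p.rh i ∧ row x i < p.rh i :=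
    ⟨_, rfl⟩
  obtain ⟨C, hC⟩ : ∃ C, C = p.mdl.box.filter fun x =>
    ∃ l, p.dl l ≤ D ∧ (p.rh l : ℤ) + p.aa l < row x l := ⟨_, rfl⟩
  have h1 := p.mdl.EnOn_two u p.mdl.box (p.mdl.box.filter (p.good i D)) (B ∪ C) (i, j)
    fun x hx _ => by
      simp only [hB, hC, mem_union, mem_filter, hx, true_and, good]
      by_cases h : ∃ l, p.dl l ≤ D ∧ (p.rh l : ℤ) + p.aa l < row x l
      · exact Or.inr (Or.inr h)
      · push Not at h
        by_cases h' : p.q ^ 13 ≤ p.rh i ∨ (p.rh i : ℤ) ≤ row x i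
        · exact Or.inl ⟨h, h'⟩
        · exact Or.inr (Or.inl (by omega))
  have h2 := p.mdl.EnOn_two u (B ∪ C) B C (i, j) fun x hx _ => mem_union.1 hx
  have h3 := p.mdl.pushUp u B (i, j) (i, p.ns) hq (pow_pos hq 2) fun x hx h0 => by
    rw [hB, mem_filter] at hx
    have a1 := (p.mdl.om_ne h0).2
    have a2 := p.cap_ns (p.ne_ms hx.1 a1)
    have a3 := p.le_row a1 i p.ns
    have a4 := (p.mdl.mem_box.1 a1 (i, p.ns)).1
    have a5 := p.rh_le i
    rw [row_add, row_e, if_pos rfl] at a3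
    exact ⟨p.mdl.mem1 a1 _ (by omega) (by omega), p.P_step _ (p.col_le a1 _),
      p.L_up3 hx.2.1 hx.2.2⟩
  have h4 := p.mdl.EnOn_cover u C (fun d : I × J => p.mdl.box.filter fun x => p.dl d.1 ≤ D ∧
    (p.rh d.1 : ℤ) + p.aa d.1 < row x d.1 ∧ (p.dl d.1 : ℤ) ≤ x d) (i, j) fun x hx _ => by
      rw [hC, mem_filter] at hx
      obtain ⟨hx, l, a1, a2⟩ := hx
      obtain ⟨k, hk⟩ := p.big_entry a2
      exact ⟨(l, k), mem_filter.2 ⟨hx, a1, a2, hk⟩⟩
  have h5 := h4.trans (sum_le_card_nsmul _ _ (2 / p.q * p.mdl.En u (i, j) + 2 * D ^ 2 * p.mdl.NN u)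
    fun d _ => by
      by_cases hd : p.dl d.1 ≤ D
      · refine (p.mdl.pushDown u _ (i, j) d (p.dl d.1) hq fun x hx _ => ?_).trans ?_
        · obtain ⟨-, -, a1, a2⟩ := mem_filter.1 hx
          have := p.dl_le d.1
          exact ⟨a2, fun t t0 t1 => p.L_mono _ (by omega) (by omega), p.L_down _ a1⟩
        · gcongr
      · simp only [hd, false_and, filter_false, Mdl.EnOn, sum_empty]; positivity)
  have h6 : 64 * (Fintype.card (I × J) : ℝ) ≤ p.q := by
    rw [Fintype.card_prod]; exact_mod_cast p.mn_le.1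
  rw [card_univ, nsmul_eq_mul, mul_add] at h5
  have h7 : (Fintype.card (I × J) : ℝ) * (2 / p.q * p.mdl.En u (i, j)) ≤
      1 / 4 * p.mdl.En u (i, j) := by
    rw [← mul_assoc]
    refine mul_le_mul_of_nonneg_right ?_ n1
    rw [← mul_div_assoc, div_le_iff₀ hq]; linarith
  have h8 : 2 / p.q * p.mdl.En u (i, j) ≤ 1 / 4 * p.mdl.En u (i, j) := by
    refine mul_le_mul_of_nonneg_right ?_ n1
    rw [div_le_iff₀ hq]; linarith [p.qR]
  have h9 := mul_le_mul_of_nonneg_right h6 (show 0 ≤ (D : ℝ) ^ 2 * p.mdl.NN u by positivity)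
  have h10 : 0 ≤ (Fintype.card (I × J) : ℝ) * ((D : ℝ) ^ 2 * p.mdl.NN u) := by positivity
  change p.mdl.En u (i, j) ≤ _ at h1
  nlinarith

theorem good_ddl (i : I) (j : J) {D : ℕ} (hD : 1 ≤ D) (js : St I J → J)
    (hjs : ∀ y k, js (y - e (i, k) 1) = js (y - e (i, j) 1)) :
    p.mdl.EnOn u (p.mdl.box.filter fun x => p.good i D x ∧ js x = j) (i, j) ≤
      4 * p.q * ((p.rh i : ℝ) + 1) ^ 2 * p.mdl.NN u + 2 * Fintype.card J *
        ∑ k, p.mdl.EnOn u (p.mdl.box.filter fun x => p.good i D x ∧ js x ≠ k) (i, k) := by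
  have hq := p.qR_pos
  have := p.mdl.ddl u i j (p.good i D) js
    (fun y k => p.good_congr fun l => by simp only [row_sub, row_e]) hjs
    (ζ := 1 / (2 * p.q * ((p.rh i : ℝ) + 1) ^ 2)) (by positivity) fun x hx _ hg => by
      refine p.dL_lo i (p.row_nn hx i) (p.row_le hx i) ?_
      by_cases hb : p.q ^ 13 ≤ p.rh i
      · exact Or.inl hb
      · have h1 := hg.1 i (by rw [dl, if_neg hb]; exact hD)
        have h2 := hg.2.resolve_left hb
        rw [aa, mu, if_neg hb] at h1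
        exact Or.inr (by omega)
  refine this.trans (le_of_eq ?_)
  congr 2
  field_simp
  norm_num

theorem T2 (A : Finset (St I J)) (i : I) {j : J} (hj : j ≠ p.ns)
    (h : p.q ^ 13 * (p.mdl.cap (i, j) + 1) ≤ p.c p.ns) :
    p.mdl.EnOn u A (i, j) ≤ 14 * ((p.mdl.cap (i, j) : ℝ) + 1) ^ 2 * p.mdl.NN u := by
  have h1 := p.mdl.EnOn_two u A
    (A.filter fun x => x (i, j) + x (i, p.ns) + 1 ≤ p.mdl.cap (i, p.ns))
    (A.filter fun x => ¬ x (i, j) + x (i, p.ns) + 1 ≤ p.mdl.cap (i, p.ns)) (i, j) fun x hx _ => by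
      simp only [mem_filter, hx, true_and]; exact em _
  have h2 := p.mdl.exch u (A.filter fun x => x (i, j) + x (i, p.ns) + 1 ≤ p.mdl.cap (i, p.ns)) i hj
    zero_le_two fun x hx h0 => by
      refine ⟨(mem_filter.1 hx).2, ?_⟩
      have a1 := p.mdl.om_bd h0
      rw [add_assoc]
      refine p.P_width _ (by omega) (p.col_le (p.mdl.om_ne h0).1 _) (le_trans ?_ h)
      exact mul_le_mul_of_nonneg_left (by omega) (by positivity)
  have h3 := p.mdl.down u (A.filter fun x => ¬ x (i, j) + x (i, p.ns) + 1 ≤ p.mdl.cap (i, p.ns))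
    (i, j) fun x hx h0 t t0 t1 => by
      have a0 := p.mdl.om_ne h0
      have a1 := p.mdl.om_bd h0
      have a2 := (mem_filter.1 hx).2
      have a3 := p.ne_ms a0.1 a0.2
      have a4 := p.cap_ns a3
      have a5 := p.cap_ne a3 hj
      have a6 := p.le_row2 a0.1 i hj
      have a7 := p.aa_le' i
      have a8 := p.rh_le i
      unfold aa at a7
      exact p.L_mono _ (by dsimp only; omega) (by omega)
  linarith

theorem Nstar {i : I} (hi : i ≠ p.ms) (h : p.q ^ 13 * (4 * p.r i + 6) ≤ p.c p.ns) :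
    p.mdl.En u (i, p.ns) ≤ 5 * p.q ^ 2 * ((p.r i : ℝ) + 1) ^ 2 * p.mdl.NN u := by
  have hq := p.qR
  have n0 := p.mdl.NN_nonneg u
  have h1 := p.split u i p.ns 1
  have h2 := p.good_ddl u i p.ns le_rfl (fun _ => p.ns) fun _ _ => rfl
  simp only [and_true, p.rh_eq hi] at h2
  have h3 := sum_le_card_nsmul univ (fun k => p.mdl.EnOn u
    (p.mdl.box.filter fun x => p.good i 1 x ∧ p.ns ≠ k) (i, k))
    (14 * (6 * ((p.r i : ℝ) + 1)) ^ 2 * p.mdl.NN u) fun k _ => by
      by_cases hk : k = p.ns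
      · simp only [hk, ne_eq, not_true_eq_false, and_false, filter_false, Mdl.EnOn, sum_empty]
        positivity
      have a1 := (p.cap_ne hi hk).2
      have a2 := p.mdl.capnn (i, k)
      have a3 : (p.mdl.cap (i, k) : ℝ) + 1 ≤ 6 * (p.r i + 1) := by
        exact_mod_cast (by omega : p.mdl.cap (i, k) + 1 ≤ 6 * (p.r i + 1))
      have a4 : (0 : ℝ) ≤ p.mdl.cap (i, k) := by exact_mod_cast a2
      have h' : (p.q : ℤ) ^ 13 * (4 * p.r i + 6) ≤ p.c p.ns := by exact_mod_cast h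
      refine (p.T2 u _ i hk (le_trans ?_ h')).trans (by gcongr)
      exact mul_le_mul_of_nonneg_left (by omega) (by positivity)
  rw [card_univ, nsmul_eq_mul] at h3
  have h4 : 64 * ((Fintype.card J : ℝ) * Fintype.card J) ≤ p.q := by exact_mod_cast p.mn_le.2.1
  have h5 := mul_le_mul_of_nonneg_left h3 (show (0 : ℝ) ≤ 2 * Fintype.card J by positivity)
  have r1 : (1 : ℝ) ≤ (p.r i + 1) ^ 2 := one_le_pow₀ (by linarith [Nat.cast_nonneg (α := ℝ) (p.r i)])
  generalize ((p.r i : ℝ) + 1) = r at *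
  have h6 := mul_le_mul_of_nonneg_right h4 (show 0 ≤ r ^ 2 * p.mdl.NN u by positivity)
  have h7 := mul_le_mul_of_nonneg_right r1 (show 0 ≤ p.q * p.mdl.NN u by positivity)
  have h8 := mul_le_mul_of_nonneg_right r1 (show 0 ≤ p.q ^ 2 * p.mdl.NN u by positivity)
  have h9 := mul_le_mul_of_nonneg_right hq (show 0 ≤ p.q * r ^ 2 * p.mdl.NN u by positivity)
  have h10 : 0 ≤ p.q * r ^ 2 * p.mdl.NN u := by positivity
  push_cast at h1
  nlinarith

end Par

end Vale.Agent.P328
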