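import Vale.Agent.P328.Gap2

/-!
The crude energy bound and the Bochner bound.
-/

namespace Vale.Agent.P328

open Finset

variable {I J : Type} [Fintype I] [Fintype J] [DecidableEq I] [DecidableEq J]

theorem sum_le_fiber {X V : Type} [DecidableEq V] (A : Finset X) (φ : X → V) (F G : X → ℝ)
    (h : ∀ x ∈ A, ∑ w ∈ A.filter (fun w => φ w = φ x), F w ≤
      ∑ w ∈ A.filter (fun w => φ w = φ x), G w) : ∑ w ∈ A, F w ≤ ∑ w ∈ A, G w := by
  rw [← sum_fiberwise_of_maps_to (s := A) (t := A.image φ) (g := φ) fun _ => mem_image_of_mem φ,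
    ← sum_fiberwise_of_maps_to (s := A) (t := A.image φ) (g := φ) fun _ => mem_image_of_mem φ]
  refine sum_le_sum fun v hv => ?_
  obtain ⟨x, hx, rfl⟩ := mem_image.1 hv
  exact h x hx

namespace Par

variable (p : Par I J) (u : St I J → ℝ)

/-- A column with the largest room. -/
noncomputable def js (z : St I J) : J :=
  Classical.choose (exists_max_image univ (fun k => (p.cc k : ℤ) - col z k) ⟨p.ns, mem_univ _⟩)

theorem js_spec (z : St I J) (k : J) : (p.cc k : ℤ) - col z k ≤ p.cc (p.js z) - col z (p.js z) :=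
  (Classical.choose_spec (exists_max_image univ (fun k => (p.cc k : ℤ) - col z k)
    ⟨p.ns, mem_univ _⟩)).2 k (mem_univ k)

omit [DecidableEq J] in
theorem dl_le_N (l : I) : p.dl l ≤ ∑ l, p.r l + 1 := by
  have h1 := p.aa_le' l
  have h2 := p.rh_le l
  have h3 := p.r_le l
  unfold aa mu at h1
  unfold dl
  split_ifs at * <;> omega

theorem room {x : St I J} {i : I} (hi : i ≠ p.ms) (h : ∀ l, row x l ≤ p.rh l + p.aa l) :
    2 * row x i ≤ ∑ k, ((p.cc k : ℤ) - col (zr i x) k) := by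
  have h1 : ∑ k, (p.cc k : ℤ) = ∑ l, (p.r l : ℤ) + 2 * p.SA := by
    have : ∀ k, (p.cc k : ℤ) = p.c k + if k = p.ns then 2 * (p.SA : ℤ) else 0 := fun k => by
      unfold cc; split_ifs <;> simp
    simp only [this, sum_add_distrib, sum_ite_eq', mem_univ, if_true]
    congr 1
    exact_mod_cast p.hsum.symm
  have h2 : ∑ k, col (zr i x) k = ∑ l, row (zr i x) l := sum_comm
  have h3 : ∑ l, row (zr i x) l ≤ ∑ l, ((p.r l : ℤ) + p.aa l - (if l = p.ms then (p.r l : ℤ) else 0)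
      - if l = i then (p.r l : ℤ) + p.aa l else 0) := sum_le_sum fun l _ => by
    have := h l
    rw [row_zr]
    unfold rh at this
    split_ifs at * with a b
    · exact absurd (a ▸ b) hi
    all_goals omega
  simp only [sum_sub_distrib, sum_add_distrib, sum_ite_eq', mem_univ, if_true] at h3
  have h4 : ∑ l, (p.aa l : ℤ) = p.SA := by simp [SA]
  have h5 : p.aa i ≤ p.SA := single_le_sum (f := p.aa) (fun _ _ => Nat.zero_le _) (mem_univ i)
  have h6 := h i
  have h7 := p.hms i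
  have h8 := p.rh_le i
  rw [sum_sub_distrib, h1, h2]
  omega

theorem rat_ok (hR : RatStmt J) {x : St I J} (hx : x ∈ p.mdl.box) {i : I} (hi : i ≠ p.ms) {j : J}
    (h : ∀ l, row x l ≤ p.rh l + p.aa l) (hj : p.js (zr i x) ≠ j) :
    ∑ y ∈ Fb (p.mdl.cp i j) (row x i), nu (p.mdl.aw (zr i x) j) y ≤ (1 + (p.q : ℝ) ^ 13) ^ 2 *
      ∑ y ∈ (Fb (p.mdl.cp i j) (row x i)).filter (fun y => y j + y (p.js (zr i x)) ≤
        p.cc (p.js (zr i x)) - col (zr i x) (p.js (zr i x)) + 2 * p.eta (p.js (zr i x))),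
        nu (p.mdl.aw (zr i x) j) y := by
  have h1 := p.room hi h
  have h2 := p.js_spec (zr i x)
  have h0 := p.row_nn hx i
  have hz : ∀ k, 0 ≤ col (zr i x) k := fun k => sum_nonneg fun l _ => by
    unfold zr; split_ifs
    exacts [le_rfl, (p.mdl.mem_box.1 hx _).1]
  generalize p.js (zr i x) = s at *
  generalize zr i x = z at *
  have h3 : 2 * row x i ≤ Fintype.card J * ((p.cc s : ℤ) - col z s) :=
    h1.trans (by simpa using sum_le_card_nsmul univ _ _ fun k _ => h2 k)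
  have h4 : 0 ≤ (p.cc s : ℤ) - col z s := by
    by_contra h5
    have : 0 < (Fintype.card J : ℤ) := by exact_mod_cast Fintype.card_pos_iff.2 ⟨s⟩
    nlinarith
  have r1 := h i
  have r2 := p.aa_le' i
  have r3 := p.rh_le i
  refine hR _ _ (fun _ _ => p.mdl.Ppos _ _) (fun k a b hab => p.mdl.Panti k (by omega)) j s hj.symm
    (fun k => min (max ((p.cc k : ℤ) - col z k) 0) (p.mdl.cap (i, k))) (fun k hk _ => ?_) _ _ _ h4
    (by positivity) ?_ _ (by positivity) ?_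
  · have := p.mdl.capnn (i, k)
    refine ⟨by omega, by simp only [Mdl.cp, if_neg hk]; omega, fun t t0 t1 => ?_⟩
    rcases t0.eq_or_lt with rfl | t2
    · rfl
    · simp only [Mdl.aw, if_neg hk]
      rw [p.P_flat k (by omega), p.P_flat k (by omega)]
  · have n0 : ∀ k ∈ (univ.erase j).erase s, 0 ≤ min (max ((p.cc k : ℤ) - col z k) 0)
        (p.mdl.cap (i, k)) := fun k _ => by have := p.mdl.capnn (i, k); omega
    by_cases h5 : ∃ k ∈ (univ.erase j).erase s, p.mdl.cap (i, k) < p.cc k - col z k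
    · obtain ⟨k, hk, h6⟩ := h5
      have a1 := single_le_sum n0 hk
      have a2 := h2 k
      have a3 := hz k
      have a6 := p.mdl.capnn (i, k)
      refine le_trans ?_ a1
      by_cases h7 : k = p.ns
      · have := p.cap_ns hi
        rw [← h7] at this
        omega
      · have a4 := p.cap_ne hi h7
        have a5 : p.cc k = p.c k := if_neg h7
        omega
    · push Not at h5
      have a1 : ∑ k ∈ (univ.erase j).erase s, ((p.cc k : ℤ) - col z k) ≤ ∑ k ∈ (univ.erase j).erase s,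
          min (max ((p.cc k : ℤ) - col z k) 0) (p.mdl.cap (i, k)) := sum_le_sum fun k hk => by
        have := h5 k hk; omega
      rw [← add_sum_erase _ _ (mem_univ j), ← add_sum_erase _ _ (mem_erase.2 ⟨hj, mem_univ s⟩)] at h1
      have := h2 j
      omega
  · have a1 := (p.eta_le s).2
    have a2 := (p.cc_le s).2
    have a3 := hz s
    have a4 : (Fintype.card J : ℤ) * (p.cc s - col z s) ≤ Fintype.card J * (2 * p.c s) :=
      mul_le_mul_of_nonneg_left (by omega) (by positivity)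
    have a5 : row x i + 1 ≤ p.q ^ 13 * (p.eta s + 1) := by
      zify at a1; nlinarith
    exact_mod_cast a5

theorem near (i : I) (j k : J) : p.mdl.EnOn u (p.mdl.box.filter fun x => k ≠ j ∧
    row x i ≤ p.rh i + p.aa i ∧ x (i, j) + x (i, k) ≤ p.cc k - col (zr i x) k + 2 * p.eta k) (i, j) ≤
    (16 * ((∑ l, p.r l : ℕ) + 1)) ^ 2 * (6 * p.q ^ 2 * p.mdl.NN u) := by
  have n0 := p.mdl.NN_nonneg u
  by_cases hk : k = j
  · simp only [hk, ne_eq, not_true_eq_false, false_and, filter_false, Mdl.EnOn, sum_empty]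
    positivity
  refine (p.mdl.exch u _ i (Ne.symm hk) (Q := p.q ^ 2) (by positivity) fun x hx h0 => ?_).trans ?_
  · obtain ⟨a0, -, a1, a2⟩ := mem_filter.1 hx
    have a3 := p.ne_ms a0 (p.mdl.om_ne h0).2
    have a4 := p.le_row2 a0 i (Ne.symm hk)
    have a5 := p.aa_le' i
    have a6 := p.rh_le i
    have a7 := col_zr i x k
    have a8 : 0 ≤ col (zr i x) k := sum_nonneg fun l _ => by
      unfold zr; split_ifs
      exacts [le_rfl, (p.mdl.mem_box.1 a0 _).1]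
    refine ⟨?_, (p.P_le_one _ _).trans ((p.P_eta k).trans (mul_le_mul_of_nonneg_left
      (p.mdl.Panti k (by omega)) (by positivity)))⟩
    by_cases h7 : k = p.ns
    · have := p.cap_ns a3
      rw [← h7] at this
      omega
    · have b4 := p.cap_ne a3 h7
      have b5 : p.cc k = p.c k := if_neg h7
      have b6 := (p.eta_le k).1
      omega
  · have a1 := p.cap_le i j
    have a2 := p.rh_le i
    have a3 := p.r_le i
    have a4 : (p.mdl.cap (i, j) : ℝ) + 1 ≤ 16 * ((∑ l, p.r l : ℕ) + 1) := by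
      exact_mod_cast (by omega : p.mdl.cap (i, j) + 1 ≤ 16 * ((∑ l, p.r l : ℕ) + 1))
    have a5 : (0 : ℝ) ≤ p.mdl.cap (i, j) := by exact_mod_cast p.mdl.capnn (i, j)
    gcongr

theorem T3 (hF : FibStmt J) (hR : RatStmt J) (i : I) (j : J) :
    p.mdl.EnOn u (p.mdl.box.filter fun x => p.good i (∑ l, p.r l + 1) x ∧ p.js (zr i x) ≠ j) (i, j)
      ≤ p.q ^ 35 * ((∑ l, p.r l : ℕ) + 1) ^ 2 * p.mdl.NN u := by
  obtain ⟨A, hA⟩ : ∃ A, A = p.mdl.box.filter fun x => x + e (i, j) 1 ∈ p.mdl.box ∧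
    p.good i (∑ l, p.r l + 1) x ∧ p.js (zr i x) ≠ j := ⟨_, rfl⟩
  obtain ⟨N, hN⟩ : ∃ N : ℝ, N = (∑ l, p.r l : ℕ) + 1 := ⟨_, rfl⟩
  obtain ⟨K, hK⟩ : ∃ K : ℝ, K = (1 + (p.q : ℝ) ^ 13) ^ 2 := ⟨_, rfl⟩
  have K0 : 0 ≤ K := by rw [hK]; positivity
  have n0 := p.mdl.NN_nonneg u
  have h1 := p.mdl.EnOn_two u (p.mdl.box.filter fun x => p.good i (∑ l, p.r l + 1) x ∧
    p.js (zr i x) ≠ j) A ∅ (i, j) fun x hx h0 => Or.inl (by
      rw [hA]; exact mem_filter.2 ⟨(mem_filter.1 hx).1, (p.mdl.om_ne h0).2, (mem_filter.1 hx).2⟩)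
  have h2 : p.mdl.EnOn u A (i, j) ≤ ∑ w ∈ A, 2 * K * (2 * (Fintype.card J : ℝ) ^ 2 * (2 * N) ^ 2 *
      ∑ α, ∑ β, min (p.mdl.om w (i, j)) (p.mdl.om (w + e (i, α) (-1) + e (i, β) 1) (i, j)) *
        (gr u (i, j) (w + e (i, α) (-1) + e (i, β) 1) - gr u (i, j) w) ^ 2 +
      if w (i, j) + w (i, p.js (zr i w)) ≤ p.cc (p.js (zr i w)) - col (zr i w) (p.js (zr i w)) +
        2 * p.eta (p.js (zr i w)) then p.mdl.om w (i, j) * gr u (i, j) w ^ 2 else 0) := by
    refine sum_le_fiber A (fun w => (zr i w, row w i)) _ _ fun x hx => ?_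
    rw [hA] at hx
    obtain ⟨a1, a2, a3, a4⟩ := mem_filter.1 hx
    have a5 := fun l => a3.1 l (p.dl_le_N l)
    have e1 : A.filter (fun w => (zr i w, row w i) = (zr i x, row x i)) = p.mdl.box.filter
        (fun w => w + e (i, j) 1 ∈ p.mdl.box ∧ zr i w = zr i x ∧ row w i = row x i) := by
      ext w
      simp only [hA, mem_filter, Prod.mk.injEq]
      refine ⟨fun h => ⟨h.1.1, h.1.2.1, h.2⟩, fun h => ⟨⟨h.1, h.2.1, ?_, by rwa [h.2.2.1]⟩, h.2.2⟩⟩
      refine p.good_congr (fun l => ?_) a3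
      have := congrArg (row · l) h.2.2.1
      simp only [row_zr] at this
      split_ifs at this with hl
      · rw [hl, h.2.2.2]
      · exact this
    rw [e1]
    refine (p.mdl.fib_ineq u hF a1 i j _ K0 (hK ▸ p.rat_ok hR a1 (p.ne_ms a1 a2) a5 a4)).trans
      (sum_le_sum fun w hw => ?_)
    rw [(mem_filter.1 hw).2.2.1]
    have b1 : (row x i : ℝ) + 1 ≤ 2 * N := by
      have c1 := a5 i
      have c2 := p.aa_le' i
      have c3 := p.rh_le i
      have c4 := p.r_le i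
      rw [hN]
      exact_mod_cast (by omega : row x i + 1 ≤ 2 * ((∑ l, p.r l : ℕ) + 1))
    have b2 : (0 : ℝ) ≤ row x i := by exact_mod_cast p.row_nn a1 i
    have b3 : 0 ≤ ∑ α, ∑ β, min (p.mdl.om w (i, j))
        (p.mdl.om (w + e (i, α) (-1) + e (i, β) 1) (i, j)) *
        (gr u (i, j) (w + e (i, α) (-1) + e (i, β) 1) - gr u (i, j) w) ^ 2 :=
      sum_nonneg fun _ _ => sum_nonneg fun _ _ =>
        mul_nonneg (le_min (p.mdl.om_nonneg _ _) (p.mdl.om_nonneg _ _)) (sq_nonneg _)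
    gcongr
  rw [← mul_sum, sum_add_distrib, ← mul_sum, ← sum_filter, sum_comm] at h2
  have h3 := sum_le_card_nsmul univ (fun α => ∑ w ∈ A, ∑ β, min (p.mdl.om w (i, j))
      (p.mdl.om (w + e (i, α) (-1) + e (i, β) 1) (i, j)) *
        (gr u (i, j) (w + e (i, α) (-1) + e (i, β) 1) - gr u (i, j) w) ^ 2)
      (Fintype.card J * (4 * p.q ^ 6 * p.mdl.NN u)) fun α _ => by
    rw [sum_comm, ← nsmul_eq_mul]
    exact sum_le_card_nsmul _ _ _ fun β _ => p.mdl.edge u A i (i, j) α β (by positivity)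
      fun x hx => p.L_ratio i (p.row_nn hx i) (p.row_le hx i)
  have h4 := (p.mdl.EnOn_cover u (A.filter fun w => w (i, j) + w (i, p.js (zr i w)) ≤
    p.cc (p.js (zr i w)) - col (zr i w) (p.js (zr i w)) + 2 * p.eta (p.js (zr i w))) _ (i, j)
    fun x hx _ => by
      rw [hA, mem_filter, mem_filter] at hx
      exact ⟨p.js (zr i x), mem_filter.2 ⟨hx.1.1, hx.1.2.2.2, hx.1.2.2.1.1 i (p.dl_le_N i), hx.2⟩⟩).trans
    (sum_le_card_nsmul _ _ _ fun k _ => p.near u i j k)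
  rw [card_univ, nsmul_eq_mul] at h3 h4
  rw [← hN] at h4 ⊢
  rw [Mdl.EnOn.eq_1 _ _ ∅, sum_empty, add_zero] at h1
  refine h1.trans (h2.trans ((mul_le_mul_of_nonneg_left (add_le_add
    (mul_le_mul_of_nonneg_left h3 (by positivity)) h4) (by positivity)).trans ?_))
  have hq := p.qR
  have c1 : 64 * ((Fintype.card J : ℝ) * Fintype.card J) ≤ p.q := by exact_mod_cast p.mn_le.2.1
  have c2 : (Fintype.card J : ℝ) ≤ p.q := by
    have := p.mn_le.2.2.2; exact_mod_cast (by omega : Fintype.card J ≤ p.q)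
  have c0 : (0 : ℝ) ≤ Fintype.card J := by positivity
  clear h1 h2 h3 h4
  generalize (Fintype.card J : ℝ) = n at *
  generalize (p.q : ℝ) = Q at *
  have q1 : (1 : ℝ) ≤ Q := by linarith
  have c3 : K ≤ (2 * Q ^ 13) ^ 2 := by
    rw [hK]; gcongr; linarith [one_le_pow₀ (n := 13) q1]
  have c4 : 32 * (n * n) ^ 2 ≤ Q ^ 2 := by nlinarith [mul_self_nonneg n]
  have c5 : 1536 * n * Q ^ 2 ≤ Q ^ 8 := by
    have : Q ^ 2 ≤ Q ^ 5 := pow_le_pow_right₀ q1 (by norm_num)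
    have : 1536 ≤ Q ^ 5 := by nlinarith
    calc _ ≤ Q ^ 5 * Q * Q ^ 2 := by gcongr
      _ = _ := by ring
  calc _ = 2 * K * (32 * (n * n) ^ 2 * Q ^ 6 + 1536 * n * Q ^ 2) * (N ^ 2 * p.mdl.NN u) := by ring
    _ ≤ 2 * (2 * Q ^ 13) ^ 2 * (Q ^ 2 * Q ^ 6 + Q ^ 8) * (N ^ 2 * p.mdl.NN u) := by gcongr
    _ = 16 * Q ^ 34 * (N ^ 2 * p.mdl.NN u) := by ring
    _ ≤ Q * Q ^ 34 * (N ^ 2 * p.mdl.NN u) := by gcongr; linarith
    _ = _ := by ring

theorem crude (hF : FibStmt J) (hR : RatStmt J) (i : I) (j : J) :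
    p.mdl.En u (i, j) ≤ p.q ^ 37 * ((∑ l, p.r l : ℕ) + 1) ^ 2 * p.mdl.NN u := by
  have n0 := p.mdl.NN_nonneg u
  have h1 := p.split u i j (∑ l, p.r l + 1)
  have h2 := p.good_ddl u i j (D := ∑ l, p.r l + 1) (by omega) (fun x => p.js (zr i x))
    fun y k => by rw [zr_sub, zr_sub]
  have h3 := p.mdl.EnOn_two u (p.mdl.box.filter (p.good i (∑ l, p.r l + 1)))
    (p.mdl.box.filter fun x => p.good i (∑ l, p.r l + 1) x ∧ p.js (zr i x) = j)
    (p.mdl.box.filter fun x => p.good i (∑ l, p.r l + 1) x ∧ p.js (zr i x) ≠ j) (i, j)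
    fun x hx _ => by
      rw [mem_filter] at hx
      simp only [mem_filter, hx, true_and]; exact em _
  have h4 := p.T3 u hF hR i j
  have h5 := sum_le_card_nsmul univ _ _ fun k _ => p.T3 u hF hR i k
  rw [card_univ, nsmul_eq_mul] at h5
  have h6 := mul_le_mul_of_nonneg_left h5 (show (0 : ℝ) ≤ 2 * Fintype.card J by positivity)
  have c1 : 64 * ((Fintype.card J : ℝ) * Fintype.card J) ≤ p.q := by exact_mod_cast p.mn_le.2.1
  have c2 : (p.rh i : ℝ) + 1 ≤ (∑ l, p.r l : ℕ) + 1 := by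
    exact_mod_cast Nat.succ_le_succ ((p.rh_le i).trans (p.r_le i))
  have c3 : 4 * p.q * ((p.rh i : ℝ) + 1) ^ 2 * p.mdl.NN u ≤
    4 * p.q * ((∑ l, p.r l : ℕ) + 1) ^ 2 * p.mdl.NN u := by gcongr
  have c4 : (1 : ℝ) ≤ ((∑ l, p.r l : ℕ) + 1) ^ 2 :=
    one_le_pow₀ (by linarith [Nat.cast_nonneg (α := ℝ) (∑ l, p.r l)])
  have hq := p.qR
  rw [Nat.cast_add, Nat.cast_one] at h1
  generalize ((∑ l, p.r l : ℕ) : ℝ) + 1 = N at *
  generalize (p.q : ℝ) = Q at *
  have q1 : (1 : ℝ) ≤ Q := by linarith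
  have n1 : 0 ≤ N ^ 2 * p.mdl.NN u := by positivity
  have d1 := mul_le_mul_of_nonneg_right c1 (show 0 ≤ Q ^ 35 * (N ^ 2 * p.mdl.NN u) by positivity)
  have d2 := mul_le_mul_of_nonneg_right c4 (show 0 ≤ Q ^ 2 * p.mdl.NN u by positivity)
  have d3 := mul_le_mul_of_nonneg_right (pow_le_pow_right₀ q1 (show 35 ≤ 36 by norm_num)) n1
  have d4 := mul_le_mul_of_nonneg_right (pow_le_pow_right₀ q1 (show 2 ≤ 36 by norm_num)) n1
  have d5 := mul_le_mul_of_nonneg_right (pow_le_pow_right₀ q1 (show 1 ≤ 36 by norm_num)) n1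
  have d6 := mul_le_mul_of_nonneg_right hq (show 0 ≤ Q ^ 36 * (N ^ 2 * p.mdl.NN u) by positivity)
  have d7 : 0 ≤ Q ^ 36 * (N ^ 2 * p.mdl.NN u) := by positivity
  nlinarith

theorem En_le (hF : FibStmt J) (hR : RatStmt J) {i : I} (hi : i ≠ p.ms) (j : J) :
    p.mdl.En u (i, j) ≤ p.q ^ 65 * ((min (p.r i) (p.c j) : ℕ) + 1) ^ 2 * p.mdl.NN u := by
  have n0 := p.mdl.NN_nonneg u
  have hq := p.qR
  have q1 : (1 : ℝ) ≤ p.q := by linarith
  have q0 := p.q_ge
  have q13 : 1 ≤ p.q ^ 13 := Nat.one_le_pow _ _ p.q_pos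
  have key : p.c p.ns ≤ p.q ^ 13 * (6 * (min (p.r i) (p.c j) + 1)) →
      p.mdl.En u (i, j) ≤ p.q ^ 65 * ((min (p.r i) (p.c j) : ℕ) + 1) ^ 2 * p.mdl.NN u := fun h => by
    have a1 : ∑ l, p.r l + 1 ≤ p.q ^ 14 * (min (p.r i) (p.c j) + 1) := by
      have b1 := p.N_le
      have b2 := p.mn_le.2.2.2
      generalize min (p.r i) (p.c j) = μ at *
      calc _ ≤ Fintype.card J * (p.q ^ 13 * (6 * (μ + 1))) + p.q ^ 13 * (μ + 1) :=
            add_le_add (b1.trans (Nat.mul_le_mul_left _ h)) (Nat.mul_pos q13 (by omega))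
        _ = (6 * Fintype.card J + 1) * (p.q ^ 13 * (μ + 1)) := by ring
        _ ≤ p.q * (p.q ^ 13 * (μ + 1)) := by gcongr; omega
        _ = _ := by ring
    have a2 : ((∑ l, p.r l : ℕ) : ℝ) + 1 ≤ p.q ^ 14 * ((min (p.r i) (p.c j) : ℕ) + 1) := by
      exact_mod_cast a1
    calc _ ≤ _ := p.crude u hF hR i j
      _ ≤ p.q ^ 37 * (p.q ^ 14 * ((min (p.r i) (p.c j) : ℕ) + 1)) ^ 2 * p.mdl.NN u := by gcongr
      _ = _ := by ring
  by_cases hj : j = p.ns
  · subst hj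
    by_cases h : p.q ^ 13 * (4 * p.r i + 6) ≤ p.c p.ns
    · have a1 := Nat.mul_le_mul_right (4 * p.r i + 6) q13
      rw [min_eq_left (by omega)]
      have : 5 * (p.q : ℝ) ^ 2 ≤ p.q ^ 65 :=
        le_trans (by nlinarith) (pow_le_pow_right₀ q1 (show 3 ≤ 65 by norm_num))
      exact (p.Nstar u hi h).trans (by gcongr)
    · refine key ?_
      rcases le_total (p.r i) (p.c p.ns) with h' | h'
      · rw [min_eq_left h']
        exact (not_le.1 h).le.trans (Nat.mul_le_mul_left _ (by omega))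
      · rw [min_eq_right h']
        exact le_trans (by omega) (Nat.le_mul_of_pos_left _ q13)
  · have a1 := (p.cap_ne hi hj).2
    have a2 : p.mdl.cap (i, j) + 1 ≤ 6 * ((min (p.r i) (p.c j) : ℕ) + 1) := by omega
    by_cases h : p.q ^ 13 * (p.mdl.cap (i, j) + 1) ≤ p.c p.ns
    · have a3 : (p.mdl.cap (i, j) : ℝ) + 1 ≤ 6 * ((min (p.r i) (p.c j) : ℕ) + 1) := by
        exact_mod_cast a2
      have a4 : (0 : ℝ) ≤ p.mdl.cap (i, j) := by exact_mod_cast p.mdl.capnn (i, j)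
      have : 504 ≤ (p.q : ℝ) ^ 65 := le_trans (by linarith) (le_self_pow₀ q1 (by norm_num))
      calc _ ≤ _ := p.T2 u p.mdl.box i hj h
        _ ≤ 14 * (6 * ((min (p.r i) (p.c j) : ℕ) + 1)) ^ 2 * p.mdl.NN u := by gcongr
        _ = 504 * ((min (p.r i) (p.c j) : ℕ) + 1) ^ 2 * p.mdl.NN u := by ring
        _ ≤ _ := by gcongr
    · refine key ?_
      have := (not_le.1 h).le.trans (mul_le_mul_of_nonneg_left a2 (by positivity))
      exact_mod_cast this

theorem gap (hF : FibStmt J) (hR : RatStmt J) : p.GapStmt := by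
  intro u
  have n0 := p.mdl.NN_nonneg u
  have hq := p.qR
  have q1 : (1 : ℝ) ≤ p.q := by linarith
  have h1 := sum_le_card_nsmul univ (fun c => ∑ x ∈ p.mdl.box, p.mdl.Lc u c x ^ 2 / p.mdl.pi x)
    (5 * p.q ^ 97 * p.mdl.NN u) fun ⟨i, j⟩ _ => by
      have a0 := mul_le_mul_of_nonneg_right (one_le_pow₀ (n := 97) q1) n0
      by_cases hi : i = p.ms
      · have := p.mdl.cell_le u (i, j) (κ := 0) (κ' := 0)
          (fun x h h' => absurd hi (p.ne_ms h h')) fun x h h' => absurd hi (p.ne_ms h h')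
        nlinarith
      obtain ⟨μ, hμ⟩ : ∃ μ : ℝ, μ = (min (p.r i) (p.c j) : ℕ) + 1 := ⟨_, rfl⟩
      have m0 : 0 < μ := by rw [hμ]; positivity
      have m1 : μ ≤ p.rh i + 1 := by
        rw [hμ, p.rh_eq hi]; exact_mod_cast Nat.succ_le_succ (min_le_left _ _)
      have m2 : μ ≤ p.c j + 1 := by rw [hμ]; exact_mod_cast Nat.succ_le_succ (min_le_right _ _)
      have a1 := p.mdl.cell_le u (i, j) (κ := p.q ^ 32 / μ ^ 2) (κ' := p.q ^ 32 / μ ^ 2)
        (fun x _ _ => (p.dP_hi j _).trans (by gcongr))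
        fun x h _ => (p.dL_hi i (p.row_nn h i) (p.row_le h i)).trans (by gcongr)
      have a2 := mul_le_mul_of_nonneg_left (p.En_le u hF hR hi j)
        (show 0 ≤ p.q ^ 32 / μ ^ 2 + p.q ^ 32 / μ ^ 2 by positivity)
      rw [← hμ] at a2
      have a3 : (p.q ^ 32 / μ ^ 2 + p.q ^ 32 / μ ^ 2) * (p.q ^ 65 * μ ^ 2 * p.mdl.NN u) =
        2 * p.q ^ 97 * p.mdl.NN u := by field_simp; ring
      linarith
  have h6 : 64 * (Fintype.card (I × J) : ℝ) ≤ p.q := by
    rw [Fintype.card_prod]; exact_mod_cast p.mn_le.1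
  rw [card_univ, nsmul_eq_mul] at h1
  have h7 := mul_le_mul_of_nonneg_right h6 (show 0 ≤ p.q ^ 97 * p.mdl.NN u by positivity)
  have h8 : 0 ≤ (Fintype.card (I × J) : ℝ) * (p.q ^ 97 * p.mdl.NN u) := by positivity
  refine h1.trans ?_
  nlinarith

end Par

end Vale.Agent.P328
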