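import Vale.Agent.P328.Law2

/-!
The law of the output of the sampler.
-/

namespace Vale.Agent.P328

open Finset

namespace Lw

variable {m n : ℕ} (p : Par (Fin m) (Fin n))

theorem rej_le (ha : p.AccStmt) (hr : p.RoundStmt) :
    (∑ x ∈ p.mdl.box, p.wt x * if p.Acc x then 0 else 1) / ∑ x ∈ p.mdl.box, p.wt x ≤ 3 / 4 := by
  have Z : 0 < ∑ x ∈ p.mdl.box, p.wt x := sum_pos (fun x _ => wt_pos p x) ⟨_, zero_box p⟩
  have a : ∑ x ∈ p.mdl.box, p.wt x ≤ 2 * ∑ x ∈ p.mdl.box, p.mdl.pi x := by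
    rw [mul_sum]; exact sum_le_sum fun x _ => (hr.1 x).2
  have b : ∑ x ∈ p.mdl.box.filter p.Acc, p.mdl.pi x ≤ ∑ x ∈ p.mdl.box.filter p.Acc, p.wt x :=
    sum_le_sum fun x _ => (hr.1 x).1
  have c : (∑ x ∈ p.mdl.box, p.wt x * if p.Acc x then 0 else 1) +
      ∑ x ∈ p.mdl.box.filter p.Acc, p.wt x = ∑ x ∈ p.mdl.box, p.wt x := by
    rw [sum_filter, ← sum_add_distrib]
    exact sum_congr rfl fun x _ => by split_ifs <;> simp
  rw [div_le_iff₀ Z]
  unfold Par.AccStmt at ha
  linarith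
theorem step (s P : ℕ) (G : (Fin m → Fin n → ℕ) → ℝ) (u : ℝ) :
    Ex (p.T1 * p.B1 + P) (fun l => G (p.fout (s + 1) l)) = u +
      2 * Ex (p.T1 * p.B1) (fun l => (fun x => if p.Acc x then (G (p.tab x) - u) / 2 else 0)
        (p.frun p.T1 l 0)) + (Ex P (fun l => G (p.fout s l)) - u) *
      Ex (p.T1 * p.B1) (fun l => (fun x => if p.Acc x then (0 : ℝ) else 1) (p.frun p.T1 l 0)) := by
  rw [← Ex_lin]
  simp only [Par.fout]
  generalize p.T1 * p.B1 = R
  generalize p.T1 = T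
  rw [Ex_split R P fun l l' =>
    G (if p.Acc (p.frun T l 0) then p.tab (p.frun T l 0) else p.fout s l')]
  refine Ex_congr fun l _ => ?_
  by_cases h : p.Acc (p.frun T l 0)
  · simp only [h, if_true, Ex_const]; ring
  · simp only [h, if_false]; ring
theorem recur (hc : ChainStmt (Fin m) (Fin n)) (hu : p.UnifStmt) (ha : p.AccStmt)
    (hr : p.RoundStmt) (hg : p.GapStmt) (hex : ∀ c, p.ex c ≤ p.q)
    (G : (Fin m → Fin n → ℕ) → ℝ) (hG : ∀ X, |G X| ≤ 1) (s P : ℕ) (hP : s * (p.T1 * p.B1) ≤ P) :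
    |Ex P (fun l => G (p.fout s l)) - (∑ X ∈ tables p.r p.c, G X) / (tables p.r p.c).card| ≤
      16 * (1 / 2) ^ p.q + 2 * (7 / 8) ^ s := by
  set u := (∑ X ∈ tables p.r p.c, G X) / (tables p.r p.c).card with hu'
  have T0 : (0 : ℝ) < (tables p.r p.c).card := by
    exact_mod_cast card_pos.2 ⟨_, nw_mem _ _ p.hsum⟩
  have u1 : |u| ≤ 1 := by
    rw [hu', abs_div, abs_of_pos T0, div_le_one T0]
    refine (abs_sum_le_sum_abs _ _).trans ?_
    simpa using sum_le_card_nsmul _ _ 1 fun X _ => hG X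
  have m1 := mix p hc hr hg hex (fun x => if p.Acc x then (G (p.tab x) - u) / 2 else 0)
    fun x _ => by
      have := abs_le.1 (hG (p.tab x))
      have := abs_le.1 u1
      split_ifs
      · rw [abs_le]; constructor <;> linarith
      · simp
  have m2 := mix p hc hr hg hex (fun x => if p.Acc x then (0 : ℝ) else 1)
    fun x _ => by split_ifs <;> simp
  have z : (∑ x ∈ p.mdl.box, p.wt x * if p.Acc x then (G (p.tab x) - u) / 2 else 0) = 0 := by
    have := hu.2 G
    rw [← hu', sum_mul, ← sub_eq_zero, ← sum_sub_distrib, sum_filter] at this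
    rw [← mul_eq_zero_iff_left (two_ne_zero' ℝ), mul_sum]
    exact (sum_congr rfl fun x _ => by split_ifs <;> ring).trans this
  rw [z, zero_div, sub_zero] at m1
  have r := rej_le p ha hr
  have η : (1 / 2 : ℝ) ^ p.q ≤ 1 / 8 :=
    (pow_le_pow_of_le_one (by norm_num) (by norm_num) (le_trans (by norm_num : 3 ≤ 512) p.q_ge)).trans
      (by norm_num)
  have m3 : 0 ≤ Ex (p.T1 * p.B1)
      (fun l => (fun x => if p.Acc x then (0 : ℝ) else 1) (p.frun p.T1 l 0)) := by
    exact (Ex_const (p.T1 * p.B1) 0).ge.trans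
      (Ex_mono fun l _ => by dsimp only; split_ifs <;> norm_num)
  have η0 : (0 : ℝ) ≤ (1 / 2) ^ p.q := by positivity
  induction s generalizing P with
  | zero =>
    have a : Ex P (fun l => G (p.fout 0 l)) = G (nw p.r p.c) := by
      simp only [Par.fout, Ex_const]
    have := abs_le.1 (hG (nw p.r p.c))
    have := abs_le.1 u1
    rw [a, abs_le]; constructor <;> linarith
  | succ s ih =>
    obtain ⟨P, rfl⟩ := Nat.exists_eq_add_of_le ((Nat.le_mul_of_pos_left _ s.succ_pos).trans hP)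
    have i := ih P (by rw [add_mul, one_mul] at hP; omega)
    rw [step p s P G u, add_assoc, add_sub_cancel_left]
    refine (abs_add_le _ _).trans ?_
    rw [abs_mul, abs_mul, abs_two, abs_of_nonneg m3, pow_succ]
    have := (abs_le.1 m2).2
    have := mul_le_mul i (show _ ≤ (7 / 8 : ℝ) by linarith) m3 (by positivity)
    linarith

end Lw

theorem Par.law {m n : ℕ} (p : Par (Fin m) (Fin n)) (hc : ChainStmt (Fin m) (Fin n))
    (hu : p.UnifStmt) (ha : p.AccStmt) (hr : p.RoundStmt) (hg : p.GapStmt) (k : ℕ)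
    (hN : (∑ i, p.r i).size + 4 ≤ p.q) (hk : 6 * (k + 1) ≤ p.q) : p.LawStmt k := by
  refine ⟨Lw.fout_mem p hu _, fun P hP => ?_⟩
  set d : (Fin m → Fin n → ℕ) → ℝ := fun X =>
    ((univ.filter fun ρ : Fin P → Bool => p.fout p.q (List.ofFn ρ) = X).card : ℝ) / 2 ^ P -
      1 / (tables p.r p.c).card with hd
  set G : (Fin m → Fin n → ℕ) → ℝ := fun X => if 0 ≤ d X then 1 else -1
  have key := Lw.recur p hc hu ha hr hg (Lw.ex_le p hN) G
    (fun X => by simp only [G]; split_ifs <;> simp) p.q P hP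
  have e1 : ∀ X, |d X| = G X * d X := fun X => by
    simp only [G]
    split_ifs with h
    · rw [abs_of_nonneg h, one_mul]
    · rw [abs_of_neg (not_le.1 h)]; ring
  have e2 : ∑ X ∈ tables p.r p.c, |d X| = Ex P (fun l => G (p.fout p.q l)) -
      (∑ X ∈ tables p.r p.c, G X) / (tables p.r p.c).card := by
    rw [Lw.Ex_fin, ← sum_fiberwise_of_maps_to (s := univ) (t := tables p.r p.c)
      (g := fun ρ : Fin P → Bool => p.fout p.q (List.ofFn ρ)) fun ρ _ => Lw.fout_mem p hu _ _,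
      sum_div, sum_div, ← sum_sub_distrib]
    refine sum_congr rfl fun X _ => ?_
    rw [e1, sum_congr rfl (g := fun _ => G X) fun ρ h => by rw [(mem_filter.1 h).2]]
    simp only [hd, sum_const, nsmul_eq_mul]
    ring
  have b1 : (1 / 2 : ℝ) ^ p.q ≤ (1 / 2) ^ (k + 4) :=
    pow_le_pow_of_le_one (by norm_num) (by norm_num) (by omega)
  have b2 : (7 / 8 : ℝ) ^ p.q ≤ (1 / 2) ^ (k + 1) := by
    refine (pow_le_pow_of_le_one (by norm_num) (by norm_num) hk).trans ?_
    rw [pow_mul]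
    exact pow_le_pow_left₀ (by norm_num) (by norm_num) _
  have b3 : (1 : ℝ) / 2 ^ k = (1 / 2) ^ k := by simp
  rw [pow_add] at b1 b2
  have := (abs_le.1 key).2
  change 1 / 2 * ∑ X ∈ tables p.r p.c, |d X| ≤ _
  rw [e2, b3]
  linarith

end Vale.Agent.P328
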