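import Mathlib

/-!
The weighted box model: states, weights, the Bochner identity.
-/

namespace Vale.Agent.P328

open Finset

variable {I J : Type} [Fintype I] [Fintype J] [DecidableEq I] [DecidableEq J]

/-- Integer arrays. -/
abbrev St (I J : Type) := I × J → ℤ

/-- The array with one entry `t`. -/
def e (c : I × J) (t : ℤ) : St I J := Pi.single c t

/-- Row sum. -/
def row (x : St I J) (i : I) : ℤ := ∑ j, x (i, j)

/-- Column sum. -/
def col (x : St I J) (j : J) : ℤ := ∑ i, x (i, j)

omit [Fintype I] [Fintype J] in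
theorem e_apply (c d : I × J) (t : ℤ) : e c t d = if d = c then t else 0 := by
  simp [e, Pi.single_apply]

omit [Fintype I] [Fintype J] in
theorem e_add (c : I × J) (s t : ℤ) : e c (s + t) = e c s + e c t := by
  funext d; simp only [Pi.add_apply, e_apply]; split_ifs <;> simp

omit [Fintype I] [Fintype J] in
theorem e_neg (c : I × J) (s : ℤ) : e c (-s) = - e c s := by
  funext d; simp only [Pi.neg_apply, e_apply]; split_ifs <;> simp

omit [Fintype I] [Fintype J] in
@[simp] theorem e_zero (c : I × J) : e c 0 = 0 := by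
  funext d; simp [e_apply]

omit [Fintype I] [DecidableEq I] [DecidableEq J] in
@[simp] theorem row_add (x y : St I J) (i : I) : row (x + y) i = row x i + row y i := by
  simp [row, sum_add_distrib]

omit [Fintype J] [DecidableEq I] [DecidableEq J] in
@[simp] theorem col_add (x y : St I J) (j : J) : col (x + y) j = col x j + col y j := by
  simp [col, sum_add_distrib]

omit [Fintype I] [DecidableEq I] [DecidableEq J] in
@[simp] theorem row_sub (x y : St I J) (i : I) : row (x - y) i = row x i - row y i := by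
  simp [row, sum_sub_distrib]

omit [Fintype J] [DecidableEq I] [DecidableEq J] in
@[simp] theorem col_sub (x y : St I J) (j : J) : col (x - y) j = col x j - col y j := by
  simp [col, sum_sub_distrib]

omit [Fintype I] in
theorem row_e (c : I × J) (t : ℤ) (i : I) : row (e c t) i = if i = c.1 then t else 0 := by
  obtain ⟨a, b⟩ := c
  simp only [row, e_apply, Prod.mk.injEq]
  by_cases h : i = a <;> simp [h]

omit [Fintype J] in
theorem col_e (c : I × J) (t : ℤ) (j : J) : col (e c t) j = if j = c.2 then t else 0 := by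
  obtain ⟨a, b⟩ := c
  simp only [col, e_apply, Prod.mk.injEq]
  by_cases h : j = b <;> simp [h]

/-- The data of the model. -/
structure Mdl (I J : Type) where
  /-- Upper bounds of the entries. -/
  cap : I × J → ℤ
  /-- Row weights. -/
  L : I → ℤ → ℝ
  /-- Column weights. -/
  P : J → ℤ → ℝ
  capnn : ∀ c, 0 ≤ cap c
  Lpos : ∀ i t, 0 < L i t
  Ppos : ∀ j t, 0 < P j t
  Llc : ∀ i t, L i (t - 1) * L i (t + 1) ≤ L i t ^ 2
  Plc : ∀ j t, P j (t - 1) * P j (t + 1) ≤ P j t ^ 2
  Panti : ∀ j, Antitone (P j)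

namespace Mdl

variable (M : Mdl I J)

/-- The state space. -/
noncomputable def box : Finset (St I J) := Fintype.piFinset fun c => Icc 0 (M.cap c)

theorem mem_box {x : St I J} : x ∈ M.box ↔ ∀ c, 0 ≤ x c ∧ x c ≤ M.cap c := by
  simp [box, Fintype.mem_piFinset]

/-- Product of the row weights. -/
def Lam (x : St I J) : ℝ := ∏ i, M.L i (row x i)

/-- Product of the column weights. -/
def Psi (x : St I J) : ℝ := ∏ j, M.P j (col x j)

/-- The weight of a state. -/
def pi (x : St I J) : ℝ := M.Lam x * M.Psi x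

omit [DecidableEq I] [DecidableEq J] in
theorem Lam_pos (x : St I J) : 0 < M.Lam x := prod_pos fun _ _ => M.Lpos _ _

omit [DecidableEq I] [DecidableEq J] in
theorem Psi_pos (x : St I J) : 0 < M.Psi x := prod_pos fun _ _ => M.Ppos _ _

omit [DecidableEq I] [DecidableEq J] in
theorem pi_pos (x : St I J) : 0 < M.pi x := mul_pos (M.Lam_pos x) (M.Psi_pos x)

omit [DecidableEq J] in
theorem Lam_le {x y : St I J} (i : I) {Q : ℝ} (h1 : ∀ l, l ≠ i → row y l = row x l)
    (h2 : M.L i (row x i) ≤ Q * M.L i (row y i)) : M.Lam x ≤ Q * M.Lam y := by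
  unfold Lam
  rw [← mul_prod_erase univ _ (mem_univ i), ← mul_prod_erase univ _ (mem_univ i), ← mul_assoc]
  rw [prod_congr rfl fun l hl => congrArg (M.L l) (h1 l (ne_of_mem_erase hl))]
  exact mul_le_mul_of_nonneg_right h2 (prod_nonneg fun _ _ => (M.Lpos _ _).le)

omit [DecidableEq I] in
theorem Psi_le {x y : St I J} (k : J) {Q : ℝ} (h1 : ∀ j, j ≠ k → col y j ≤ col x j)
    (h2 : M.P k (col x k) ≤ Q * M.P k (col y k)) : M.Psi x ≤ Q * M.Psi y := by
  unfold Psi
  rw [← mul_prod_erase univ _ (mem_univ k), ← mul_prod_erase univ _ (mem_univ k), ← mul_assoc]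
  refine mul_le_mul h2 (prod_le_prod (fun _ _ => (M.Ppos _ _).le)
    fun j hj => M.Panti j (h1 j (ne_of_mem_erase hj))) (prod_nonneg fun _ _ => (M.Ppos _ _).le)
    ((M.Ppos _ _).le.trans h2)

omit [DecidableEq I] [DecidableEq J] in
theorem Psi_mono {x y : St I J} (h1 : ∀ j, col y j ≤ col x j) : M.Psi x ≤ M.Psi y :=
  prod_le_prod (fun _ _ => (M.Ppos _ _).le) fun j _ => M.Panti j (h1 j)

omit [DecidableEq I] [DecidableEq J] in
theorem Lam_congr {x y : St I J} (h1 : ∀ l, row y l = row x l) : M.Lam y = M.Lam x :=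
  prod_congr rfl fun l _ => by rw [h1]

omit [DecidableEq I] [DecidableEq J] in
theorem Psi_congr {x y : St I J} (h1 : ∀ l, col y l = col x l) : M.Psi y = M.Psi x :=
  prod_congr rfl fun l _ => by rw [h1]

theorem Lam_shift (x : St I J) (c : I × J) (t : ℤ) :
    M.Lam (x + e c t) = M.Lam x * (M.L c.1 (row x c.1 + t) / M.L c.1 (row x c.1)) := by
  unfold Lam
  rw [← mul_prod_erase univ _ (mem_univ c.1), ← mul_prod_erase univ _ (mem_univ c.1)]
  rw [prod_congr rfl (g := fun l => M.L l (row x l)) fun l hl => by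
    rw [row_add, row_e, if_neg (ne_of_mem_erase hl), add_zero]]
  rw [row_add, row_e, if_pos rfl]
  have := (M.Lpos c.1 (row x c.1)).ne'
  field_simp

theorem Psi_shift (x : St I J) (c : I × J) (t : ℤ) :
    M.Psi (x + e c t) = M.Psi x * (M.P c.2 (col x c.2 + t) / M.P c.2 (col x c.2)) := by
  unfold Psi
  rw [← mul_prod_erase univ _ (mem_univ c.2), ← mul_prod_erase univ _ (mem_univ c.2)]
  rw [prod_congr rfl (g := fun l => M.P l (col x l)) fun l hl => by
    rw [col_add, col_e, if_neg (ne_of_mem_erase hl), add_zero]]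
  rw [col_add, col_e, if_pos rfl]
  have := (M.Ppos c.2 (col x c.2)).ne'
  field_simp

theorem sum_shift (F : St I J → ℝ) (v : St I J) (h : ∀ y, F y ≠ 0 → y ∈ M.box ∧ y + v ∈ M.box) :
    ∑ x ∈ M.box, F (x - v) = ∑ x ∈ M.box, F x := by
  refine sum_bij_ne_zero (fun x _ _ => x - v) (fun x _ hx => (h _ hx).1)
    (fun a _ _ b _ _ hab => sub_left_injective hab) (fun y _ hy => ?_) (fun _ _ _ => rfl)
  exact ⟨y + v, (h y hy).2, by simpa using hy, by simp⟩

theorem sum_shift_le (A : Finset (St I J)) (F : St I J → ℝ) (v : St I J) (h0 : ∀ y, 0 ≤ F y)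
    (h : ∀ y, F y ≠ 0 → y ∈ M.box) : ∑ x ∈ A, F (x + v) ≤ ∑ x ∈ M.box, F x := by
  rw [← sum_image (s := A) (g := fun x => x + v) (f := F) fun a _ b _ hab => add_left_injective v hab]
  calc ∑ x ∈ A.image (fun x => x + v), F x ≤ ∑ x ∈ A.image (fun x => x + v) ∪ M.box, F x :=
        sum_le_sum_of_subset_of_nonneg subset_union_left fun _ _ _ => h0 _
    _ = _ := (sum_subset subset_union_right fun y _ hy => by
        by_contra h'; exact hy (h y h')).symm

/-- Edge weight. -/
noncomputable def om (x : St I J) (c : I × J) : ℝ :=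
  if x ∈ M.box ∧ x + e c 1 ∈ M.box then M.Lam x * M.Psi (x + e c 1) else 0

/-- Square weight. -/
noncomputable def R (x : St I J) (c d : I × J) : ℝ :=
  if x ∈ M.box ∧ x + e c 1 + e d 1 ∈ M.box then M.Lam x * M.Psi (x + e c 1 + e d 1) else 0

theorem om_nonneg (x : St I J) (c : I × J) : 0 ≤ M.om x c := by
  unfold om; split_ifs
  · exact (mul_pos (M.Lam_pos _) (M.Psi_pos _)).le
  · exact le_rfl

theorem R_nonneg (x : St I J) (c d : I × J) : 0 ≤ M.R x c d := by
  unfold R; split_ifs
  · exact (mul_pos (M.Lam_pos _) (M.Psi_pos _)).le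
  · exact le_rfl

theorem R_comm (x : St I J) (c d : I × J) : M.R x c d = M.R x d c := by
  unfold R; rw [add_right_comm]

theorem om_ne {x : St I J} {c : I × J} (h : M.om x c ≠ 0) : x ∈ M.box ∧ x + e c 1 ∈ M.box := by
  by_contra h'; exact h (if_neg h')

theorem R_ne {x : St I J} {c d : I × J} (h : M.R x c d ≠ 0) :
    x ∈ M.box ∧ x + e c 1 + e d 1 ∈ M.box := by
  by_contra h'; exact h (if_neg h')

theorem mid_mem {x : St I J} {c d : I × J} (h : x ∈ M.box) (h' : x + e c 1 + e d 1 ∈ M.box) :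
    x + e c 1 ∈ M.box := by
  rw [mem_box] at *
  intro a
  have h1 := h a
  have h2 := h' a
  simp only [Pi.add_apply, e_apply] at *
  split_ifs at * <;> omega

end Mdl

/-- Discrete gradient. -/
def gr (u : St I J → ℝ) (c : I × J) (x : St I J) : ℝ := u (x + e c 1) - u x

namespace Mdl

variable (M : Mdl I J) (u : St I J → ℝ)

/-- The weighted generator of one cell. -/
noncomputable def Lc (c : I × J) (x : St I J) : ℝ :=
  M.om x c * gr u c x - M.om (x - e c 1) c * gr u c (x - e c 1)

/-- The square terms. -/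
noncomputable def Sq (c d : I × J) : ℝ :=
  ∑ x ∈ M.box, M.R x c d * (gr u c (x + e d 1) - gr u c x) ^ 2

/-- The birth terms. -/
noncomputable def AA (c d : I × J) (x : St I J) : ℝ :=
  (M.om x c * M.om x d / M.pi x - M.R x c d) * (gr u c x * gr u d x)

/-- The death terms. -/
noncomputable def BB (c d : I × J) (y : St I J) : ℝ :=
  (M.om (y - e c 1) c * M.om (y - e d 1) d / M.pi y - M.R (y - e c 1 - e d 1) c d) *
    (gr u c (y - e c 1) * gr u d (y - e d 1))

theorem Sq_nonneg (c d : I × J) : 0 ≤ M.Sq u c d :=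
  sum_nonneg fun _ _ => mul_nonneg (M.R_nonneg _ _ _) (sq_nonneg _)

theorem om_mix (z : St I J) (c d : I × J) :
    M.om z c * M.om (z - e d 1) d / M.pi z = M.R (z - e d 1) c d := by
  unfold om R pi
  have e1 : z - e d 1 + e c 1 + e d 1 = z + e c 1 := by abel
  have e2 : z - e d 1 + e d 1 = z := by abel
  rw [e1, e2]
  by_cases h : z - e d 1 ∈ M.box ∧ z + e c 1 ∈ M.box
  · have hz : z ∈ M.box := by
      have := M.mid_mem (c := d) (d := c) h.1 (by rw [e2]; exact h.2)
      rwa [e2] at this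
    rw [if_pos ⟨hz, h.2⟩, if_pos ⟨h.1, hz⟩, if_pos h]
    have := (M.Lam_pos z).ne'
    have := (M.Psi_pos z).ne'
    field_simp
  · rw [if_neg h]
    by_cases h1 : z ∈ M.box ∧ z + e c 1 ∈ M.box
    · rw [if_neg (c := z - e d 1 ∈ M.box ∧ z ∈ M.box) fun h2 => h ⟨h2.1, h1.2⟩]; simp
    · rw [if_neg h1]; simp

theorem bochner (c d : I × J) : ∑ x ∈ M.box, M.Lc u c x * M.Lc u d x / M.pi x =
    M.Sq u c d + ∑ x ∈ M.box, M.AA u c d x + ∑ x ∈ M.box, M.BB u c d x := by
  have s1 := M.sum_shift (fun x => M.R x c d * (gr u c (x + e d 1) * gr u d x)) (e d 1)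
    fun y hy => by
      have := M.R_ne (left_ne_zero_of_mul hy)
      exact ⟨this.1, M.mid_mem (d := c) this.1 (by rw [add_right_comm]; exact this.2)⟩
  have s2 := M.sum_shift (fun x => M.R x c d * (gr u c x * gr u d (x + e c 1))) (e c 1)
    fun y hy => by
      have := M.R_ne (left_ne_zero_of_mul hy)
      exact ⟨this.1, M.mid_mem this.1 this.2⟩
  have s3 := M.sum_shift (fun x => M.R x c d * (gr u c (x + e d 1) * gr u d (x + e c 1)))
    (e c 1 + e d 1) fun y hy => by
      have := M.R_ne (left_ne_zero_of_mul hy)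
      exact ⟨this.1, by rw [← add_assoc]; exact this.2⟩
  have hSq : M.Sq u c d = ∑ x ∈ M.box, M.R x c d * (gr u c x * gr u d x)
      + ∑ x ∈ M.box, M.R x c d * (gr u c (x + e d 1) * gr u d (x + e c 1))
      - ∑ x ∈ M.box, M.R x c d * (gr u c (x + e d 1) * gr u d x)
      - ∑ x ∈ M.box, M.R x c d * (gr u c x * gr u d (x + e c 1)) := by
    rw [Sq, ← sum_add_distrib, ← sum_sub_distrib, ← sum_sub_distrib]
    refine sum_congr rfl fun x _ => ?_
    simp only [gr, add_right_comm x (e d 1) (e c 1)]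
    ring
  rw [hSq, ← s1, ← s2, ← s3]
  simp only [← sum_add_distrib, ← sum_sub_distrib]
  refine sum_congr rfl fun x _ => ?_
  have m1 := M.om_mix x c d
  have m2 := M.om_mix x d c
  rw [M.R_comm _ d c] at m2
  have e1 : x - (e c 1 + e d 1) + e d 1 = x - e c 1 := by abel
  have e2 : x - (e c 1 + e d 1) + e c 1 = x - e d 1 := by abel
  have e3 : x - (e c 1 + e d 1) = x - e c 1 - e d 1 := by abel
  simp only [sub_add_cancel, e1, e2, AA, BB, Lc]
  rw [e3, ← m1, ← m2]
  ring

end Mdl

end Vale.Agent.P328
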