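import Vale.Agent.P328.Model
import Vale.Agent.P328.Defs

/-!
The parameters of the sampler.
-/

namespace Vale.Agent.P328

open Finset

/-- Margins, a largest row, a largest column and the precision. -/
structure Par (I J : Type) [Fintype I] [Fintype J] where
  /-- Row sums. -/
  r : I → ℕ
  /-- Column sums. -/
  c : J → ℕ
  /-- A largest row. -/
  ms : I
  /-- A largest column. -/
  ns : J
  /-- The precision. -/
  b : ℕ
  hsum : ∑ i, r i = ∑ j, c j
  hms : ∀ i, r i ≤ r ms
  hns : ∀ j, c j ≤ c ns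
  hq : 64 * (Fintype.card I + Fintype.card J + 2) ^ 3 ≤ 2 ^ b

variable {I J : Type} [Fintype I] [Fintype J] [DecidableEq I] [DecidableEq J]

namespace Par

variable (p : Par I J)

/-- The base. -/
def q : ℕ := 2 ^ p.b

/-- Target row sums of the state (the largest row is left out). -/
def rh (i : I) : ℕ := if i = p.ms then 0 else p.r i

/-- Width of a row weight. -/
def hh (i : I) : ℕ := p.rh i / p.q ^ 5

/-- Centre of the row slack. -/
def mu (i : I) : ℕ := if p.q ^ 13 ≤ p.rh i then p.q * p.hh i else 0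

/-- Largest accepted row slack. -/
def aa (i : I) : ℕ := 2 * p.mu i

/-- Length of a row push. -/
def dl (i : I) : ℕ := if p.q ^ 13 ≤ p.rh i then p.q * p.hh i else 1

/-- Total slack. -/
def SA : ℕ := ∑ i, p.aa i

/-- Width of a column weight. -/
def gg (j : J) : ℕ := p.c j / p.q ^ 5

/-- Capacity of a column. -/
def cc (j : J) : ℕ := if j = p.ns then p.c j + 2 * p.SA else p.c j

/-- Number of bits of an entry. -/
def ex (c : I × J) : ℕ := if c.1 = p.ms then 0 else
  (if c.2 = p.ns then 6 * p.r c.1 + 8 else 2 * min (p.r c.1) (p.c c.2) + 3).size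

/-- Upper bound of an entry. -/
def cap (c : I × J) : ℤ := 2 ^ p.ex c - 1

/-- Row energy. -/
noncomputable def ER (i : I) (t : ℤ) : ℝ :=
  if p.q ^ 13 ≤ p.rh i then ((t - p.rh i - p.mu i : ℤ) : ℝ) ^ 2 / (p.hh i : ℝ) ^ 2
  else 3 * p.q * p.b * (|t - p.rh i| : ℤ)

/-- Column energy. -/
noncomputable def EC (j : J) (t : ℤ) : ℝ :=
  if p.q ^ 12 ≤ p.c j then ((max 0 (t - p.cc j) : ℤ) : ℝ) ^ 2 / (p.gg j : ℝ) ^ 2
  else p.q * p.b * (max 0 (t - p.cc j) : ℤ)

/-- Rounded row energy. -/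
def WR (i : I) (t : ℤ) : ℕ :=
  if p.q ^ 13 ≤ p.rh i then (t - p.rh i - p.mu i).natAbs ^ 2 / p.hh i ^ 2
  else 3 * p.q * p.b * (t - p.rh i).natAbs

/-- Rounded column energy. -/
def WC (j : J) (t : ℤ) : ℕ :=
  if p.q ^ 12 ≤ p.c j then (t - p.cc j).toNat ^ 2 / p.gg j ^ 2
  else p.q * p.b * (t - p.cc j).toNat

/-- Rounded energy of a state. -/
def W (x : St I J) : ℕ := ∑ i, p.WR i (row x i) + ∑ j, p.WC j (col x j)

/-- The base of the weights. -/
noncomputable def gam : ℝ := 1 - 1 / p.q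

/-- The weight used by the algorithm. -/
noncomputable def wt (x : St I J) : ℝ := p.gam ^ p.W x

/-- An entry with the row slack removed. -/
def tr (x : St I J) (i : I) (j : J) : ℤ :=
  if j = p.ns then x (i, j) - (row x i - p.rh i) else x (i, j)

/-- The table read from a state. -/
def tb (x : St I J) (i : I) (j : J) : ℤ :=
  if i = p.ms then p.c j - ∑ l, p.tr x l j else p.tr x i j

/-- Accepted states. -/
def Acc (x : St I J) : Prop :=
  (∀ i, (p.rh i : ℤ) ≤ row x i ∧ row x i ≤ p.rh i + p.aa i) ∧ ∀ i j, 0 ≤ p.tb x i j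

instance : DecidablePred p.Acc := fun _ => by unfold Acc; infer_instance

/-- The table read from a state. -/
def tab (x : St I J) : I → J → ℕ := fun i j => (p.tb x i j).toNat

omit [DecidableEq I] [DecidableEq J] in
theorem q_ge : 512 ≤ p.q := le_trans (by
  have : 2 ^ 3 ≤ (Fintype.card I + Fintype.card J + 2) ^ 3 := Nat.pow_le_pow_left (by omega) 3
  omega) p.hq

omit [DecidableEq I] [DecidableEq J] in
theorem qR : (512 : ℝ) ≤ p.q := by exact_mod_cast p.q_ge

omit [DecidableEq I] [DecidableEq J] in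
theorem gam_half : 1 / 2 ≤ p.gam := by
  have h := p.qR
  have : 1 / (p.q : ℝ) ≤ 1 / 2 := one_div_le_one_div_of_le (by norm_num) (by linarith)
  unfold gam; linarith

omit [DecidableEq I] [DecidableEq J] in
theorem gam_pos : 0 < p.gam := lt_of_lt_of_le (by norm_num) p.gam_half

omit [DecidableEq I] [DecidableEq J] in
theorem gam_le : p.gam ≤ 1 := by
  have h := p.qR
  have : 0 ≤ 1 / (p.q : ℝ) := by positivity
  unfold gam; linarith

omit [DecidableEq I] [DecidableEq J] in
theorem gam_anti {x y : ℝ} (h : x ≤ y) : p.gam ^ y ≤ p.gam ^ x :=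
  Real.rpow_le_rpow_of_exponent_ge p.gam_pos p.gam_le h

omit [DecidableEq I] [DecidableEq J] in
theorem gam_lc {x y z : ℝ} (h : 2 * y ≤ x + z) : p.gam ^ x * p.gam ^ z ≤ (p.gam ^ y) ^ 2 := by
  rw [sq, ← Real.rpow_add p.gam_pos, ← Real.rpow_add p.gam_pos]
  exact p.gam_anti (by linarith)

omit [DecidableEq J] in
theorem ER_conv (i : I) (t : ℤ) : 2 * p.ER i t ≤ p.ER i (t - 1) + p.ER i (t + 1) := by
  unfold ER
  split_ifs
  · rw [← add_div, ← mul_div_assoc]
    refine div_le_div_of_nonneg_right ?_ (by positivity)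
    push_cast; nlinarith
  · have h : 2 * |t - p.rh i| ≤ |t - 1 - p.rh i| + |t + 1 - p.rh i| := by
      simp only [abs_eq_max_neg]; omega
    have h' : (2 : ℝ) * (|t - p.rh i| : ℤ) ≤ (|t - 1 - p.rh i| : ℤ) + (|t + 1 - p.rh i| : ℤ) := by
      exact_mod_cast h
    have : (0 : ℝ) ≤ 3 * p.q * p.b := by positivity
    nlinarith

theorem EC_conv (j : J) (t : ℤ) : 2 * p.EC j t ≤ p.EC j (t - 1) + p.EC j (t + 1) := by
  unfold EC
  split_ifs
  · rw [← add_div, ← mul_div_assoc]
    refine div_le_div_of_nonneg_right ?_ (by positivity)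
    have h : 2 * (max 0 (t - p.cc j)) ^ 2 ≤
        (max 0 (t - 1 - p.cc j)) ^ 2 + (max 0 (t + 1 - p.cc j)) ^ 2 := by
      rcases le_or_gt t (p.cc j) with h | h
      · rw [max_eq_left (by omega)]; positivity
      · rw [max_eq_right (by omega), max_eq_right (by omega), max_eq_right (by omega)]
        nlinarith
    exact_mod_cast h
  · have h : 2 * max 0 (t - p.cc j) ≤ max 0 (t - 1 - p.cc j) + max 0 (t + 1 - p.cc j) := by omega
    have h' : (2 : ℝ) * (max 0 (t - p.cc j) : ℤ) ≤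
        (max 0 (t - 1 - p.cc j) : ℤ) + (max 0 (t + 1 - p.cc j) : ℤ) := by exact_mod_cast h
    have : (0 : ℝ) ≤ p.q * p.b := by positivity
    nlinarith

theorem EC_mono (j : J) {s t : ℤ} (h : s ≤ t) : p.EC j s ≤ p.EC j t := by
  have h1 : ((max 0 (s - p.cc j) : ℤ) : ℝ) ≤ (max 0 (t - p.cc j) : ℤ) := by
    exact_mod_cast (by omega : max 0 (s - p.cc j) ≤ max 0 (t - p.cc j))
  have h2 : (0 : ℝ) ≤ (max 0 (s - p.cc j) : ℤ) := by exact_mod_cast le_max_left _ _
  unfold EC
  split_ifs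
  · gcongr
  · gcongr

/-- The box model. -/
noncomputable def mdl : Mdl I J where
  cap := p.cap
  L i t := p.gam ^ p.ER i t
  P j t := p.gam ^ p.EC j t
  capnn c := by
    have : (1 : ℤ) ≤ 2 ^ p.ex c := one_le_pow₀ (by norm_num)
    unfold cap; omega
  Lpos _ _ := Real.rpow_pos_of_pos p.gam_pos _
  Ppos _ _ := Real.rpow_pos_of_pos p.gam_pos _
  Llc i t := p.gam_lc (p.ER_conv i t)
  Plc j t := p.gam_lc (p.EC_conv j t)
  Panti j _ _ h := p.gam_anti (p.EC_mono j h)

end Par

end Vale.Agent.P328
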