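import Vale.Agent.P328.Spec

/-! Module R: the good part of a fibre is not small. -/

namespace Vale.Agent.P328

open Finset

namespace Rt

theorem Icc_succ {I : ℤ} (h : 0 ≤ I) : Icc 0 (I + 1) = insert (I + 1) (Icc 0 I) := by
  ext y; simp only [mem_Icc, mem_insert]; omega

theorem refl {R : ℤ → ℝ} {D k k' I : ℤ} (hR : ∀ z z', z ≤ z' → z + z' ≤ D → R z ≤ R z')
    (hk : k ≤ k') (hI : k + k' - I ≤ D) : 0 ≤ ∑ y ∈ Icc 0 I, (R (k' - y) - R (k - y)) := by
  have e1 : ∑ y ∈ Icc 0 I, R (k - y) = ∑ y ∈ Icc 0 I, R (k - I + y) :=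
    sum_nbij' (fun y => I - y) (fun y => I - y) (fun y hy => by simp only [mem_Icc] at *; omega)
      (fun y hy => by simp only [mem_Icc] at *; omega) (fun y _ => by ring) (fun y _ => by ring)
      fun y _ => by congr 1; ring
  have e2 : ∑ y ∈ (Icc 0 I).filter (fun y => ¬ y < k' - k), (R (k' - y) - R (k - I + y)) = 0 := by
    rw [sum_sub_distrib, sub_eq_zero]
    exact sum_nbij' (fun y => k' - k + I - y) (fun y => k' - k + I - y)
      (fun y hy => by simp only [mem_filter, mem_Icc] at *; omega)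
      (fun y hy => by simp only [mem_filter, mem_Icc] at *; omega) (fun y _ => by ring)
      (fun y _ => by ring) fun y _ => by congr 1; ring
  rw [sum_sub_distrib, e1, ← sum_sub_distrib,
    ← sum_filter_add_sum_filter_not _ (fun y => y < k' - k), e2, add_zero]
  refine sum_nonneg fun y hy => sub_nonneg.2 (hR _ _ ?_ ?_) <;>
    simp only [mem_filter, mem_Icc] at hy <;> omega

theorem abel {a ψ : ℤ → ℝ} {d : ℤ} (hd : 0 ≤ d) (ha : Antitone a)
    (h0 : ∀ t, 0 ≤ t → t ≤ d → a t = a 0) (hψ : ∀ I, d ≤ I → 0 ≤ ∑ y ∈ Icc 0 I, ψ y) (I : ℤ)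
    (hI : d ≤ I) : a I * ∑ y ∈ Icc 0 I, ψ y ≤ ∑ y ∈ Icc 0 I, a y * ψ y := by
  induction I, hI using Int.leInduction with
  | base =>
    rw [mul_sum]
    refine (sum_congr rfl fun y hy => ?_).le
    rw [mem_Icc] at hy
    rw [h0 d hd le_rfl, h0 y hy.1 hy.2]
  | succ I hI ih =>
    have h1 := mul_le_mul_of_nonneg_right (ha (show I ≤ I + 1 by omega)) (hψ I hI)
    rw [Icc_succ (hd.trans hI), sum_insert (by simp), sum_insert (by simp)]
    linarith

theorem oneD {f : ℤ → ℝ} {cap u η ρ : ℤ} {K : ℝ} (hf : ∀ y, 0 ≤ f y) (hρ : ∀ y, ρ < y → f y = 0)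
    (hu : 0 ≤ u) (hη : 0 ≤ η) (hm : ∀ y y', u ≤ y' → y' ≤ y → f y ≤ f y') (hK : 0 ≤ K)
    (hK' : (ρ : ℝ) + 1 ≤ K * (η + 1)) :
    ∑ y ∈ Icc 0 cap, f y ≤ (1 + K) * ∑ y ∈ Icc 0 cap, if y ≤ u + η then f y else 0 := by
  rw [← sum_filter, ← sum_filter_add_sum_filter_not (Icc 0 cap) (fun y => y ≤ u + η) f]
  set M := ∑ y ∈ (Icc 0 cap).filter (fun y => y ≤ u + η), f y
  have hM : 0 ≤ M := sum_nonneg fun y _ => hf y
  have hη' : (0 : ℝ) < η + 1 := by positivity
  have h1 : ∀ y ∈ (Icc 0 cap).filter (fun y => ¬ y ≤ u + η), f y ≤ M / (η + 1) := by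
    intro y hy
    simp only [mem_filter, mem_Icc] at hy
    have a1 : ∑ y' ∈ Icc u (u + η), f y ≤ ∑ y' ∈ Icc u (u + η), f y' :=
      sum_le_sum fun y' hy' => by rw [mem_Icc] at hy'; exact hm _ _ hy'.1 (by omega)
    have a2 : ∑ y' ∈ Icc u (u + η), f y' ≤ M := sum_le_sum_of_subset_of_nonneg
      (fun y' hy' => by simp only [mem_filter, mem_Icc] at *; omega) fun y' _ _ => hf y'
    have a3 : (((u + η + 1 - u).toNat : ℕ) : ℝ) = η + 1 := by
      have : (((u + η + 1 - u).toNat : ℕ) : ℤ) = η + 1 := by omega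
      exact_mod_cast this
    rw [sum_const, Int.card_Icc, nsmul_eq_mul, a3] at a1
    rw [le_div_iff₀ hη']
    linarith
  have h2 : ∑ y ∈ (Icc 0 cap).filter (fun y => ¬ y ≤ u + η), f y ≤ K * M := by
    rw [← sum_filter_of_ne (p := fun y => y ≤ ρ) fun y _ h => not_lt.1 fun h' => h (hρ y h')]
    refine (sum_le_card_nsmul _ _ _ fun y hy => h1 y (mem_filter.1 hy).1).trans ?_
    have a1 := card_le_card (s := ((Icc 0 cap).filter fun y => ¬ y ≤ u + η).filter fun y => y ≤ ρ)
      (t := Icc 0 ρ) fun y hy => by simp only [mem_filter, mem_Icc] at *; omega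
    rw [Int.card_Icc] at a1
    have a2 : (((ρ + 1 - 0).toNat : ℕ) : ℝ) ≤ K * (η + 1) := by
      rcases le_total 0 (ρ + 1) with h | h
      · have : (((ρ + 1 - 0).toNat : ℕ) : ℤ) = ρ + 1 := by omega
        have : (((ρ + 1 - 0).toNat : ℕ) : ℝ) = ρ + 1 := by exact_mod_cast this
        linarith
      · rw [show (ρ + 1 - 0).toNat = 0 by omega, Nat.cast_zero]; positivity
    rw [nsmul_eq_mul]
    calc _ ≤ K * (η + 1) * (M / (η + 1)) :=
          mul_le_mul_of_nonneg_right ((Nat.cast_le.2 a1).trans a2) (by positivity)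
      _ = _ := by field_simp
  linarith

variable {J : Type} [Fintype J] [DecidableEq J] (cp : J → ℤ) (a : J → ℤ → ℝ)

/-- vectors in the box supported on `S` -/
noncomputable def bx (S : Finset J) : Finset (J → ℤ) :=
  Fintype.piFinset fun l => if l ∈ S then Icc 0 (cp l) else {0}

theorem sum_bx {S : Finset J} {l : J} (hl : l ∉ S) (F : (J → ℤ) → ℝ) :
    ∑ y ∈ bx cp (insert l S), F y =
      ∑ t ∈ Icc 0 (cp l), ∑ y ∈ bx cp S, F (Function.update y l t) := by
  rw [← sum_product']
  refine sum_nbij' (fun y => (y l, Function.update y l 0)) (fun p => Function.update p.2 l p.1)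
    (fun y hy => ?_) (fun p hp => ?_) (fun y _ => by simp) (fun p hp => ?_) fun y _ => by simp
  · simp only [bx, Fintype.mem_piFinset, mem_product] at hy ⊢
    refine ⟨by simpa using hy l, fun k => ?_⟩
    by_cases h : k = l
    · subst h; simp [hl]
    · simpa [h] using hy k
  · simp only [bx, Fintype.mem_piFinset, mem_product] at hp ⊢
    intro k
    by_cases h : k = l
    · subst h; simpa using hp.1
    · simpa [h] using hp.2 k
  · simp only [bx, Fintype.mem_piFinset, mem_product] at hp
    have : p.2 l = 0 := by simpa [hl] using hp.2 l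
    simp [← this]

/-- convolution of the weights of the columns in `S` -/
noncomputable def cv (S : Finset J) (k : ℤ) : ℝ :=
  ∑ y ∈ bx cp S, if ∑ l ∈ S, y l = k then ∏ l ∈ S, a l (y l) else 0

theorem upd {S : Finset J} {l : J} (hl : l ∉ S) (y : J → ℤ) (t k : ℤ) :
    (if ∑ i ∈ insert l S, Function.update y l t i = k then
      ∏ i ∈ insert l S, a i (Function.update y l t i) else 0) =
      a l t * if ∑ i ∈ S, y i = k - t then ∏ i ∈ S, a i (y i) else 0 := by
  have e : ∀ i ∈ S, Function.update y l t i = y i := fun i hi =>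
    Function.update_of_ne (by rintro rfl; exact hl hi) _ _
  rw [sum_insert hl, prod_insert hl, Function.update_self, sum_congr rfl e,
    prod_congr rfl fun i hi => congrArg (a i) (e i hi), mul_ite, mul_zero]
  exact if_congr (by rw [eq_sub_iff_add_eq, add_comm]) rfl rfl

theorem cv_insert {S : Finset J} {l : J} (hl : l ∉ S) (k : ℤ) :
    cv cp a (insert l S) k = ∑ t ∈ Icc 0 (cp l), a l t * cv cp a S (k - t) := by
  simp only [cv, sum_bx cp hl, upd a hl, mul_sum]

variable {cp a}

theorem cv_nonneg (ha : ∀ k t, 0 < a k t) (S : Finset J) (k : ℤ) : 0 ≤ cv cp a S k :=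
  sum_nonneg fun y _ => by
    split_ifs
    · exact prod_nonneg fun l _ => (ha _ _).le
    · exact le_rfl

theorem cv_neg (S : Finset J) {k : ℤ} (hk : k < 0) : cv cp a S k = 0 :=
  sum_eq_zero fun y hy => if_neg fun h => by
    have : 0 ≤ ∑ l ∈ S, y l := sum_nonneg fun l hl => by
      have := Fintype.mem_piFinset.1 hy l
      rw [if_pos hl, mem_Icc] at this
      exact this.1
    omega

theorem cv_mono (ha : ∀ k t, 0 < a k t) (ha' : ∀ k, Antitone (a k)) (d : J → ℤ) (S : Finset J)
    (hd : ∀ k ∈ S, 0 ≤ d k ∧ d k ≤ cp k ∧ ∀ t, 0 ≤ t → t ≤ d k → a k t = a k 0) :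
    ∀ z z', z ≤ z' → z + z' ≤ ∑ k ∈ S, d k → cv cp a S z ≤ cv cp a S z' := by
  induction S using Finset.induction_on with
  | empty =>
    intro z z' h h'
    rw [sum_empty] at h'
    rcases lt_or_ge z 0 with h0 | h0
    · rw [cv_neg _ h0]; exact cv_nonneg ha _ _
    · rw [show z' = z by omega]
  | insert l S hl ih =>
    intro k k' h h'
    obtain ⟨d0, d1, d2⟩ := hd l (mem_insert_self _ _)
    rw [sum_insert hl] at h'
    have hψ : ∀ I, d l ≤ I → 0 ≤ ∑ y ∈ Icc 0 I, (cv cp a S (k' - y) - cv cp a S (k - y)) :=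
      fun I hI => refl (ih fun k hk => hd k (mem_insert_of_mem hk)) h (by omega)
    have h1 := (mul_nonneg (ha l _).le (hψ _ d1)).trans (abel d0 (ha' l) d2 hψ _ d1)
    rw [cv_insert cp a hl, cv_insert cp a hl, ← sub_nonneg, ← sum_sub_distrib]
    simpa only [mul_sub] using h1

theorem sum_Fb {j js : J} (h : j ≠ js) (ρ : ℤ) (g : ℤ → ℤ → Prop) [∀ s t, Decidable (g s t)] :
    ∑ y ∈ (Fb cp ρ).filter (fun y => g (y j) (y js)), nu a y =
      ∑ s ∈ Icc 0 (cp j), ∑ t ∈ Icc 0 (cp js), if g s t then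
        a j s * (a js t * cv cp a ((univ.erase j).erase js) (ρ - s - t)) else 0 := by
  have h1 : js ∉ (univ.erase j).erase js := notMem_erase _ _
  have e1 : insert js ((univ.erase j).erase js) = univ.erase j := insert_erase (by simp [h.symm])
  have e2 : insert j (univ.erase j) = univ := insert_erase (mem_univ _)
  have e3 : Fb cp ρ = (bx cp (insert j (univ.erase j))).filter
      fun y => ∑ k ∈ insert j (univ.erase j), y k = ρ := by simp [Fb, bx]
  rw [e3, sum_filter, sum_filter, sum_bx cp (notMem_erase _ _)]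
  refine sum_congr rfl fun s _ => ?_
  have e4 : ∀ y : J → ℤ, (if ∑ k ∈ insert j (univ.erase j), Function.update y j s k = ρ then
      (if g (Function.update y j s j) (Function.update y j s js) then nu a (Function.update y j s)
        else 0) else 0) = if g s (y js) then a j s * (if ∑ i ∈ univ.erase j, y i = ρ - s then
          ∏ i ∈ univ.erase j, a i (y i) else 0) else 0 := by
    intro y
    rw [← upd a (notMem_erase _ _), e2, Function.update_self, Function.update_of_ne h.symm, nu]
    split_ifs <;> rfl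
  simp only [e4]
  generalize (univ.erase j).erase js = S at e1 h1 ⊢
  rw [← e1, sum_bx cp h1]
  refine sum_congr rfl fun t _ => ?_
  simp only [Function.update_self, upd a h1]
  split_ifs
  · simp only [cv, mul_sum]
  · simp

end Rt

open Rt in
theorem rat (J : Type) [Fintype J] [DecidableEq J] : RatStmt J := by
  intro cp a ha ha' j js hj d hd ds η ρ hds hη hρ K hK hK'
  have hm := cv_mono (cp := cp) ha ha' d ((univ.erase j).erase js) fun k hk => by
    simp only [mem_erase] at hk; exact hd k hk.2.1 hk.1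
  have h0 := cv_nonneg (cp := cp) ha ((univ.erase j).erase js)
  have hz := fun k => cv_neg (cp := cp) (a := a) ((univ.erase j).erase js) (k := k)
  have e1 := sum_Fb (cp := cp) (a := a) hj ρ fun _ _ => True
  rw [filter_true] at e1
  rw [e1, sum_Fb hj ρ fun s t => s + t ≤ ds + 2 * η]
  simp only [if_true]
  generalize cv cp a ((univ.erase j).erase js) = R at *
  have hW : ∀ s t, 0 ≤ a j s * (a js t * R (ρ - s - t)) := fun s t =>
    mul_nonneg (ha _ _).le (mul_nonneg (ha _ _).le (h0 _))
  calc _ ≤ ∑ s ∈ Icc 0 (cp j), (1 + K) * ∑ t ∈ Icc 0 (cp js),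
        if t ≤ ds + η then a j s * (a js t * R (ρ - s - t)) else 0 := by
        refine sum_le_sum fun s hs => oneD (hW s) (fun t ht => ?_) hds hη (fun t t' h h' => ?_) hK hK'
        all_goals rw [mem_Icc] at hs
        · rw [hz (ρ - s - t) (by omega), mul_zero, mul_zero]
        · exact mul_le_mul_of_nonneg_left (mul_le_mul (ha' js h') (hm _ _ (by omega) (by omega))
            (h0 _) (ha _ _).le) (ha _ _).le
    _ = (1 + K) * ∑ t ∈ Icc 0 (cp js), ∑ s ∈ Icc 0 (cp j),
        if t ≤ ds + η then a j s * (a js t * R (ρ - s - t)) else 0 := by rw [← mul_sum, sum_comm]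
    _ ≤ (1 + K) * ∑ t ∈ Icc 0 (cp js), (1 + K) * ∑ s ∈ Icc 0 (cp j),
        if s + t ≤ ds + 2 * η then a j s * (a js t * R (ρ - s - t)) else 0 := by
        refine mul_le_mul_of_nonneg_left (sum_le_sum fun t ht => ?_) (by linarith)
        rw [mem_Icc] at ht
        by_cases h : t ≤ ds + η
        · simp only [h, if_true]
          refine (oneD (u := max 0 (ds - t)) (fun s => hW s t) (fun s hs => ?_) (le_max_left _ _) hη
            (fun s s' h h' => ?_) hK hK').trans
            (mul_le_mul_of_nonneg_left (sum_le_sum fun s _ => ?_) (by linarith))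
          · rw [hz (ρ - s - t) (by omega), mul_zero, mul_zero]
          · exact mul_le_mul (ha' j h') (mul_le_mul_of_nonneg_left (hm _ _ (by omega) (by omega))
              (ha _ _).le) (mul_nonneg (ha _ _).le (h0 _)) (ha _ _).le
          · by_cases h' : s ≤ max 0 (ds - t) + η
            · rw [if_pos h', if_pos (by omega)]
            · rw [if_neg h']; split_ifs
              · exact hW _ _
              · exact le_rfl
        · simp only [h, if_false, sum_const_zero]
          refine mul_nonneg (by linarith) (sum_nonneg fun s _ => ?_)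
          split_ifs
          · exact hW _ _
          · exact le_rfl
    _ = _ := by rw [← mul_sum, sum_comm]; ring

end Vale.Agent.P328
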