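import Vale.Agent.P328.Boch

/-!
Transport of gradients along lines.
-/

namespace Vale.Agent.P328

open Finset

variable {I J : Type} [Fintype I] [Fintype J] [DecidableEq I] [DecidableEq J]

theorem path {X : Type} (A : Finset X) (W : X → ℝ) (hW : ∀ x, 0 ≤ W x) (G : ℕ → X → ℝ) (T : ℕ)
    {B : ℝ} (h : ∀ t < T, ∑ x ∈ A, W x * (G t x - G (t + 1) x) ^ 2 ≤ B) :
    ∑ x ∈ A, W x * (G 0 x - G T x) ^ 2 ≤ T ^ 2 * B := by
  calc ∑ x ∈ A, W x * (G 0 x - G T x) ^ 2
      ≤ ∑ x ∈ A, T * ∑ t ∈ range T, W x * (G t x - G (t + 1) x) ^ 2 := by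
        refine sum_le_sum fun x _ => ?_
        rw [← sum_range_sub' (fun t => G t x), ← mul_sum, mul_left_comm]
        refine mul_le_mul_of_nonneg_left ?_ (hW x)
        simpa using sq_sum_le_card_mul_sum_sq (s := range T) (f := fun t => G t x - G (t + 1) x)
    _ = T * ∑ t ∈ range T, ∑ x ∈ A, W x * (G t x - G (t + 1) x) ^ 2 := by
        rw [← mul_sum, sum_comm]
    _ ≤ T * ∑ t ∈ range T, B :=
        mul_le_mul_of_nonneg_left (sum_le_sum fun t ht => h t (mem_range.1 ht)) (by positivity)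
    _ = _ := by simp; ring

theorem two_sq {w a b r s Q : ℝ} (h0 : 0 ≤ w) (h1 : w ≤ Q * r) (h2 : w ≤ Q * s) :
    w * (a - b) ^ 2 ≤ 2 * Q * (r * a ^ 2 + s * b ^ 2) := by
  have e1 := mul_le_mul_of_nonneg_right h1 (sq_nonneg a)
  have e2 := mul_le_mul_of_nonneg_right h2 (sq_nonneg b)
  have e3 := mul_nonneg h0 (sq_nonneg (a + b))
  nlinarith

namespace Mdl

variable (M : Mdl I J) (u : St I J → ℝ)

theorem mem1 {x : St I J} (hx : x ∈ M.box) (c : I × J) {s : ℤ} (h1 : 0 ≤ x c + s)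
    (h2 : x c + s ≤ M.cap c) : x + e c s ∈ M.box := by
  rw [mem_box] at *
  intro a
  have := hx a
  simp only [Pi.add_apply, e_apply]
  split_ifs with h
  · subst h; omega
  · omega

theorem mem2 {x : St I J} (hx : x ∈ M.box) {c d : I × J} (hcd : c ≠ d) {s t : ℤ}
    (h1 : 0 ≤ x c + s) (h2 : x c + s ≤ M.cap c) (h3 : 0 ≤ x d + t) (h4 : x d + t ≤ M.cap d) :
    x + e c s + e d t ∈ M.box := by
  refine M.mem1 (M.mem1 hx c h1 h2) d ?_ ?_ <;>
    simp only [Pi.add_apply, e_apply, if_neg hcd.symm] <;> omega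

theorem om_bd {x : St I J} {c : I × J} (h : M.om x c ≠ 0) : 0 ≤ x c ∧ x c + 1 ≤ M.cap c := by
  have h1 := M.mem_box.1 (M.om_ne h).1 c
  have h2 := M.mem_box.1 (M.om_ne h).2 c
  simp only [Pi.add_apply, e_apply, if_true] at h2
  omega

theorem om_eq {x : St I J} {c : I × J} (h : M.om x c ≠ 0) :
    M.om x c = M.Lam x * M.Psi (x + e c 1) := if_pos (M.om_ne h)

/-- Energy on a set. -/
noncomputable def EnOn (A : Finset (St I J)) (c : I × J) : ℝ :=
  ∑ x ∈ A, M.om x c * gr u c x ^ 2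

/-- One square term. -/
noncomputable def F1 (c d : I × J) (y : St I J) : ℝ :=
  M.R y c d * (gr u c (y + e d 1) - gr u c y) ^ 2

/-- One face term. -/
noncomputable def F3 (c : I × J) (y : St I J) : ℝ := M.bw y c * gr u c y ^ 2

theorem F1_nonneg (c d : I × J) (y : St I J) : 0 ≤ M.F1 u c d y :=
  mul_nonneg (M.R_nonneg _ _ _) (sq_nonneg _)

theorem F3_nonneg (c : I × J) (y : St I J) : 0 ≤ M.F3 u c y :=
  mul_nonneg (M.bw_nonneg _ _) (sq_nonneg _)

theorem sum_F1 (A : Finset (St I J)) (c d : I × J) (v : St I J) :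
    ∑ x ∈ A, M.F1 u c d (x + v) ≤ M.NN u :=
  (M.sum_shift_le A _ v (M.F1_nonneg u c d) fun _ hy =>
    (M.R_ne (left_ne_zero_of_mul hy)).1).trans (M.Sq_le u c d)

theorem sum_F3 (A : Finset (St I J)) (c : I × J) (v : St I J) :
    ∑ x ∈ A, M.F3 u c (x + v) ≤ M.NN u :=
  (M.sum_shift_le A _ v (M.F3_nonneg u c) fun _ hy =>
    (M.bw_ne (left_ne_zero_of_mul hy)).1).trans (M.Bt_le u c)

theorem sum_En (A : Finset (St I J)) (c : I × J) (v : St I J) :
    ∑ x ∈ A, M.om (x + v) c * gr u c (x + v) ^ 2 ≤ M.En u c :=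
  M.sum_shift_le A (fun x => M.om x c * gr u c x ^ 2) v
    (fun _ => mul_nonneg (M.om_nonneg _ _) (sq_nonneg _)) fun _ hy =>
    (M.om_ne (left_ne_zero_of_mul hy)).1

theorem EnOn_path (A : Finset (St I J)) (c : I × J) (v : ℕ → St I J) (h0 : v 0 = 0) {B : ℝ}
    (h : ∀ t : ℕ, ∑ x ∈ A, M.om x c * ((if (t : ℤ) ≤ x c then gr u c (x + v t) else 0) -
      (if ((t + 1 : ℕ) : ℤ) ≤ x c then gr u c (x + v (t + 1)) else 0)) ^ 2 ≤ B) :
    M.EnOn u A c ≤ ((M.cap c : ℝ) + 1) ^ 2 * B := by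
  have := path A (fun x => M.om x c) (fun x => M.om_nonneg x c)
    (fun t x => if (t : ℤ) ≤ x c then gr u c (x + v t) else 0) ((M.cap c).toNat + 1)
    fun t _ => h t
  have e1 : (((M.cap c).toNat + 1 : ℕ) : ℝ) = M.cap c + 1 := by
    have := Int.toNat_of_nonneg (M.capnn c)
    push_cast
    exact_mod_cast congrArg (· + 1) this
  rw [e1] at this
  refine le_trans (le_of_eq (sum_congr rfl fun x _ => ?_)) this
  by_cases hx : M.om x c = 0
  · simp [hx]
  · have := M.om_bd hx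
    rw [if_pos (by simpa using this.1), if_neg (by omega), h0, add_zero, sub_zero]

theorem exch (A : Finset (St I J)) (i : I) {j k : J} (hjk : j ≠ k) {Q : ℝ} (hQ : 0 ≤ Q)
    (h : ∀ x ∈ A, M.om x (i, j) ≠ 0 → x (i, j) + x (i, k) + 1 ≤ M.cap (i, k) ∧
      M.P k (col x k) ≤ Q * M.P k (col x k + x (i, j) + 1)) :
    M.EnOn u A (i, j) ≤ ((M.cap (i, j) : ℝ) + 1) ^ 2 * (6 * Q * M.NN u) := by
  have hcd : (i, j) ≠ (i, k) := fun h => hjk (Prod.ext_iff.1 h).2
  refine M.EnOn_path u A (i, j) (fun t => e (i, j) (-t) + e (i, k) t) (by simp) fun t => ?_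
  have s1 := M.sum_F1 u A (i, j) (i, k) (e (i, j) (-t) + e (i, k) t)
  have s2 := M.sum_F1 u A (i, j) (i, j) (e (i, j) (-(t + 1 : ℕ)) + e (i, k) (t + 1 : ℕ))
  have s3 := M.sum_F3 u A (i, j) (e (i, j) (-t) + e (i, k) t + e (i, k) 1)
  refine le_trans (sum_le_sum (g := fun x => 2 * Q * (M.F1 u (i, j) (i, k)
    (x + (e (i, j) (-t) + e (i, k) t)) + M.F1 u (i, j) (i, j)
    (x + (e (i, j) (-(t + 1 : ℕ)) + e (i, k) (t + 1 : ℕ))) +
    M.F3 u (i, j) (x + (e (i, j) (-t) + e (i, k) t + e (i, k) 1)))) fun x hx => ?_) ?_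
  swap
  · rw [← mul_sum, sum_add_distrib, sum_add_distrib]
    nlinarith
  have n1 := M.F1_nonneg u (i, j) (i, k) (x + (e (i, j) (-t) + e (i, k) t))
  have n2 := M.F1_nonneg u (i, j) (i, j) (x + (e (i, j) (-(t + 1 : ℕ)) + e (i, k) (t + 1 : ℕ)))
  have n3 := M.F3_nonneg u (i, j) (x + (e (i, j) (-t) + e (i, k) t + e (i, k) 1))
  by_cases h0 : M.om x (i, j) = 0 ∨ x (i, j) < t
  · rcases h0 with h0 | h0
    · rw [h0, zero_mul]; positivity
    · rw [if_neg (by omega), if_neg (by push_cast; omega)]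
      simp only [sub_zero, ne_eq, OfNat.ofNat_ne_zero, not_false_eq_true, zero_pow, mul_zero]
      positivity
  push Not at h0
  obtain ⟨h0, ht⟩ := h0
  obtain ⟨a1, a2⟩ := h x hx h0
  have b1 := M.om_bd h0
  have hx := (M.om_ne h0).1
  have b2 := M.mem_box.1 hx (i, k)
  obtain ⟨y, hy⟩ : ∃ y, y = x + (e (i, j) (-t) + e (i, k) t) := ⟨_, rfl⟩
  have y1 : y ∈ M.box := by
    rw [hy, ← add_assoc]; exact M.mem2 hx hcd (by omega) (by omega) (by omega) (by omega)
  have y2 : y + e (i, j) 1 + e (i, k) 1 = x + e (i, j) (-t + 1) + e (i, k) (t + 1) := by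
    rw [hy, e_add, e_add]; abel
  have y3 : y + e (i, j) 1 + e (i, k) 1 ∈ M.box := by
    rw [y2]; exact M.mem2 hx hcd (by omega) (by omega) (by omega) (by omega)
  have y4 : ∀ s s' : ℤ, s + s' = 0 → M.Lam (x + (e (i, j) s + e (i, k) s')) = M.Lam x :=
    fun s s' hs => M.Lam_congr fun l => by
      simp only [row_add, row_e]; split_ifs <;> omega
  have y5 : M.om x (i, j) ≤ Q * (M.Lam x * M.Psi (y + e (i, j) 1 + e (i, k) 1)) := by
    rw [M.om_eq h0, mul_left_comm, y2]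
    refine mul_le_mul_of_nonneg_left (M.Psi_le k (fun j' hj' => ?_) ?_) (M.Lam_pos _).le
    · simp only [col_add, col_e, if_neg hj']; split_ifs <;> omega
    · simp only [col_add, col_e, if_neg hjk.symm, if_true, add_zero]
      exact a2.trans (mul_le_mul_of_nonneg_left (M.Panti k (by omega)) hQ)
  have r1 : M.om x (i, j) ≤ Q * M.R y (i, j) (i, k) := by
    rw [R, if_pos ⟨y1, y3⟩, hy, y4 _ _ (by omega), ← hy]; exact y5
  rw [← add_assoc x (e (i, j) (-t) + e (i, k) t), ← hy] at n3 ⊢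
  rw [← hy] at n1
  rw [if_pos ht]
  by_cases ht' : ((t + 1 : ℕ) : ℤ) ≤ x (i, j)
  · obtain ⟨z, hz⟩ : ∃ z, z = x + (e (i, j) (-(t + 1 : ℕ)) + e (i, k) (t + 1 : ℕ)) := ⟨_, rfl⟩
    have z1 : z ∈ M.box := by
      rw [hz, ← add_assoc]
      exact M.mem2 hx hcd (by omega) (by omega) (by omega) (by omega)
    have z2 : z + e (i, j) 1 = y + e (i, k) 1 := by
      rw [hz, hy]; push_cast; rw [neg_add, e_add, e_add, e_neg _ 1]; abel
    have r2 : M.om x (i, j) ≤ Q * M.R z (i, j) (i, j) := by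
      rw [R, z2, add_right_comm, if_pos ⟨z1, y3⟩, hz, y4 _ _ (by omega)]; exact y5
    rw [if_pos ht', ← hz]
    rw [← hz] at n2
    have := two_sq (a := gr u (i, j) (z + e (i, j) 1) - gr u (i, j) z)
      (b := gr u (i, j) (y + e (i, k) 1) - gr u (i, j) y) (M.om_nonneg x (i, j)) r2 r1
    rw [z2] at this
    simp only [F1, z2] at *
    have e1 : gr u (i, j) y - gr u (i, j) z = gr u (i, j) (y + e (i, k) 1) - gr u (i, j) z -
      (gr u (i, j) (y + e (i, k) 1) - gr u (i, j) y) := by ring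
    rw [e1]
    nlinarith
  · have r2 : M.om x (i, j) ≤ Q * M.bw (y + e (i, k) 1) (i, j) := by
      have z0 : (y + e (i, k) 1) (i, j) = 0 := by
        simp only [hy, Pi.add_apply, e_apply, if_true, if_neg hcd]; push_cast at ht'; omega
      have z1 : y + e (i, k) 1 - e (i, j) 1 = x + (e (i, j) (-t + -1) + e (i, k) (t + 1)) := by
        rw [hy, e_add, e_add, e_neg _ 1]; abel
      rw [bw, add_right_comm, if_pos ⟨z0, M.mid_mem (d := (i, j)) y1 (by rwa [add_right_comm]),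
        y3⟩, z1, y4 _ _ (by omega)]
      exact y5
    rw [if_neg ht', sub_zero]
    have := two_sq (a := gr u (i, j) (y + e (i, k) 1))
      (b := gr u (i, j) (y + e (i, k) 1) - gr u (i, j) y) (M.om_nonneg x (i, j)) r2 r1
    simp only [F1, F3, sub_sub_cancel] at *
    nlinarith

theorem down (A : Finset (St I J)) (c : I × J)
    (h : ∀ x ∈ A, M.om x c ≠ 0 → ∀ t : ℤ, 0 ≤ t → t ≤ x c + 1 →
      M.L c.1 (row x c.1) ≤ M.L c.1 (row x c.1 - t)) :
    M.EnOn u A c ≤ ((M.cap c : ℝ) + 1) ^ 2 * (2 * M.NN u) := by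
  refine M.EnOn_path u A c (fun t => e c (-t)) (by simp) fun t => ?_
  have s2 := M.sum_F1 u A c c (e c (-(t + 1 : ℕ)))
  have s3 := M.sum_F3 u A c (e c (-t))
  refine le_trans (sum_le_sum (g := fun x => M.F1 u c c (x + e c (-(t + 1 : ℕ))) +
    M.F3 u c (x + e c (-t))) fun x hx => ?_) ?_
  swap
  · rw [sum_add_distrib]; linarith
  have n2 := M.F1_nonneg u c c (x + e c (-(t + 1 : ℕ)))
  have n3 := M.F3_nonneg u c (x + e c (-t))
  by_cases h0 : M.om x c = 0 ∨ x c < t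
  · rcases h0 with h0 | h0
    · rw [h0, zero_mul]; positivity
    · rw [if_neg (by omega), if_neg (by push_cast; omega)]
      simp only [sub_zero, ne_eq, OfNat.ofNat_ne_zero, not_false_eq_true, zero_pow, mul_zero]
      positivity
  push Not at h0
  obtain ⟨h0, ht⟩ := h0
  have b1 := M.om_bd h0
  have hb := (M.om_ne h0).1
  have y2 : x + e c (-t) + e c 1 = x + e c (-t + 1) := by rw [e_add, add_assoc]
  have y3 : x + e c (-t) + e c 1 ∈ M.box := by
    rw [y2]; exact M.mem1 hb c (by omega) (by omega)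
  have z2 : x + e c (-(t + 1 : ℕ)) + e c 1 = x + e c (-t) := by
    push_cast; rw [neg_add, e_add, e_neg _ 1]; abel
  have y5 : M.om x c ≤ M.Lam (x + e c (-(t + 1 : ℕ))) * M.Psi (x + e c (-t) + e c 1) := by
    rw [M.om_eq h0, y2]
    refine mul_le_mul ?_ (M.Psi_mono fun j => ?_) (M.Psi_pos _).le (M.Lam_pos _).le
    · rw [← one_mul (M.Lam (x + _))]
      refine M.Lam_le c.1 (fun l hl => by simp [row_e, hl]) ?_
      simp only [row_add, row_e, if_true, one_mul, ← sub_eq_add_neg]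
      exact h x hx h0 _ (by omega) (by push_cast; omega)
    · simp only [col_add, col_e]; split_ifs <;> omega
  rw [if_pos ht]
  by_cases ht' : ((t + 1 : ℕ) : ℤ) ≤ x c
  · rw [if_pos ht']
    refine le_trans ?_ (le_add_of_nonneg_right n3)
    rw [F1, R, z2, if_pos ⟨M.mem1 hb c (by omega) (by omega), y3⟩]
    exact mul_le_mul_of_nonneg_right y5 (sq_nonneg _)
  · rw [if_neg ht', sub_zero]
    refine le_trans ?_ (le_add_of_nonneg_left n2)
    rw [F3, bw, if_pos ⟨by simp only [Pi.add_apply, e_apply, if_true]; push_cast at ht'; omega,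
      M.mem1 hb c (by omega) (by omega), y3⟩]
    refine mul_le_mul_of_nonneg_right ?_ (sq_nonneg _)
    rwa [← z2, add_sub_cancel_right, z2]

theorem pushDown (A : Finset (St I J)) (c d : I × J) (δ : ℕ) {G : ℝ} (hG : 0 < G)
    (h : ∀ x ∈ A, M.om x c ≠ 0 → (δ : ℤ) ≤ x d ∧ (∀ t : ℤ, 0 ≤ t → t ≤ δ →
      M.L d.1 (row x d.1) ≤ M.L d.1 (row x d.1 - t)) ∧
      G * M.L d.1 (row x d.1) ≤ M.L d.1 (row x d.1 - δ)) :
    M.EnOn u A c ≤ 2 / G * M.En u c + 2 * δ ^ 2 * M.NN u := by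
  have key : ∀ x ∈ A, M.om x c ≠ 0 → ∀ s t : ℤ, ∀ Q : ℝ, 0 ≤ Q → 0 ≤ s → s ≤ δ → 0 ≤ t → t ≤ δ →
      M.L d.1 (row x d.1) ≤ Q * M.L d.1 (row x d.1 - s) →
      (x + e d (-s) ∈ M.box ∧ x + e c 1 + e d (-t) ∈ M.box) ∧
      M.om x c ≤ Q * (M.Lam (x + e d (-s)) * M.Psi (x + e c 1 + e d (-t))) := by
    intro x hx h0 s t Q hQ s0 s1 t0 t1 hL
    obtain ⟨a1, -⟩ := h x hx h0
    have b1 := M.mem_box.1 (M.om_ne h0).1 d
    have b2 := M.mem_box.1 (M.om_ne h0).2 d
    refine ⟨⟨M.mem1 (M.om_ne h0).1 d (by omega) (by omega), M.mem1 (M.om_ne h0).2 d ?_ (by omega)⟩,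
      ?_⟩
    · simp only [Pi.add_apply, e_apply]; split_ifs <;> omega
    rw [M.om_eq h0, ← mul_assoc]
    refine mul_le_mul ?_ (M.Psi_mono fun j => ?_) (M.Psi_pos _).le
      (mul_nonneg hQ (M.Lam_pos _).le)
    · refine M.Lam_le d.1 (fun l hl => by simp [row_e, hl]) ?_
      simpa only [row_add, row_e, if_true, ← sub_eq_add_neg] using hL
    · simp only [col_add, col_e]; split_ifs <;> omega
  have p1 := path A (fun x => M.om x c) (fun x => M.om_nonneg x c)
    (fun t x => gr u c (x + e d (-t))) δ (B := M.NN u) fun t ht => by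
      refine le_trans (sum_le_sum fun x hx => ?_) (M.sum_F1 u A c d (e d (-(t + 1 : ℕ))))
      by_cases h0 : M.om x c = 0
      · rw [h0, zero_mul]; exact M.F1_nonneg _ _ _ _
      have z2 : x + e d (-(t + 1 : ℕ)) + e d 1 = x + e d (-t) := by
        push_cast; rw [neg_add, e_add, e_neg _ 1]; abel
      have z3 : x + e d (-(t + 1 : ℕ)) + e c 1 + e d 1 = x + e c 1 + e d (-t) := by
        rw [add_right_comm, z2, add_right_comm]
      have := key x hx h0 (t + 1 : ℕ) t 1 zero_le_one (by omega) (by omega) (by omega) (by omega)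
        (by rw [one_mul]; exact (h x hx h0).2.1 _ (by omega) (by omega))
      rw [F1, R, z2, z3, if_pos this.1]
      exact mul_le_mul_of_nonneg_right (by simpa using this.2) (sq_nonneg _)
  have p2 := M.sum_En u A c (e d (-δ))
  have p3 : M.EnOn u A c ≤ ∑ x ∈ A, (2 / G * (M.om (x + e d (-δ)) c * gr u c (x + e d (-δ)) ^ 2) +
      2 * (M.om x c * (gr u c (x + e d (-(0 : ℕ))) - gr u c (x + e d (-δ))) ^ 2)) := by
    refine sum_le_sum fun x hx => ?_
    by_cases h0 : M.om x c = 0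
    · have := M.om_nonneg (x + e d (-δ)) c
      rw [h0, zero_mul, zero_mul]; positivity
    have := key x hx h0 δ δ (1 / G) (by positivity) (by omega) le_rfl (by omega) le_rfl (by
      rw [one_div, inv_mul_eq_div, le_div_iff₀' hG]; exact (h x hx h0).2.2)
    have k2 : M.om x c ≤ 1 / G * M.om (x + e d (-δ)) c := by
      rw [om.eq_1 M (x + _), add_right_comm, if_pos this.1]; exact this.2
    have k3 := mul_le_mul_of_nonneg_right k2 (sq_nonneg (gr u c (x + e d (-δ))))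
    have k4 := mul_nonneg (M.om_nonneg x c) (sq_nonneg (gr u c x - 2 * gr u c (x + e d (-δ))))
    simp only [Nat.cast_zero, neg_zero, e_zero, add_zero]
    have : 2 / G = 2 * (1 / G) := by ring
    rw [this]
    nlinarith
  rw [sum_add_distrib, ← mul_sum, ← mul_sum] at p3
  have := mul_le_mul_of_nonneg_left p2 (show 0 ≤ 2 / G by positivity)
  refine p3.trans (add_le_add this ?_)
  rw [mul_assoc]
  exact mul_le_mul_of_nonneg_left p1 zero_le_two

theorem pushUp (A : Finset (St I J)) (c d : I × J) {G Q : ℝ} (hG : 0 < G) (hQ : 0 < Q)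
    (h : ∀ x ∈ A, M.om x c ≠ 0 → x + e c 1 + e d 1 ∈ M.box ∧
      M.P d.2 (col (x + e c 1) d.2) ≤ Q * M.P d.2 (col (x + e c 1) d.2 + 1) ∧
      G * Q * M.L d.1 (row x d.1) ≤ M.L d.1 (row x d.1 + 1)) :
    M.EnOn u A c ≤ 2 / G * M.En u c + 2 * Q * M.NN u := by
  have p1 := M.sum_F1 u A c d 0
  have p2 := M.sum_En u A c (e d 1)
  have p3 : M.EnOn u A c ≤ ∑ x ∈ A, (2 / G * (M.om (x + e d 1) c * gr u c (x + e d 1) ^ 2) +
      2 * Q * M.F1 u c d (x + 0)) := by
    refine sum_le_sum fun x hx => ?_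
    have n1 := M.F1_nonneg u c d (x + 0)
    by_cases h0 : M.om x c = 0
    · have := M.om_nonneg (x + e d 1) c
      rw [h0, zero_mul]; positivity
    obtain ⟨a1, a2, a3⟩ := h x hx h0
    have hb := (M.om_ne h0).1
    have k0 : M.Psi (x + e c 1) ≤ Q * M.Psi (x + e c 1 + e d 1) :=
      M.Psi_le d.2 (fun j hj => by simp [col_e, hj]) (by
        rw [col_add (x + e c 1), col_e, if_pos rfl]; exact a2)
    have k1 : M.om x c ≤ Q * M.R x c d := by
      rw [M.om_eq h0, R, if_pos ⟨hb, a1⟩, mul_left_comm]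
      exact mul_le_mul_of_nonneg_left k0 (M.Lam_pos _).le
    have k2 : M.om x c ≤ 1 / G * M.om (x + e d 1) c := by
      have k5 : M.Lam x ≤ 1 / (G * Q) * M.Lam (x + e d 1) :=
        M.Lam_le d.1 (fun l hl => by simp [row_e, hl]) (by
          rw [row_add, row_e, if_pos rfl, one_div, inv_mul_eq_div, le_div_iff₀' (by positivity)]
          exact a3)
      rw [om.eq_1 M (x + _), add_right_comm, if_pos ⟨M.mid_mem (d := c) hb
        (by rwa [add_right_comm]), a1⟩, M.om_eq h0]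
      refine (mul_le_mul k5 k0 (M.Psi_pos _).le (mul_nonneg (by positivity)
        (M.Lam_pos _).le)).trans (le_of_eq ?_)
      field_simp
    have k3 := mul_le_mul_of_nonneg_right k2 (sq_nonneg (gr u c (x + e d 1)))
    have k4 := mul_nonneg (M.om_nonneg x c) (sq_nonneg (2 * gr u c (x + e d 1) - gr u c x))
    have k6 := mul_le_mul_of_nonneg_right k1 (sq_nonneg (gr u c (x + e d 1) - gr u c x))
    have : 2 / G = 2 * (1 / G) := by ring
    rw [this, add_zero, F1]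
    nlinarith
  rw [sum_add_distrib, ← mul_sum, ← mul_sum] at p3
  have := mul_le_mul_of_nonneg_left p2 (show 0 ≤ 2 / G by positivity)
  have := mul_le_mul_of_nonneg_left p1 (show 0 ≤ 2 * Q by positivity)
  linarith

theorem om_down {y : St I J} (hy : y ∈ M.box) (c : I × J) :
    M.om (y - e c 1) c * gr u c (y - e c 1) ^ 2 =
      M.pi y * (M.L c.1 (row y c.1 - 1) / M.L c.1 (row y c.1)) * M.vB u c y ^ 2 := by
  have p1 := M.Lam_shift y c (-1)
  simp only [e_neg, ← sub_eq_add_neg] at p1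
  unfold om vB pi
  by_cases h : y - e c 1 ∈ M.box
  · rw [sub_add_cancel, if_pos ⟨h, hy⟩, if_pos h, p1]; ring
  · rw [if_neg h, if_neg fun h' => h h'.1]; simp

theorem ddl (i : I) (j : J) (p : St I J → Prop) [DecidablePred p] (js : St I J → J)
    (hp : ∀ y k, p (y - e (i, j) 1) → p (y - e (i, k) 1))
    (hjs : ∀ y k, js (y - e (i, k) 1) = js (y - e (i, j) 1)) {ζ : ℝ} (hζ : 0 < ζ)
    (h : ∀ x ∈ M.box, x + e (i, j) 1 ∈ M.box → p x → ζ ≤ M.dL i (row x i)) :
    M.EnOn u (M.box.filter fun x => p x ∧ js x = j) (i, j) ≤ 2 / ζ * M.NN u +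
      2 * Fintype.card J * ∑ k, M.EnOn u (M.box.filter fun x => p x ∧ js x ≠ k) (i, k) := by
  have sh : ∀ (q : St I J → Prop) [DecidablePred q] (k : J), M.EnOn u (M.box.filter q) (i, k) =
      ∑ y ∈ M.box, if q (y - e (i, k) 1) then M.pi y * (M.L i (row y i - 1) / M.L i (row y i)) *
        M.vB u (i, k) y ^ 2 else 0 := by
    intro q _ k
    rw [EnOn, sum_filter, ← M.sum_shift (fun x => if q x then M.om x (i, k) * gr u (i, k) x ^ 2
      else 0) (e (i, k) 1) fun y hy => M.om_ne (left_ne_zero_of_mul (by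
        by_contra h'; exact hy (by rw [h']; simp)))]
    exact sum_congr rfl fun y hy => by rw [M.om_down u hy]
  simp only [sh]
  refine le_trans ?_ (add_le_add (mul_le_mul_of_nonneg_left (M.DD_le u i) (by positivity)) le_rfl)
  rw [DD, sum_comm, mul_sum, mul_sum, ← sum_add_distrib]
  refine sum_le_sum fun y hy => ?_
  obtain ⟨w, hw⟩ : ∃ w, w = M.pi y * (M.L i (row y i - 1) / M.L i (row y i)) := ⟨_, rfl⟩
  have w0 : 0 < w := hw ▸ mul_pos (M.pi_pos _) (div_pos (M.Lpos _ _) (M.Lpos _ _))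
  have d0 := M.dL_nonneg i (row y i - 1)
  rw [DDw, ← hw]
  have n1 : 0 ≤ ∑ k, if p (y - e (i, k) 1) ∧ js (y - e (i, k) 1) ≠ k then
      w * M.vB u (i, k) y ^ 2 else 0 := sum_nonneg fun k _ => by split_ifs <;> positivity
  by_cases h1 : (p (y - e (i, j) 1) ∧ js (y - e (i, j) 1) = j) ∧ y - e (i, j) 1 ∈ M.box
  swap
  · refine le_trans (le_of_eq ?_) (show 0 ≤ _ by positivity)
    by_cases h2 : y - e (i, j) 1 ∈ M.box
    · exact if_neg fun h3 => h1 ⟨h3, h2⟩
    · simp [vB, h2]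
  rw [if_pos h1.1]
  have d1 := h _ h1.2 (by rwa [sub_add_cancel]) h1.1.1
  rw [row_sub, row_e, if_pos rfl] at d1
  have e1 : (∑ k, if p (y - e (i, k) 1) ∧ js (y - e (i, k) 1) ≠ k then
      w * M.vB u (i, k) y ^ 2 else 0) = w * ∑ k ∈ univ.erase j, M.vB u (i, k) y ^ 2 := by
    rw [← add_sum_erase _ _ (mem_univ j), if_neg fun h' => h'.2 h1.1.2, zero_add, mul_sum]
    refine sum_congr rfl fun k hk => if_pos ⟨hp y k h1.1.1, ?_⟩
    rw [hjs, h1.1.2]; exact (ne_of_mem_erase hk).symm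
  rw [e1, ← add_sum_erase _ _ (mem_univ j)]
  have e2 := sq_sum_le_card_mul_sum_sq (s := univ.erase j) (f := fun k => M.vB u (i, k) y)
  have e3 : ((univ.erase j).card : ℝ) ≤ Fintype.card J := by exact_mod_cast card_le_univ _
  have e4 : 0 ≤ ∑ k ∈ univ.erase j, M.vB u (i, k) y ^ 2 := sum_nonneg fun _ _ => sq_nonneg _
  generalize ∑ k ∈ univ.erase j, M.vB u (i, k) y ^ 2 = S2 at *
  generalize ∑ k ∈ univ.erase j, M.vB u (i, k) y = S at *
  generalize M.vB u (i, j) y = a at *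
  have e5 : 2 * (w * (a + S) ^ 2) ≤ 2 / ζ * (w * M.dL i (row y i - 1) * (a + S) ^ 2) := by
    have : 2 / ζ * (w * M.dL i (row y i - 1) * (a + S) ^ 2) =
      2 * (w * (a + S) ^ 2) * (M.dL i (row y i - 1) / ζ) := by ring
    rw [this]
    exact le_mul_of_one_le_right (by positivity) ((one_le_div hζ).2 d1)
  have e6 : S ^ 2 ≤ Fintype.card J * S2 := e2.trans (mul_le_mul_of_nonneg_right e3 e4)
  have e7 := mul_le_mul_of_nonneg_left e6 w0.le
  have e8 := mul_nonneg w0.le (sq_nonneg (a + 2 * S))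
  nlinarith

end Mdl

end Vale.Agent.P328
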