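import Vale.Agent.P328.Spec
import Vale.Agent.P328.Facts2

/-!
Accepted states and tables; rounding of the energy.
-/

namespace Vale.Agent.P328

open Finset

variable {I J : Type} [Fintype I] [Fintype J] [DecidableEq I] [DecidableEq J]

namespace Par

variable (p : Par I J)

/-- The state of a table with slacks. -/
def uMk (T : I → J → ℕ) (s : I → ℤ) : St I J :=
  fun c => if c.1 = p.ms then 0 else T c.1 c.2 + if c.2 = p.ns then s c.1 else 0

/-- The slacks of a state. -/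
def uSl (x : St I J) : I → ℤ := fun i => row x i - p.rh i

/-- The admissible slacks. -/
noncomputable def uS : Finset (I → ℤ) := Fintype.piFinset fun i => Icc 0 (p.aa i : ℤ)

/-- The weight of the slacks. -/
noncomputable def uW (s : I → ℤ) : ℝ := p.gam ^ ∑ i, p.WR i (p.rh i + s i)

omit [DecidableEq J] in
theorem u_aa_ms : p.aa p.ms = 0 := by have := p.aa_le' p.ms; rw [p.rh_ms] at this; omega

theorem u_mem {r : I → ℕ} {c : J → ℕ} {T : I → J → ℕ} :
    T ∈ tables r c ↔ (∀ i, ∑ j, T i j = r i) ∧ ∀ j, ∑ i, T i j = c j := by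
  simp only [tables, mem_filter, Fintype.mem_piFinset, mem_range, and_iff_right_iff_imp]
  intro h i j
  have := single_le_sum (f := T i) (fun _ _ => Nat.zero_le _) (mem_univ j)
  rw [h.1] at this
  omega

theorem u_zero {x : St I J} (h : x ∈ p.mdl.box) (j : J) : x (p.ms, j) = 0 := by
  have := p.mdl.mem_box.1 h (p.ms, j)
  rw [p.cap_ms] at this
  omega

theorem u_tr_ms {x : St I J} (h : x ∈ p.mdl.box) (j : J) : p.tr x p.ms j = 0 := by
  simp [tr, row, p.u_zero h, p.rh_ms]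

theorem u_tr_eq (x : St I J) (i : I) (j : J) :
    p.tr x i j = x (i, j) - if j = p.ns then p.uSl x i else 0 := by
  unfold tr uSl; split_ifs <;> simp

theorem u_tr_row (x : St I J) (i : I) : ∑ j, p.tr x i j = p.rh i := by
  simp only [u_tr_eq, sum_sub_distrib, sum_ite_eq', mem_univ, if_true, uSl, row]
  ring

omit [DecidableEq J] in
theorem u_rh_sum : ∑ i, (p.rh i : ℤ) + p.r p.ms = ∑ j, (p.c j : ℤ) := by
  have h : ∑ i, (p.r i : ℤ) = ∑ j, (p.c j : ℤ) := by exact_mod_cast p.hsum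
  rw [← h, ← add_sum_erase univ _ (mem_univ p.ms), ← add_sum_erase univ _ (mem_univ p.ms), p.rh_ms,
    sum_congr rfl fun i hi => congrArg Nat.cast (p.rh_eq (ne_of_mem_erase hi))]
  simp [add_comm]

theorem u_tab {x : St I J} (h : p.Acc x) (i : I) (j : J) : (p.tab x i j : ℤ) = p.tb x i j :=
  Int.toNat_of_nonneg (h.2 i j)

theorem u_tab_mem {x : St I J} (hx : x ∈ p.mdl.box) (h : p.Acc x) : p.tab x ∈ tables p.r p.c := by
  refine u_mem.2 ⟨fun i => ?_, fun j => ?_⟩ <;> zify <;> simp only [p.u_tab h]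
  · by_cases hi : i = p.ms
    · simp only [tb, hi, if_true, sum_sub_distrib]
      rw [sum_comm]
      simp only [u_tr_row]
      have := p.u_rh_sum
      omega
    · simp only [tb, if_neg hi, u_tr_row, p.rh_eq hi]
  · rw [← add_sum_erase univ _ (mem_univ p.ms),
      sum_congr (f := fun i => p.tb x i j) (g := fun i => p.tr x i j) rfl
        fun i hi => if_neg (ne_of_mem_erase hi)]
    simp only [tb, if_true]
    rw [← add_sum_erase univ _ (mem_univ p.ms), p.u_tr_ms hx]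
    ring

theorem u_mk_tab {x : St I J} (hx : x ∈ p.mdl.box) (h : p.Acc x) :
    p.uMk (p.tab x) (p.uSl x) = x := by
  funext ⟨i, j⟩
  unfold uMk
  by_cases hi : i = p.ms
  · simp only [hi, if_true, p.u_zero hx]
  · simp only [if_neg hi, p.u_tab h, tb, u_tr_eq]
    ring

theorem u_wt {x : St I J} (h : p.Acc x) : p.wt x = p.uW (p.uSl x) := by
  have hc : ∀ j, p.WC j (col x j) = 0 := fun j => by
    have h1 := h.2 p.ms j
    simp only [tb, if_true, u_tr_eq, sum_sub_distrib] at h1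
    have h2 : ∑ i, p.uSl x i ≤ p.SA := by
      rw [SA]; push_cast
      exact sum_le_sum fun i _ => by have := (h.1 i).2; unfold uSl; omega
    have h3 : (col x j - p.cc j).toNat = 0 := by
      unfold cc col
      split_ifs with hj
      · simp only [hj, if_true] at h1 ⊢
        push_cast
        omega
      · simp only [if_neg hj, sum_const_zero] at h1
        omega
    simp [WC, h3]
  simp [wt, uW, W, hc, uSl]

section
variable {T : I → J → ℕ} {s : I → ℤ} (hT : T ∈ tables p.r p.c) (hs : s ∈ p.uS)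
include hT hs

theorem u_row (i : I) : row (p.uMk T s) i = p.rh i + s i := by
  have h1 := mem_Icc.1 (Fintype.mem_piFinset.1 hs i)
  by_cases hi : i = p.ms
  · subst hi
    rw [p.u_aa_ms] at h1
    simp only [row, uMk, if_true, sum_const_zero, p.rh_ms]
    omega
  · have h2 : ∑ j, (T i j : ℤ) = p.r i := by exact_mod_cast (u_mem.1 hT).1 i
    simp only [row, uMk, if_neg hi, sum_add_distrib, sum_ite_eq', mem_univ, if_true, h2, p.rh_eq hi]

theorem u_sl : p.uSl (p.uMk T s) = s := by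
  funext i; rw [uSl, p.u_row hT hs]; ring

theorem u_tb (i : I) (j : J) : p.tb (p.uMk T s) i j = T i j := by
  have h1 : ∀ l, l ≠ p.ms → p.tr (p.uMk T s) l j = T l j := fun l hl => by
    simp only [u_tr_eq, p.u_sl hT hs, uMk, if_neg hl]; ring
  have h0 : p.tr (p.uMk T s) p.ms j = 0 := by
    have h1 := mem_Icc.1 (Fintype.mem_piFinset.1 hs p.ms)
    rw [p.u_aa_ms] at h1
    simp only [u_tr_eq, p.u_sl hT hs, uMk, if_true]
    split_ifs <;> omega
  unfold tb
  split_ifs with hi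
  · have h2 : ∑ i, (T i j : ℤ) = p.c j := by exact_mod_cast (u_mem.1 hT).2 j
    rw [← h2, ← add_sum_erase univ _ (mem_univ p.ms), ← add_sum_erase univ _ (mem_univ p.ms), h0,
      sum_congr rfl fun l hl => h1 l (ne_of_mem_erase hl), hi]
    ring
  · exact h1 i hi

theorem u_acc : p.uMk T s ∈ p.mdl.box.filter p.Acc := by
  have h1 := fun i => mem_Icc.1 (Fintype.mem_piFinset.1 hs i)
  refine mem_filter.2 ⟨p.mdl.mem_box.2 fun ⟨i, j⟩ => ?_, fun i => ?_, fun i j => ?_⟩
  · have a1 := single_le_sum (f := T i) (fun _ _ => Nat.zero_le _) (mem_univ j)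
    have a2 := single_le_sum (f := fun l => T l j) (fun _ _ => Nat.zero_le _) (mem_univ i)
    rw [(u_mem.1 hT).1] at a1
    rw [(u_mem.1 hT).2] at a2
    unfold uMk
    by_cases hi : i = p.ms
    · simp only [hi, if_true, p.cap_ms, le_refl, and_self]
    · have a3 := h1 i
      have a4 := (p.aa_le' i).trans (p.rh_le i)
      by_cases hj : j = p.ns
      · have := p.cap_ns hi
        simp only [hj, if_neg hi, if_true] at a1 ⊢
        omega
      · have := p.cap_ne hi hj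
        simp only [if_neg hi, if_neg hj] at a2 ⊢
        omega
  · have := h1 i
    rw [p.u_row hT hs]
    omega
  · rw [p.u_tb hT hs]; positivity

theorem u_tab_mk : p.tab (p.uMk T s) = T := by
  funext i j; rw [tab, p.u_tb hT hs, Int.toNat_natCast]

end

theorem u_sum (G : (I → J → ℕ) → ℝ) : ∑ x ∈ p.mdl.box.filter p.Acc, p.wt x * G (p.tab x) =
    (∑ s ∈ p.uS, p.uW s) * ∑ T ∈ tables p.r p.c, G T := by
  rw [sum_mul_sum, ← sum_product']
  refine sum_nbij' (fun x => (p.uSl x, p.tab x)) (fun z => p.uMk z.2 z.1) (fun x hx => ?_)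
    (fun z hz => ?_) (fun x hx => ?_) (fun z hz => ?_) fun x hx => ?_
  · have hx := mem_filter.1 hx
    refine mem_product.2 ⟨Fintype.mem_piFinset.2 fun i => mem_Icc.2 ?_, p.u_tab_mem hx.1 hx.2⟩
    have := hx.2.1 i
    simp only [uSl]
    omega
  · exact p.u_acc (mem_product.1 hz).2 (mem_product.1 hz).1
  · exact p.u_mk_tab (mem_filter.1 hx).1 (mem_filter.1 hx).2
  · exact Prod.ext (p.u_sl (mem_product.1 hz).2 (mem_product.1 hz).1)
      (p.u_tab_mk (mem_product.1 hz).2 (mem_product.1 hz).1)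
  · rw [p.u_wt (mem_filter.1 hx).2]

theorem unif : p.UnifStmt := by
  refine ⟨fun x hx h => p.u_tab_mem hx h, fun G => ?_⟩
  have h := p.u_sum fun _ => 1
  simp only [mul_one, sum_const, nsmul_eq_mul] at h
  rw [p.u_sum, h]
  rcases (tables p.r p.c).eq_empty_or_nonempty with h0 | h0
  · simp [h0]
  · have : ((tables p.r p.c).card : ℝ) ≠ 0 := by exact_mod_cast h0.card_pos.ne'
    field_simp

theorem u_div (a b : ℕ) : ((a / b : ℕ) : ℝ) ≤ a / b ∧ (a : ℝ) / b ≤ (a / b : ℕ) + 1 :=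
  ⟨Nat.cast_div_le, by rw [← Nat.floor_div_eq_div (K := ℝ)]; exact (Nat.lt_floor_add_one _).le⟩

omit [DecidableEq J] in
theorem u_WR (i : I) (t : ℤ) : p.WR i t ≤ p.ER i t ∧ p.ER i t ≤ p.WR i t + 1 := by
  unfold WR ER
  split_ifs
  · have := u_div ((t - p.rh i - p.mu i).natAbs ^ 2) (p.hh i ^ 2)
    rwa [Nat.cast_pow, Nat.cast_pow, Nat.cast_natAbs, Int.cast_abs, sq_abs] at this
  · rw [Nat.cast_mul, Nat.cast_natAbs]
    push_cast
    constructor <;> linarith

theorem u_WC (j : J) (t : ℤ) : p.WC j t ≤ p.EC j t ∧ p.EC j t ≤ p.WC j t + 1 := by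
  have e : ((max 0 (t - p.cc j) : ℤ) : ℝ) = ((t - p.cc j).toNat : ℕ) := by
    rw [max_comm, ← Int.toNat_eq_max, Int.cast_natCast]
  unfold WC EC
  rw [e]
  split_ifs
  · have := u_div ((t - p.cc j).toNat ^ 2) (p.gg j ^ 2)
    rwa [Nat.cast_pow, Nat.cast_pow] at this
  · push_cast
    constructor <;> linarith

theorem u_pi (x : St I J) :
    p.mdl.pi x = p.gam ^ (∑ i, p.ER i (row x i) + ∑ j, p.EC j (col x j)) := by
  rw [p.gam_add, Real.rpow_sum_of_pos p.gam_pos, Real.rpow_sum_of_pos p.gam_pos]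
  rfl

theorem u_round (x : St I J) : p.mdl.pi x ≤ p.wt x ∧ p.wt x ≤ 2 * p.mdl.pi x := by
  have e : p.wt x = p.gam ^ (p.W x : ℝ) := (Real.rpow_natCast _ _).symm
  rw [e, u_pi, W]
  push_cast
  refine ⟨p.gam_anti (add_le_add (sum_le_sum fun i _ => (p.u_WR i _).1)
    (sum_le_sum fun j _ => (p.u_WC j _).1)),
    p.gam_dn (d := Fintype.card I + Fintype.card J) ?_ ?_ zero_le_two⟩
  · have h1 := sum_le_sum (s := univ) fun i _ => (p.u_WR i (row x i)).2
    have h2 := sum_le_sum (s := univ) fun j _ => (p.u_WC j (col x j)).2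
    simp only [sum_add_distrib, sum_const, card_univ, nsmul_eq_mul, mul_one] at h1 h2
    linarith
  · have h1 := p.gam_lo (y := Fintype.card I + Fintype.card J) (by positivity)
    have h2 : 64 * (Fintype.card I : ℝ) ≤ p.q := by exact_mod_cast p.mn_le.2.2.1
    have h3 : 64 * (Fintype.card J : ℝ) ≤ p.q := by exact_mod_cast p.mn_le.2.2.2
    have h4 : 2 * ((Fintype.card I : ℝ) + Fintype.card J) / p.q ≤ 1 / 2 := by
      rw [div_le_iff₀ p.qR_pos]; linarith
    linarith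

omit [DecidableEq I] [DecidableEq J] in
theorem u_sq {a h : ℕ} (ha : a ≤ 2 * p.q ^ 6 * h) : a ^ 2 / h ^ 2 ≤ p.q ^ 17 := by
  refine Nat.div_le_of_le_mul ((Nat.pow_le_pow_left ha 2).trans ?_)
  have h1 : 4 ≤ p.q ^ 5 := le_trans (by have := p.q_ge; omega) (Nat.le_self_pow (by norm_num) _)
  calc _ = 4 * (h ^ 2 * p.q ^ 12) := by ring
    _ ≤ p.q ^ 5 * (h ^ 2 * p.q ^ 12) := Nat.mul_le_mul_right _ h1
    _ = _ := by ring

omit [DecidableEq J] in
theorem u_WR_le (i : I) {t : ℤ} (h0 : 0 ≤ t) (h1 : t ≤ p.q * (p.rh i + 1)) :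
    p.WR i t ≤ p.q ^ 17 := by
  obtain ⟨n, rfl⟩ := Int.eq_ofNat_of_zero_le h0
  have h2 : n ≤ p.q * (p.rh i + 1) := by exact_mod_cast h1
  have hq := p.q_ge
  unfold WR mu
  split_ifs with hb
  · obtain ⟨-, a2, a3⟩ := p.div_facts (k := 8) hb
    refine p.u_sq ?_
    unfold hh
    generalize p.rh i / p.q ^ 5 = g at *
    have b1 : p.q * (p.rh i + 1) ≤ 2 * p.q ^ 6 * g :=
      (Nat.mul_le_mul_left _ a3).trans_eq (by ring)
    have b2 : p.q * g ≤ p.q ^ 5 * g := Nat.mul_le_mul_right _ (Nat.le_self_pow (by norm_num) _)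
    have b3 : 2 * (p.rh i + 1) ≤ p.q * (p.rh i + 1) := Nat.mul_le_mul_right _ (by omega)
    omega
  · have b1 : p.rh i + 1 ≤ p.q * (p.rh i + 1) := Nat.le_mul_of_pos_left _ (by omega)
    have b2 : p.q * (p.rh i + 1) ≤ p.q * p.q ^ 13 := Nat.mul_le_mul_left _ (by omega)
    calc _ ≤ p.q * p.q * p.q * (p.q * p.q ^ 13) :=
          Nat.mul_le_mul (Nat.mul_le_mul (Nat.mul_le_mul_right _ (by omega)) p.b_le) (by omega)
      _ = _ := by ring

theorem u_WC_le (j : J) {t : ℤ} (h0 : 0 ≤ t) (h1 : t ≤ p.q * (p.c j + 1)) :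
    p.WC j t ≤ p.q ^ 17 := by
  obtain ⟨n, rfl⟩ := Int.eq_ofNat_of_zero_le h0
  have h2 : n ≤ p.q * (p.c j + 1) := by exact_mod_cast h1
  have hq := p.q_ge
  unfold WC
  split_ifs with hb
  · obtain ⟨-, a2, a3⟩ := p.div_facts (k := 7) hb
    refine p.u_sq ?_
    unfold gg
    have b1 : p.q * (p.c j + 1) ≤ 2 * p.q ^ 6 * (p.c j / p.q ^ 5) :=
      (Nat.mul_le_mul_left _ a3).trans_eq (by ring)
    omega
  · have b2 : p.q * (p.c j + 1) ≤ p.q * p.q ^ 12 := Nat.mul_le_mul_left _ (by omega)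
    calc _ ≤ p.q * p.q * (p.q * p.q ^ 12) :=
          Nat.mul_le_mul (Nat.mul_le_mul_left _ p.b_le) (by omega)
      _ = p.q ^ 15 := by ring
      _ ≤ _ := Nat.pow_le_pow_right p.q_pos (by norm_num)

theorem u_W_le {x : St I J} (h : x ∈ p.mdl.box) : p.W x ≤ p.q ^ 18 := by
  have h1 := sum_le_card_nsmul univ (fun i => p.WR i (row x i)) _
    fun i _ => p.u_WR_le i (p.row_nn h i) (p.row_le h i)
  have h2 := sum_le_card_nsmul univ (fun j => p.WC j (col x j)) _
    fun j _ => p.u_WC_le j (p.col_nn h j) (p.col_le h j)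
  simp only [card_univ, smul_eq_mul] at h1 h2
  obtain ⟨-, -, h3, h4⟩ := p.mn_le
  refine (Nat.add_le_add h1 h2).trans ?_
  rw [← add_mul, pow_succ' p.q 17]
  exact Nat.mul_le_mul_right _ (by omega)

theorem u_near {x : St I J} (h : x ∈ p.mdl.box) {i : I} (hi : i ≠ p.ms) (j : J) {t : ℤ}
    (h1 : p.q ^ 13 * |t - x (i, j)| ≤ p.r i) (h2 : p.q ^ 13 * |t - x (i, j)| ≤ p.c j) :
    p.mdl.pi x ≤ 4 * p.mdl.pi (Function.update x (i, j) t) := by
  obtain ⟨τ, rfl⟩ : ∃ τ, t = x (i, j) + τ := ⟨t - x (i, j), by ring⟩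
  rw [add_sub_cancel_left] at h1 h2
  have e0 : Function.update x (i, j) (x (i, j) + τ) = x + e (i, j) τ := by
    funext d
    by_cases hd : d = (i, j)
    · simp [hd, e_apply]
    · simp [hd, e_apply]
  have q0 : (0 : ℤ) < p.q := by exact_mod_cast p.q_pos
  have a1 : p.mdl.Lam x ≤ 2 * p.mdl.Lam (x + e (i, j) τ) := by
    refine p.mdl.Lam_le i (fun l hl => by simp [row_e, hl]) ?_
    rw [row_add, row_e, if_pos rfl]
    by_cases h0 : τ = 0
    · rw [h0, add_zero]; linarith [p.mdl.Lpos i (row x i)]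
    have h3 : (1 : ℤ) ≤ |τ| := Int.one_le_abs h0
    have hb : p.q ^ 13 ≤ p.rh i := by
      rw [p.rh_eq hi]
      exact_mod_cast (le_mul_of_one_le_right (by positivity) h3).trans h1
    refine p.gam_dn (d := 1) ?_ (p.gam_nine (by norm_num)) zero_le_two
    have h5 : (p.rh i : ℤ) + 1 ≤ 2 * p.q ^ 5 * p.hh i := by
      exact_mod_cast (p.div_facts (k := 8) hb).2.2
    have h6 : (2 : ℤ) ≤ p.q := by have := p.q_ge; omega
    have := (abs_le.1 (p.ER_near hb (p.row_nn h i) (p.row_le h i) (τ := τ) (by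
      refine le_of_mul_le_mul_left ?_ (show (0 : ℤ) < p.q ^ 6 by positivity)
      have := mul_le_mul_of_nonneg_right h6 (show (0 : ℤ) ≤ p.q ^ 5 * p.hh i by positivity)
      rw [← p.rh_eq hi] at h1
      nlinarith))).2
    linarith
  have a2 : p.mdl.Psi x ≤ 2 * p.mdl.Psi (x + e (i, j) τ) := by
    refine p.mdl.Psi_le j (fun l hl => by simp [col_e, hl]) ?_
    rw [col_add, col_e, if_pos rfl]
    rcases le_total 0 τ with h0 | h0
    · exact p.P_width j h0 (p.col_le h j) (by rwa [abs_of_nonneg h0] at h2)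
    · have := p.mdl.Panti j (show col x j + τ ≤ col x j by omega)
      linarith [p.mdl.Ppos j (col x j + τ)]
  rw [e0, Mdl.pi, Mdl.pi]
  have := mul_le_mul a1 a2 (p.mdl.Psi_pos _).le (by linarith [p.mdl.Lam_pos (x + e (i, j) τ)])
  linarith

theorem u_width (c : I × J) {x : St I J} (h : x ∈ p.mdl.box) :
    ((p.mdl.cap c : ℝ) + 1) * p.mdl.pi x ≤
      (p.q : ℝ) ^ 14 * ∑ t ∈ Icc 0 (p.mdl.cap c), p.mdl.pi (Function.update x c t) := by
  obtain ⟨i, j⟩ := c
  have hp := p.mdl.pi_pos x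
  by_cases hi : i = p.ms
  · subst hi
    rw [p.cap_ms, Icc_self, sum_singleton, ← p.u_zero h j, Function.update_eq_self, p.u_zero h j]
    have : (1 : ℝ) ≤ p.q ^ 14 := one_le_pow₀ (by linarith [p.qR])
    push_cast
    nlinarith
  obtain ⟨σ, hσ⟩ : ∃ σ, σ = min (p.r i) (p.c j) / p.q ^ 13 := ⟨_, rfl⟩
  have q0 : 0 < p.q ^ 13 := pow_pos p.q_pos _
  have s1 : p.q ^ 13 * σ ≤ min (p.r i) (p.c j) := hσ ▸ Nat.mul_div_le _ _
  have s2 : min (p.r i) (p.c j) < p.q ^ 13 * (σ + 1) := hσ ▸ Nat.lt_mul_div_succ _ q0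
  have s3 : σ ≤ p.q ^ 13 * σ := Nat.le_mul_of_pos_left _ q0
  have s4 : 2 * (σ : ℤ) ≤ p.mdl.cap (i, j) ∧
      4 * (p.mdl.cap (i, j) + 1) ≤ (p.q * (min (p.r i) (p.c j) + 1) : ℕ) := by
    have hq := p.q_ge
    by_cases hj : j = p.ns
    · have a1 := p.cap_ns hi
      have a2 := (p.r_le i).trans p.N_le
      have a3 := p.mn_le.2.2.2
      have a4 : 1 ≤ Fintype.card J := Fintype.card_pos_iff.2 ⟨j⟩
      have a5 : p.r i + 1 ≤ Fintype.card J * (min (p.r i) (p.c p.ns) + 1) := by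
        rcases le_total (p.r i) (p.c p.ns) with h1 | h1
        · rw [min_eq_left h1]; exact Nat.le_mul_of_pos_left _ a4
        · rw [min_eq_right h1, mul_add]; omega
      have a6 := Nat.mul_le_mul_right (min (p.r i) (p.c p.ns) + 1) a3
      rw [mul_assoc] at a6
      rw [hj] at s1 ⊢
      omega
    · have a1 := p.cap_ne hi hj
      have a6 := Nat.mul_le_mul_right (min (p.r i) (p.c j) + 1) hq
      omega
  have hx := p.mdl.mem_box.1 h (i, j)
  obtain ⟨a, a1, a2, a3, a4⟩ : ∃ a : ℤ, 0 ≤ a ∧ a + σ ≤ p.mdl.cap (i, j) ∧ a ≤ x (i, j) ∧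
      x (i, j) ≤ a + σ := by
    by_cases h1 : x (i, j) + σ ≤ p.mdl.cap (i, j)
    · exact ⟨x (i, j), hx.1, h1, le_rfl, by omega⟩
    · exact ⟨x (i, j) - σ, by omega, by omega, by omega, by omega⟩
  have b1 := sum_le_sum_of_subset_of_nonneg (f := fun t => p.mdl.pi (Function.update x (i, j) t))
    (Icc_subset_Icc a1 a2) fun _ _ _ => (p.mdl.pi_pos _).le
  have b2 := card_nsmul_le_sum (Icc a (a + σ)) (fun t => p.mdl.pi (Function.update x (i, j) t))
    (p.mdl.pi x / 4) fun t ht => by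
      have ht := mem_Icc.1 ht
      have h1 : (p.q : ℤ) ^ 13 * |t - x (i, j)| ≤ (p.q ^ 13 * σ : ℕ) := by
        push_cast
        exact mul_le_mul_of_nonneg_left (abs_le.2 ⟨by omega, by omega⟩) (by positivity)
      have := p.u_near h hi j (t := t) (by omega) (by omega)
      linarith
  rw [Int.card_Icc, show (a + σ + 1 - a).toNat = σ + 1 by omega, nsmul_eq_mul] at b2
  have b3 : 4 * (p.mdl.cap (i, j) + 1) ≤ (p.q ^ 14 * (σ + 1) : ℕ) := by
    refine s4.2.trans (Int.ofNat_le.2 ?_)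
    rw [pow_succ', mul_assoc]
    exact Nat.mul_le_mul_left _ s2
  have b4 : 4 * ((p.mdl.cap (i, j) : ℝ) + 1) ≤ p.q ^ 14 * (σ + 1) := by exact_mod_cast b3
  have b5 := mul_le_mul_of_nonneg_left (b2.trans b1) (show (0 : ℝ) ≤ p.q ^ 14 by positivity)
  have b6 := mul_le_mul_of_nonneg_right b4 hp.le
  push_cast at b5
  linarith

theorem round : p.RoundStmt := ⟨p.u_round, fun _ h => p.u_W_le h, fun c _ h => p.u_width c h⟩

end Par

end Vale.Agent.P328
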